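import Mathlib

open MeasureTheory

namespace Vale.Agent.P074

/-- `ℝᵈ` with its Euclidean norm. -/
abbrev E (d : ℕ) : Type := EuclideanSpace ℝ (Fin d)

/-- The uniform probability measure `|K|⁻¹ 1_K dx` on `K`. -/
noncomputable def unif {d : ℕ} (K : Set (E d)) : Measure (E d) :=
  (volume K)⁻¹ • volume.restrict K

/-- `μ` is a Borel probability measure supported in `Y`. -/
def ProbOn {d : ℕ} (Y : Set (E d)) (μ : Measure (E d)) : Prop :=
  IsProbabilityMeasure μ ∧ μ Yᶜ = 0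

/-- `T` is a quadratic optimal transport map from `ρ` to `μ`: a Borel map with `T_# ρ = μ` that
minimizes `∫ |x - T x|² dρ` among all Borel maps `S` with `S_# ρ = μ`. -/
def IsOptimalMap {d : ℕ} (ρ μ : Measure (E d)) (T : E d → E d) : Prop :=
  Measurable T ∧ ρ.map T = μ ∧
    ∀ S : E d → E d, Measurable S → ρ.map S = μ →
      ∫ x, ‖x - T x‖ ^ 2 ∂ρ ≤ ∫ x, ‖x - S x‖ ^ 2 ∂ρ

/-- `γ` is a coupling of `μ` and `ν`. -/
def IsCoupling {d : ℕ} (γ : Measure (E d × E d)) (μ ν : Measure (E d)) : Prop :=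
  γ.map Prod.fst = μ ∧ γ.map Prod.snd = ν

/-- The quadratic Wasserstein distance
`W₂(μ, ν) = inf_γ (∫ |y - z|² dγ(y, z))^(1/2)` over couplings `γ` of `μ` and `ν`. -/
noncomputable def W2 {d : ℕ} (μ ν : Measure (E d)) : ℝ :=
  sInf {r : ℝ | ∃ γ : Measure (E d × E d), IsCoupling γ μ ν ∧
    r = Real.sqrt (∫ p, ‖p.1 - p.2‖ ^ 2 ∂γ)}

/-- The exponent `α` is admissible in dimension `d`: for every compact convex `K` with nonempty
interior and every nonempty compact `Y` there is a constant `C` such that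
`‖T_μ - T_ν‖_{L²(ρ)} ≤ C W₂(μ, ν)^α` for all `μ, ν ∈ P(Y)`, where `ρ` is the uniform probability
measure on `K` and `T_μ`, `T_ν` are the optimal transport maps from `ρ` to `μ`, `ν`. -/
def Admissible (d : ℕ) (α : ℝ) : Prop :=
  ∀ K Y : Set (E d), IsCompact K → Convex ℝ K → (interior K).Nonempty →
    IsCompact Y → Y.Nonempty →
    ∃ C : ℝ, ∀ μ ν : Measure (E d), ProbOn Y μ → ProbOn Y ν →
      ∀ T S : E d → E d, IsOptimalMap (unif K) μ T → IsOptimalMap (unif K) ν S →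
        Real.sqrt (∫ x, ‖T x - S x‖ ^ 2 ∂(unif K)) ≤ C * W2 μ ν ^ α

end Vale.Agent.P074
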