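import Mathlib
import Vale.Agent.P074.Defs

open MeasureTheory
open scoped RealInnerProductSpace ENNReal NNReal

namespace Vale.Agent.P074

/-- Laguerre cells. -/
def Lag {d : ℕ} {ι : Type*} (z : ι → E d) (ψ : ι → ℝ) (i : ι) : Set (E d) :=
  {x | ∀ j, ⟪x, z j⟫ - ψ j ≤ ⟪x, z i⟫ - ψ i}

/-- The potential `max_i (⟨x, z_i⟩ - ψ_i)`. -/
noncomputable def pot {d : ℕ} {ι : Type*} (z : ι → E d) (ψ : ι → ℝ) (x : E d) : ℝ :=
  ⨆ i, (⟪x, z i⟫ - ψ i)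

end Vale.Agent.P074
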