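import Mathlib
import Vale.Agent.P074.Lag

open MeasureTheory Set
open scoped RealInnerProductSpace ENNReal NNReal

namespace Vale.Agent.P074

lemma pow_bound (d : ℕ) {t T : ℝ} (ht : 0 ≤ t) (hT : t ≤ T) :
    (1 + t) ^ d - 1 ≤ d * t * (1 + T) ^ d := by
  induction d with
  | zero => simp
  | succ d ih =>
    have h1 : (1:ℝ) ≤ (1 + T) ^ (d+1) := one_le_pow₀ (by linarith)
    have h2 : (1 + T) ^ d ≤ (1 + T) ^ (d+1) := pow_le_pow_right₀ (by linarith) (by omega)
    have h3 : (1 + t) ^ d ≤ (1 + T) ^ d := pow_le_pow_left₀ (by linarith) (by linarith) d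
    have h4 : (1 + t) ^ d ≤ (1 + T) ^ (d + 1) := h3.trans h2
    have h5 : (d:ℝ) * t * (1 + T) ^ d ≤ d * t * (1 + T) ^ (d + 1) := by gcongr
    push_cast
    calc (1 + t) ^ (d+1) - 1 = ((1 + t) ^ d - 1) + t * (1 + t) ^ d := by ring
      _ ≤ d * t * (1 + T) ^ (d + 1) + t * (1 + T) ^ (d + 1) := by
          gcongr
          linarith
      _ = (d + 1) * t * (1 + T) ^ (d + 1) := by ring

/-- L2 -/
theorem shift_bound {d : ℕ} {K : Set (E d)} (hK : IsCompact K) (hKc : Convex ℝ K)
    (hKi : (interior K).Nonempty) :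
    ∃ C : ℝ, 0 ≤ C ∧ ∀ v : E d, ‖v‖ ≤ 1 →
      volume.real (((fun x => x + v) '' K) \ K) ≤ C * ‖v‖ := by
  obtain ⟨x₀, hx₀⟩ := hKi
  obtain ⟨r', hr', hball⟩ := Metric.isOpen_iff.1 isOpen_interior x₀ hx₀
  set r := r' / 2 with hr
  have hrpos : 0 < r := by positivity
  have hcb : Metric.closedBall x₀ r ⊆ K := by
    refine (Metric.closedBall_subset_ball ?_).trans (hball.trans interior_subset)
    rw [hr]; linarith
  have hx₀K : x₀ ∈ K := interior_subset hx₀
  refine ⟨d * (1 / r) * (1 + 1 / r) ^ d * volume.real K, by positivity, ?_⟩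
  intro v hv
  by_cases hv0 : v = 0
  · simp [hv0]
  have hvpos : 0 < ‖v‖ := norm_pos_iff.2 hv0
  set t := ‖v‖ / r with ht
  have htpos : 0 < t := by positivity
  have ht1 : t ≤ 1 / r := by rw [ht]; gcongr
  -- `K + v` is in the homothetic copy
  have hsub1 : (fun x => x + v) '' K ⊆ AffineMap.homothety x₀ (1 + t) '' K := by
    rintro _ ⟨k, hk, rfl⟩
    have hy : x₀ + (r / ‖v‖) • v ∈ K := by
      apply hcb
      rw [Metric.mem_closedBall, dist_eq_norm, add_sub_cancel_left, norm_smul,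
        Real.norm_of_nonneg (by positivity)]
      field_simp
      rfl
    refine ⟨(1 / (1 + t)) • k + (t / (1 + t)) • (x₀ + (r / ‖v‖) • v), ?_, ?_⟩
    · apply hKc hk hy (by positivity) (by positivity)
      field_simp
    · rw [AffineMap.homothety_apply, vsub_eq_sub, vadd_eq_add]
      have e1 : (1 + t) * (1 / (1 + t)) = 1 := by field_simp
      have e2 : (1 + t) * (t / (1 + t)) = t := by field_simp
      have e3 : t * (r / ‖v‖) = 1 := by rw [ht]; field_simp
      simp only [smul_sub, smul_add, smul_smul, ← mul_assoc, e1, e2, e3, one_smul, add_smul]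
      abel
  have hsub2 : K ⊆ AffineMap.homothety x₀ (1 + t) '' K := by
    intro k hk
    refine ⟨(1 / (1 + t)) • k + (t / (1 + t)) • x₀, ?_, ?_⟩
    · apply hKc hk hx₀K (by positivity) (by positivity)
      field_simp
    · rw [AffineMap.homothety_apply, vsub_eq_sub, vadd_eq_add]
      have e1 : (1 + t) * (1 / (1 + t)) = 1 := by field_simp
      have e2 : (1 + t) * (t / (1 + t)) = t := by field_simp
      simp only [smul_sub, smul_add, smul_smul, e1, e2, one_smul, add_smul]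
      abel
  have hvolH : volume.real (AffineMap.homothety x₀ (1 + t) '' K) = (1 + t) ^ d * volume.real K := by
    rw [Measure.real, Measure.addHaar_image_homothety, ENNReal.toReal_mul,
      ENNReal.toReal_ofReal (abs_nonneg _), finrank_euclideanSpace_fin, abs_of_pos (by positivity),
      Measure.real]
  have hfinK : volume K ≠ ∞ := hK.measure_lt_top.ne
  have hcH : IsCompact (AffineMap.homothety x₀ (1 + t) '' K) :=
    hK.image (AffineMap.homothety_continuous _ _)
  have hfinH : volume (AffineMap.homothety x₀ (1 + t) '' K) ≠ ∞ := hcH.measure_lt_top.ne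
  calc volume.real (((fun x => x + v) '' K) \ K)
      ≤ volume.real ((AffineMap.homothety x₀ (1 + t) '' K) \ K) := by
        exact measureReal_mono (Set.sdiff_subset_sdiff_left hsub1)
          ((measure_mono Set.sdiff_subset).trans_lt hfinH.lt_top).ne
    _ = (1 + t) ^ d * volume.real K - volume.real K := by
        rw [measureReal_sdiff hsub2 hK.measurableSet, hvolH]
    _ = ((1 + t) ^ d - 1) * volume.real K := by ring
    _ ≤ (d * t * (1 + 1 / r) ^ d) * volume.real K := by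
        gcongr
        exact pow_bound d htpos.le ht1
    _ = d * (1 / r) * (1 + 1 / r) ^ d * volume.real K * ‖v‖ := by
        rw [ht]; field_simp

/-- subgradient data: `T x` is a subgradient of `φ` at `x`, bounded by `L`. -/
structure IsSub {d : ℕ} (φ : E d → ℝ) (T : E d → E d) (L : ℝ) : Prop where
  sub : ∀ x y, φ x + ⟪T x, y - x⟫ ≤ φ y
  bdd : ∀ x, ‖T x‖ ≤ L
  meas : Measurable T

lemma IsSub.L_nonneg {d : ℕ} {φ : E d → ℝ} {T : E d → E d} {L : ℝ} (h : IsSub φ T L) : 0 ≤ L :=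
  (norm_nonneg _).trans (h.bdd 0)

lemma IsSub.continuous {d : ℕ} {φ : E d → ℝ} {T : E d → E d} {L : ℝ} (h : IsSub φ T L) :
    Continuous φ := by
  have hL := h.L_nonneg
  have h1 : ∀ x y, φ y - φ x ≤ L * ‖y - x‖ := by
    intro x y
    have h2 := h.sub y x
    have h3 : ⟪T y, y - x⟫ ≤ L * ‖y - x‖ :=
      (real_inner_le_norm _ _).trans (by gcongr; exact h.bdd y)
    have h4 : ⟪T y, x - y⟫ = - ⟪T y, y - x⟫ := by rw [← inner_neg_right, neg_sub]
    linarith
  have : LipschitzWith (Real.toNNReal L) φ := by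
    apply LipschitzWith.of_dist_le_mul
    intro x y
    rw [Real.coe_toNNReal _ hL, Real.dist_eq, dist_eq_norm, abs_le]
    constructor
    · have := h1 x y
      rw [norm_sub_rev] at this
      linarith
    · exact h1 y x
  exact this.continuous

/-- integral of a bounded function over a shifted set -/
lemma integral_shift_le {d : ℕ} {K : Set (E d)} (hK : IsCompact K) {C : ℝ}
    (hC : ∀ v : E d, ‖v‖ ≤ 1 → volume.real (((fun x => x + v) '' K) \ K) ≤ C * ‖v‖)
    {F : E d → ℝ} {L : ℝ} (hF : Measurable F) (hFL : ∀ x, |F x| ≤ L) {v : E d} (hv : ‖v‖ ≤ 1) :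
    ∫ x in K, (F (x + v) - F x) ≤ 2 * L * C * ‖v‖ := by
  have hL : 0 ≤ L := (abs_nonneg _).trans (hFL 0)
  set K' := (fun x => x + v) '' K with hK'
  have hcK' : IsCompact K' := hK.image (by fun_prop)
  have hint : ∀ S : Set (E d), IsCompact S → IntegrableOn F S := by
    intro S hS
    exact Measure.integrableOn_of_bounded hS.measure_lt_top.ne hF.aestronglyMeasurable
      (M := L) (by filter_upwards with x; exact hFL x)
  have hintv : IntegrableOn (fun x => F (x + v)) K := by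
    exact Measure.integrableOn_of_bounded hK.measure_lt_top.ne
      (hF.comp (measurable_id.add_const v)).aestronglyMeasurable
      (M := L) (by filter_upwards with x; exact hFL _)
  rw [integral_sub hintv (hint K hK)]
  have e1 : ∫ x in K, F (x + v) = ∫ y in K', F y :=
    ((measurePreserving_add_right volume v).setIntegral_image_emb
      (measurableEmbedding_addRight v) F K).symm
  have e2 := integral_inter_add_sdiff (μ := volume) hK.measurableSet (hint K' hcK')
  have e3 := integral_inter_add_sdiff (μ := volume) hcK'.measurableSet (hint K hK)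
  rw [inter_comm] at e3
  have b1 : |∫ x in K' \ K, F x| ≤ L * volume.real (K' \ K) := by
    rw [← Real.norm_eq_abs]
    exact norm_setIntegral_le_of_norm_le_const
      ((measure_mono Set.sdiff_subset).trans_lt hcK'.measure_lt_top) (fun x _ => hFL x)
  have b2 : |∫ x in K \ K', F x| ≤ L * volume.real (K \ K') := by
    rw [← Real.norm_eq_abs]
    exact norm_setIntegral_le_of_norm_le_const
      ((measure_mono Set.sdiff_subset).trans_lt hK.measure_lt_top) (fun x _ => hFL x)
  -- `K \ K'` is a translate of `(K - v) \ K`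
  have e4 : volume.real (K \ K') = volume.real (((fun x => x + (-v)) '' K) \ K) := by
    have : (fun x => x + v) '' (((fun x => x + (-v)) '' K) \ K) = K \ K' := by
      rw [Set.image_sdiff (add_left_injective v), Set.image_image]
      simp [hK']
    rw [← this, Measure.real, Measure.real, Set.image_add_right, measure_preimage_add_right]
  have c1 : volume.real (K' \ K) ≤ C * ‖v‖ := hC v hv
  have c2 : volume.real (K \ K') ≤ C * ‖v‖ := by
    rw [e4]
    have := hC (-v) (by rwa [norm_neg])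
    rwa [norm_neg] at this
  rw [e1, ← e2, ← e3]
  have d1 := (abs_le.1 b1).2
  have d2 := (abs_le.1 b2).1
  have d3 : L * volume.real (K' \ K) ≤ L * (C * ‖v‖) := by gcongr
  have d4 : L * volume.real (K \ K') ≤ L * (C * ‖v‖) := by gcongr
  linarith

lemma integrableOn_bdd {d : ℕ} {K : Set (E d)} (hK : IsCompact K) {F : E d → ℝ}
    (hF : Measurable F) {B : ℝ} (hB : ∀ x ∈ K, |F x| ≤ B) : IntegrableOn F K :=
  Measure.integrableOn_of_bounded hK.measure_lt_top.ne hF.aestronglyMeasurable (M := B)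
    (ae_restrict_of_forall_mem hK.measurableSet hB)

/-- monotone increments -/
lemma IsSub.incr_nonneg {d : ℕ} {φ : E d → ℝ} {T : E d → E d} {L : ℝ} (h : IsSub φ T L)
    {x e : E d} {t : ℝ} (ht : 0 < t) : 0 ≤ ⟪e, T (x + t • e) - T x⟫ := by
  have h1 := h.sub x (x + t • e)
  have h2 := h.sub (x + t • e) x
  have e1 : x + t • e - x = t • e := by abel
  have e2 : x - (x + t • e) = -(t • e) := by abel
  rw [e1, inner_smul_right] at h1
  rw [e2, inner_neg_right, inner_smul_right] at h2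
  rw [inner_sub_right, real_inner_comm, real_inner_comm (T x)]
  have : t * (⟪T (x + t • e), e⟫ - ⟪T x, e⟫) ≥ 0 := by linarith
  exact nonneg_of_mul_nonneg_right this ht

lemma IsSub.incr_le {d : ℕ} {φ : E d → ℝ} {T : E d → E d} {L : ℝ} (h : IsSub φ T L)
    {x e : E d} {t : ℝ} (he : ‖e‖ = 1) : |⟪e, T (x + t • e) - T x⟫| ≤ 2 * L := by
  calc |⟪e, T (x + t • e) - T x⟫| ≤ ‖e‖ * ‖T (x + t • e) - T x‖ := abs_real_inner_le_norm _ _
    _ ≤ 1 * (L + L) := by
        rw [he]
        gcongr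
        exact (norm_sub_le _ _).trans (add_le_add (h.bdd _) (h.bdd _))
    _ = 2 * L := by ring

lemma IsSub.incr_meas {d : ℕ} {φ : E d → ℝ} {T : E d → E d} {L : ℝ} (h : IsSub φ T L)
    (e : E d) (t : ℝ) : Measurable fun x => ⟪e, T (x + t • e) - T x⟫ :=
  ((h.meas.comp (measurable_id.add_const _)).sub h.meas).const_inner

lemma IsSub.integral_incr_le {d : ℕ} {K : Set (E d)} (hK : IsCompact K) {C : ℝ}
    (hC : ∀ v : E d, ‖v‖ ≤ 1 → volume.real (((fun x => x + v) '' K) \ K) ≤ C * ‖v‖)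
    {φ : E d → ℝ} {T : E d → E d} {L : ℝ} (h : IsSub φ T L)
    {e : E d} (he : ‖e‖ = 1) {t : ℝ} (ht : 0 < t) (ht1 : t ≤ 1) :
    ∫ x in K, ⟪e, T (x + t • e) - T x⟫ ≤ 2 * L * C * t := by
  have hn : ‖t • e‖ = t := by rw [norm_smul, he, Real.norm_of_nonneg ht.le, mul_one]
  have := integral_shift_le hK hC (F := fun x => ⟪e, T x⟫) (L := L) h.meas.const_inner
    (fun x => (abs_real_inner_le_norm _ _).trans (by rw [he, one_mul]; exact h.bdd x))
    (v := t • e) (by rw [hn]; exact ht1)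
  rw [hn] at this
  simpa only [inner_sub_right] using this

lemma norm_le_sum_inner {d : ℕ} (v : E d) :
    ‖v‖ ≤ ∑ i : Fin d, |⟪(EuclideanSpace.single i (1:ℝ) : E d), v⟫| := by
  have h := (EuclideanSpace.basisFun (Fin d) ℝ).sum_repr v
  calc ‖v‖ = ‖∑ i, (EuclideanSpace.basisFun (Fin d) ℝ).repr v i •
        (EuclideanSpace.basisFun (Fin d) ℝ) i‖ := by rw [h]
    _ ≤ ∑ i, ‖(EuclideanSpace.basisFun (Fin d) ℝ).repr v i •
        (EuclideanSpace.basisFun (Fin d) ℝ) i‖ := norm_sum_le _ _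
    _ = _ := by
        apply Finset.sum_congr rfl
        intro i _
        rw [norm_smul, EuclideanSpace.inner_single_left]
        simp

lemma norm_sq_eq_sum_inner {d : ℕ} (v : E d) :
    ‖v‖ ^ 2 = ∑ i : Fin d, ⟪(EuclideanSpace.single i (1:ℝ) : E d), v⟫ ^ 2 := by
  rw [EuclideanSpace.norm_sq_eq]
  apply Finset.sum_congr rfl
  intro i _
  rw [EuclideanSpace.inner_single_left]
  simp

/-- L3 -/
theorem gap_lemma {d : ℕ} {K : Set (E d)} (hK : IsCompact K) (hKc : Convex ℝ K)
    (hKi : (interior K).Nonempty) :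
    ∃ C : ℝ, 0 ≤ C ∧ ∀ (L : ℝ) (φ : E d → ℝ) (T S : E d → E d) (c : E d → ℝ),
      IsSub φ T L → Measurable S → (∀ x, ‖S x‖ ≤ L) → Measurable c →
      (∃ B, ∀ x ∈ K, |c x| ≤ B) →
      (∀ x ∈ K, ∀ x', ‖x' - x‖ ≤ 1 → ⟪x', S x⟫ ≤ φ x' + c x) →
      ∀ h : ℝ, 0 < h → h ≤ 1 →
        ∫ x in K, ‖S x - T x‖ ≤ C * (L * h + (∫ x in K, (φ x + c x - ⟪x, S x⟫)) / h) := by
  obtain ⟨C₂, hC₂, hshift⟩ := shift_bound hK hKc hKi
  refine ⟨d * (4 * C₂ + 1), by positivity, ?_⟩
  rintro L φ T S c hφ hS hSL hc ⟨B, hB⟩ hdual h hh hh1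
  have hL := hφ.L_nonneg
  have hφc := hφ.continuous
  set gap : E d → ℝ := fun x => φ x + c x - ⟪x, S x⟫ with hgap
  have hgap0 : ∀ x ∈ K, 0 ≤ gap x := by
    intro x hx
    have := hdual x hx x (by simp)
    simp only [hgap]; linarith
  have hgapm : Measurable gap := (hφc.measurable.add hc).sub (measurable_id.inner hS)
  obtain ⟨Bφ, hBφ⟩ := hK.exists_bound_of_continuousOn hφc.continuousOn
  obtain ⟨Bx, hBx⟩ := hK.exists_bound_of_continuousOn (f := fun x : E d => x) continuousOn_id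
  have hgapb : ∀ x ∈ K, |gap x| ≤ Bφ + B + Bx * L := by
    intro x hx
    have h1 : |φ x| ≤ Bφ := hBφ x hx
    have h2 := hB x hx
    have h3 : |⟪x, S x⟫| ≤ Bx * L := by
      refine (abs_real_inner_le_norm _ _).trans ?_
      have := hBx x hx
      have h0 : 0 ≤ Bx := (norm_nonneg _).trans this
      exact mul_le_mul this (hSL x) (norm_nonneg _) h0
    simp only [hgap]
    rw [abs_le] at *
    constructor <;> linarith [h1.1, h1.2, h2.1, h2.2, h3.1, h3.2]
  have hgapi : IntegrableOn gap K := integrableOn_bdd hK hgapm hgapb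
  -- pointwise bound
  have hpt : ∀ e : E d, ‖e‖ = 1 → ∀ x ∈ K,
      ⟪e, S x - T x⟫ ≤ ⟪e, T (x + h • e) - T x⟫ + gap x / h := by
    intro e he x hx
    have h1 := hdual x hx (x + h • e) (by
      rw [add_sub_cancel_left, norm_smul, he, Real.norm_of_nonneg hh.le, mul_one]; exact hh1)
    have h2 := hφ.sub (x + h • e) x
    have e2 : x - (x + h • e) = -(h • e) := by abel
    rw [e2, inner_neg_right, inner_smul_right] at h2
    rw [inner_add_left, inner_smul_left] at h1
    simp only [conj_trivial] at h1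
    rw [inner_sub_right, inner_sub_right, real_inner_comm (T (x + h • e)) e]
    have h3 : h * ⟪e, S x⟫ ≤ h * (⟪T (x + h • e), e⟫ + gap x / h) := by
      rw [mul_add, mul_div_cancel₀ _ hh.ne']
      simp only [hgap]; linarith
    have h4 := le_of_mul_le_mul_left h3 hh
    linarith
  have hpt2 : ∀ e : E d, ‖e‖ = 1 → ∀ x ∈ K,
      |⟪e, S x - T x⟫| ≤ ⟪e, T (x + h • e) - T x⟫ + ⟪-e, T (x + h • (-e)) - T x⟫ + gap x / h := by
    intro e he x hx
    have h1 := hpt e he x hx
    have h2 := hpt (-e) (by rw [norm_neg]; exact he) x hx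
    have h3 := hφ.incr_nonneg (x := x) (e := e) hh
    have h4 := hφ.incr_nonneg (x := x) (e := -e) hh
    rw [abs_le]
    constructor
    · have h5 : ⟪-e, S x - T x⟫ = - ⟪e, S x - T x⟫ := inner_neg_left _ _
      linarith
    · linarith
  have hint_m : ∀ e : E d, ‖e‖ = 1 → IntegrableOn (fun x => ⟪e, T (x + h • e) - T x⟫) K :=
    fun e he => integrableOn_bdd hK (hφ.incr_meas e h) (fun x _ => hφ.incr_le he)
  have hunit : ∀ i : Fin d, ‖(EuclideanSpace.single i (1:ℝ) : E d)‖ = 1 := by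
    intro i; simp
  have hST : IntegrableOn (fun x => ‖S x - T x‖) K := by
    apply integrableOn_bdd hK (hS.sub hφ.meas).norm (B := L + L)
    intro x _
    rw [abs_norm]
    exact (norm_sub_le _ _).trans (add_le_add (hSL x) (hφ.bdd x))
  calc ∫ x in K, ‖S x - T x‖
      ≤ ∫ x in K, ∑ i : Fin d, (⟪(EuclideanSpace.single i (1:ℝ) : E d),
          T (x + h • (EuclideanSpace.single i (1:ℝ) : E d)) - T x⟫ +
          ⟪-(EuclideanSpace.single i (1:ℝ) : E d),
          T (x + h • (-(EuclideanSpace.single i (1:ℝ) : E d))) - T x⟫ + gap x / h) := by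
        apply setIntegral_mono_on hST _ hK.measurableSet
        · intro x hx
          refine (norm_le_sum_inner _).trans (Finset.sum_le_sum fun i _ => ?_)
          exact hpt2 _ (hunit i) x hx
        · apply integrable_finsetSum
          intro i _
          exact ((hint_m _ (hunit i)).add (hint_m _ (by rw [norm_neg]; exact hunit i))).add
            (hgapi.div_const h)
    _ = ∑ i : Fin d, (∫ x in K, ⟪(EuclideanSpace.single i (1:ℝ) : E d),
          T (x + h • (EuclideanSpace.single i (1:ℝ) : E d)) - T x⟫) +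
        ∑ i : Fin d, (∫ x in K, ⟪-(EuclideanSpace.single i (1:ℝ) : E d),
          T (x + h • (-(EuclideanSpace.single i (1:ℝ) : E d))) - T x⟫) +
        ∑ i : Fin d, (∫ x in K, gap x) / h := by
        have hF : ∀ i : Fin d, IntegrableOn (fun x => ⟪(EuclideanSpace.single i (1:ℝ) : E d),
          T (x + h • (EuclideanSpace.single i (1:ℝ) : E d)) - T x⟫ +
          ⟪-(EuclideanSpace.single i (1:ℝ) : E d),
          T (x + h • (-(EuclideanSpace.single i (1:ℝ) : E d))) - T x⟫ + gap x / h) K := fun i =>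
          ((hint_m _ (hunit i)).add (hint_m _ (by rw [norm_neg]; exact hunit i))).add
            (hgapi.div_const h)
        rw [integral_finsetSum _ (fun i _ => hF i), ← Finset.sum_add_distrib,
          ← Finset.sum_add_distrib]
        apply Finset.sum_congr rfl
        intro i _
        have a1 := hint_m _ (hunit i)
        have a2 := hint_m (-(EuclideanSpace.single i (1:ℝ) : E d)) (by rw [norm_neg]; exact hunit i)
        rw [← integral_div, ← integral_add a1 a2]
        exact integral_add (a1.add a2) (hgapi.div_const h)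
    _ ≤ ∑ i : Fin d, 2 * L * C₂ * h + ∑ i : Fin d, 2 * L * C₂ * h +
        ∑ i : Fin d, (∫ x in K, gap x) / h := by
        gcongr with i _ i _
        · exact hφ.integral_incr_le hK hshift (hunit i) hh hh1
        · exact hφ.integral_incr_le hK hshift (by rw [norm_neg]; exact hunit i) hh hh1
    _ = d * (4 * C₂ * (L * h) + (∫ x in K, gap x) / h) := by
        simp only [Finset.sum_const, Finset.card_univ, Fintype.card_fin, nsmul_eq_mul]
        ring
    _ ≤ d * ((4 * C₂ + 1) * (L * h) + (4 * C₂ + 1) * ((∫ x in K, gap x) / h)) := by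
        have hI : 0 ≤ ∫ x in K, gap x := setIntegral_nonneg hK.measurableSet hgap0
        have hI' : 0 ≤ (∫ x in K, gap x) / h := by positivity
        have hLh : 0 ≤ L * h := by positivity
        gcongr
        · linarith
        · nlinarith
    _ = d * (4 * C₂ + 1) * (L * h + (∫ x in K, gap x) / h) := by ring

lemma interp_arith {L h W W' p m : ℝ} (hh : 0 < h) (hm0 : 0 ≤ m) (hm1 : m ≤ 4 * L)
    (u1 : h * p ≤ (W' - W) + h * m) (u2 : -(h * p) ≤ -(W' - W) + h * m) :
    p ^ 2 ≤ 4 / h ^ 2 * W' ^ 2 + 4 / h ^ 2 * W ^ 2 + 8 * L * m := by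
  have u3 : |h * p| ≤ |W' - W| + h * m := by
    rw [abs_le]
    constructor
    · linarith [neg_abs_le (W' - W)]
    · linarith [le_abs_self (W' - W)]
  have u4 : (h * p) ^ 2 ≤ (|W' - W| + h * m) ^ 2 := by
    rw [← sq_abs (h * p)]; exact pow_le_pow_left₀ (abs_nonneg _) u3 2
  have h5 : |W' - W| ^ 2 = (W' - W) ^ 2 := sq_abs _
  have u5 : (h * p) ^ 2 ≤ 2 * (W' - W) ^ 2 + 2 * (h * m) ^ 2 := by
    have := sq_nonneg (|W' - W| - h * m)
    nlinarith
  have u6 : (W' - W) ^ 2 ≤ 2 * W' ^ 2 + 2 * W ^ 2 := by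
    have := sq_nonneg (W' + W)
    nlinarith
  have u7 : m ^ 2 ≤ 4 * L * m := by nlinarith
  have hh2 : 0 < h ^ 2 := by positivity
  have u8 : h ^ 2 * p ^ 2 ≤ h ^ 2 * (4 / h ^ 2 * W' ^ 2 + 4 / h ^ 2 * W ^ 2 + 8 * L * m) := by
    have e : h ^ 2 * (4 / h ^ 2 * W' ^ 2 + 4 / h ^ 2 * W ^ 2 + 8 * L * m) =
        4 * W' ^ 2 + 4 * W ^ 2 + h ^ 2 * (8 * L * m) := by field_simp
    rw [e]
    have u9 : h ^ 2 * m ^ 2 ≤ h ^ 2 * (4 * L * m) := by gcongr
    have e2 : (h * p) ^ 2 = h ^ 2 * p ^ 2 := by ring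
    have e3 : (h * m) ^ 2 = h ^ 2 * m ^ 2 := by ring
    rw [e2, e3] at u5
    linarith
  exact le_of_mul_le_mul_left u8 hh2

lemma inner_diff_le {d : ℕ} {φ₀ φ₁ : E d → ℝ} {T₀ T₁ : E d → E d} {L : ℝ} (h₀ : IsSub φ₀ T₀ L)
    (h₁ : IsSub φ₁ T₁ L) {e : E d} (he : ‖e‖ = 1) (x : E d) :
    |⟪e, T₀ x - T₁ x⟫| ≤ 2 * L := by
  calc |⟪e, T₀ x - T₁ x⟫| ≤ ‖e‖ * ‖T₀ x - T₁ x‖ := abs_real_inner_le_norm _ _
    _ ≤ 1 * (L + L) := by
        rw [he]
        gcongr
        exact (norm_sub_le _ _).trans (add_le_add (h₀.bdd _) (h₁.bdd _))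
    _ = 2 * L := by ring

lemma interp_pt {d : ℕ} {φ₀ φ₁ : E d → ℝ} {T₀ T₁ : E d → E d} {L : ℝ} (h₀ : IsSub φ₀ T₀ L)
    (h₁ : IsSub φ₁ T₁ L) (a : ℝ) {e : E d} (he : ‖e‖ = 1) {h : ℝ} (hh : 0 < h) (x : E d) :
    ⟪e, T₀ x - T₁ x⟫ ^ 2 ≤
      4 / h ^ 2 * (φ₀ (x + h • e) - φ₁ (x + h • e) - a) ^ 2 +
      4 / h ^ 2 * (φ₀ x - φ₁ x - a) ^ 2 +
      8 * L * (⟪e, T₀ (x + h • e) - T₀ x⟫ + ⟪e, T₁ (x + h • e) - T₁ x⟫) := by
  have m0 := h₀.incr_nonneg (x := x) (e := e) hh
  have m1 := h₁.incr_nonneg (x := x) (e := e) hh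
  have M0 := (le_abs_self _).trans (h₀.incr_le (x := x) (t := h) he)
  have M1 := (le_abs_self _).trans (h₁.incr_le (x := x) (t := h) he)
  apply interp_arith hh (add_nonneg m0 m1) (by linarith)
  all_goals
    have e1 : x + h • e - x = h • e := by abel
    have e2 : x - (x + h • e) = -(h • e) := by abel
    have s1 := h₀.sub x (x + h • e)
    have s2 := h₁.sub x (x + h • e)
    have s3 := h₀.sub (x + h • e) x
    have s4 := h₁.sub (x + h • e) x
    rw [e1, inner_smul_right] at s1 s2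
    rw [e2, inner_neg_right, inner_smul_right] at s3 s4
    rw [real_inner_comm] at s1 s2 s3 s4
    simp only [inner_sub_right] at *
    linarith

lemma interp_one {d : ℕ} {K : Set (E d)} (hK : IsCompact K) {C₂ : ℝ}
    (hshift : ∀ v : E d, ‖v‖ ≤ 1 → volume.real (((fun x => x + v) '' K) \ K) ≤ C₂ * ‖v‖)
    {φ₀ φ₁ : E d → ℝ} {T₀ T₁ : E d → E d} {L : ℝ} (h₀ : IsSub φ₀ T₀ L)
    (h₁ : IsSub φ₁ T₁ L) (a : ℝ) {e : E d} (he : ‖e‖ = 1) {h : ℝ} (hh : 0 < h) (hh1 : h ≤ 1) :
    ∫ x in K, ⟪e, T₀ x - T₁ x⟫ ^ 2 ≤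
      36 * C₂ * (L ^ 2 * h) + 8 * ((∫ x in K, (φ₀ x - φ₁ x - a) ^ 2) / h ^ 2) := by
  have hL := h₀.L_nonneg
  have hc₀ := h₀.continuous
  have hc₁ := h₁.continuous
  set w : E d → ℝ := fun x => φ₀ x - φ₁ x - a with hw
  have hwc : Continuous w := by fun_prop
  have hw2i : IntegrableOn (fun x => w x ^ 2) K :=
    (hwc.pow 2).continuousOn.integrableOn_compact hK
  have hn : ‖h • e‖ = h := by rw [norm_smul, he, Real.norm_of_nonneg hh.le, mul_one]
  set A : E d → ℝ := fun x => K.indicator (fun y => w y ^ 2) (x + h • e) with hA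
  set B : E d → ℝ := fun x => Kᶜ.indicator (fun _ => (1:ℝ)) (x + h • e) with hB
  set m : E d → ℝ := fun x => ⟪e, T₀ (x + h • e) - T₀ x⟫ + ⟪e, T₁ (x + h • e) - T₁ x⟫ with hm
  have hpt : ∀ x ∈ K, ⟪e, T₀ x - T₁ x⟫ ^ 2 ≤
      4 / h ^ 2 * A x + 4 / h ^ 2 * w x ^ 2 + 8 * L * m x + 4 * L ^ 2 * B x := by
    intro x _
    by_cases hx : x + h • e ∈ K
    · have hAx : A x = w (x + h • e) ^ 2 := by simp [hA, hx]
      have hBx : B x = 0 := by simp [hB, hx]
      rw [hAx, hBx, mul_zero, add_zero]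
      exact interp_pt h₀ h₁ a he hh x
    · have m0 := h₀.incr_nonneg (x := x) (e := e) hh
      have m1 := h₁.incr_nonneg (x := x) (e := e) hh
      have hAx : A x = 0 := by simp [hA, hx]
      have hBx : B x = 1 := by simp [hB, hx]
      rw [hAx, hBx]
      have hmx0 : 0 ≤ m x := add_nonneg m0 m1
      have v2 : ⟪e, T₀ x - T₁ x⟫ ^ 2 ≤ (2 * L) ^ 2 := by
        rw [← sq_abs]; exact pow_le_pow_left₀ (abs_nonneg _) (inner_diff_le h₀ h₁ he x) 2
      have v3 : 0 ≤ 4 / h ^ 2 * w x ^ 2 := by positivity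
      have v4 : 0 ≤ 8 * L * m x := by positivity
      linarith
  -- integrability
  have hmeasv : Measurable fun x : E d => x + h • e := measurable_id.add_const _
  obtain ⟨Bw, hBw⟩ := hK.exists_bound_of_continuousOn hwc.continuousOn
  have iA : IntegrableOn A K := by
    refine integrableOn_bdd hK (B := Bw ^ 2) ?_ ?_
    · exact ((hwc.pow 2).measurable.indicator hK.measurableSet).comp hmeasv
    · intro x _
      by_cases hx : x + h • e ∈ K
      · simp only [hA, hx, Set.indicator_of_mem]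
        rw [abs_of_nonneg (sq_nonneg _), ← sq_abs]
        exact pow_le_pow_left₀ (abs_nonneg _) (hBw _ hx) 2
      · simp only [hA, hx, not_false_eq_true, Set.indicator_of_notMem, abs_zero]
        positivity
  have iB : IntegrableOn B K := by
    refine integrableOn_bdd hK (B := 1) ?_ ?_
    · exact (measurable_const.indicator hK.measurableSet.compl).comp hmeasv
    · intro x _
      by_cases hx : x + h • e ∈ K <;> simp [hB, hx]
  have im0 : IntegrableOn (fun x => ⟪e, T₀ (x + h • e) - T₀ x⟫) K :=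
    integrableOn_bdd hK (h₀.incr_meas e h) (fun x _ => h₀.incr_le he)
  have im1 : IntegrableOn (fun x => ⟪e, T₁ (x + h • e) - T₁ x⟫) K :=
    integrableOn_bdd hK (h₁.incr_meas e h) (fun x _ => h₁.incr_le he)
  have im : IntegrableOn m K := im0.add im1
  -- integral of A
  have hIA : ∫ x in K, A x ≤ ∫ x in K, w x ^ 2 := by
    have e1 : ∫ x in K, A x = ∫ y in (fun x => x + h • e) '' K, K.indicator (fun y => w y ^ 2) y :=
      ((measurePreserving_add_right volume (h • e)).setIntegral_image_emb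
        (measurableEmbedding_addRight (h • e)) (K.indicator (fun y => w y ^ 2)) K).symm
    rw [e1, setIntegral_indicator hK.measurableSet]
    apply setIntegral_mono_set hw2i
    · filter_upwards with x; exact sq_nonneg _
    · exact (inter_subset_right).eventuallyLE
  have hIB : ∫ x in K, B x ≤ C₂ * h := by
    have e1 : ∫ x in K, B x = ∫ y in (fun x => x + h • e) '' K, Kᶜ.indicator (fun _ => (1:ℝ)) y :=
      ((measurePreserving_add_right volume (h • e)).setIntegral_image_emb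
        (measurableEmbedding_addRight (h • e)) (Kᶜ.indicator (fun _ => (1:ℝ))) K).symm
    rw [e1, setIntegral_indicator hK.measurableSet.compl, setIntegral_const, smul_eq_mul, mul_one,
      ← Set.sdiff_eq]
    have := hshift (h • e) (by rw [hn]; exact hh1)
    rwa [hn] at this
  have hIm : ∫ x in K, m x ≤ 4 * L * C₂ * h := by
    have e1 : ∫ x in K, m x = (∫ x in K, ⟪e, T₀ (x + h • e) - T₀ x⟫) +
        ∫ x in K, ⟪e, T₁ (x + h • e) - T₁ x⟫ := integral_add im0 im1
    rw [e1]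
    have := h₀.integral_incr_le hK hshift he hh hh1
    have := h₁.integral_incr_le hK hshift he hh hh1
    linarith
  have hIl : IntegrableOn (fun x => ⟪e, T₀ x - T₁ x⟫ ^ 2) K := by
    refine integrableOn_bdd hK (B := (2 * L) ^ 2) ?_ ?_
    · exact ((h₀.meas.sub h₁.meas).const_inner).pow_const 2
    · intro x _
      rw [abs_of_nonneg (sq_nonneg _), ← sq_abs]
      exact pow_le_pow_left₀ (abs_nonneg _) (inner_diff_le h₀ h₁ he x) 2
  have i1 : IntegrableOn (fun x => 4 / h ^ 2 * A x) K := iA.const_mul _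
  have i2 : IntegrableOn (fun x => 4 / h ^ 2 * w x ^ 2) K := hw2i.const_mul _
  have i3 : IntegrableOn (fun x => 8 * L * m x) K := im.const_mul _
  have i4 : IntegrableOn (fun x => 4 * L ^ 2 * B x) K := iB.const_mul _
  calc ∫ x in K, ⟪e, T₀ x - T₁ x⟫ ^ 2
      ≤ ∫ x in K, (4 / h ^ 2 * A x + 4 / h ^ 2 * w x ^ 2 + 8 * L * m x + 4 * L ^ 2 * B x) :=
        setIntegral_mono_on hIl (((i1.add i2).add i3).add i4) hK.measurableSet hpt
    _ = 4 / h ^ 2 * (∫ x in K, A x) + 4 / h ^ 2 * (∫ x in K, w x ^ 2) +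
        8 * L * (∫ x in K, m x) + 4 * L ^ 2 * (∫ x in K, B x) := by
        rw [← integral_const_mul, ← integral_const_mul, ← integral_const_mul,
          ← integral_const_mul, ← integral_add i1 i2]
        have e1 := integral_add (i1.add i2) i3
        have e2 := integral_add ((i1.add i2).add i3) i4
        simp only [Pi.add_apply] at e1 e2
        rw [e2, e1]
    _ ≤ 4 / h ^ 2 * (∫ x in K, w x ^ 2) + 4 / h ^ 2 * (∫ x in K, w x ^ 2) +
        8 * L * (4 * L * C₂ * h) + 4 * L ^ 2 * (C₂ * h) := by gcongr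
    _ = 36 * C₂ * (L ^ 2 * h) + 8 * ((∫ x in K, w x ^ 2) / h ^ 2) := by ring

/-- L4 -/
theorem interp_lemma {d : ℕ} {K : Set (E d)} (hK : IsCompact K) (hKc : Convex ℝ K)
    (hKi : (interior K).Nonempty) :
    ∃ C : ℝ, 0 ≤ C ∧ ∀ (L : ℝ) (φ₀ φ₁ : E d → ℝ) (T₀ T₁ : E d → E d) (a : ℝ),
      IsSub φ₀ T₀ L → IsSub φ₁ T₁ L →
      ∀ h : ℝ, 0 < h → h ≤ 1 →
        ∫ x in K, ‖T₀ x - T₁ x‖ ^ 2
          ≤ C * (L ^ 2 * h + (∫ x in K, (φ₀ x - φ₁ x - a) ^ 2) / h ^ 2) := by
  obtain ⟨C₂, hC₂, hshift⟩ := shift_bound hK hKc hKi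
  refine ⟨d * (36 * C₂ + 8), by positivity, ?_⟩
  intro L φ₀ φ₁ T₀ T₁ a h₀ h₁ h hh hh1
  have hL := h₀.L_nonneg
  have hunit : ∀ i : Fin d, ‖(EuclideanSpace.single i (1:ℝ) : E d)‖ = 1 := by
    intro i; simp
  have hIl : ∀ i : Fin d, IntegrableOn (fun x =>
      ⟪(EuclideanSpace.single i (1:ℝ) : E d), T₀ x - T₁ x⟫ ^ 2) K := by
    intro i
    refine integrableOn_bdd hK (B := (2 * L) ^ 2) ?_ ?_
    · exact ((h₀.meas.sub h₁.meas).const_inner).pow_const 2
    · intro x _
      rw [abs_of_nonneg (sq_nonneg _), ← sq_abs]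
      exact pow_le_pow_left₀ (abs_nonneg _) (inner_diff_le h₀ h₁ (hunit i) x) 2
  set I := ∫ x in K, (φ₀ x - φ₁ x - a) ^ 2 with hI
  have hI0 : 0 ≤ I / h ^ 2 := by
    have : 0 ≤ I := setIntegral_nonneg hK.measurableSet (fun x _ => sq_nonneg _)
    positivity
  calc ∫ x in K, ‖T₀ x - T₁ x‖ ^ 2
      = ∫ x in K, ∑ i : Fin d, ⟪(EuclideanSpace.single i (1:ℝ) : E d), T₀ x - T₁ x⟫ ^ 2 := by
        simp only [norm_sq_eq_sum_inner]
    _ = ∑ i : Fin d, ∫ x in K, ⟪(EuclideanSpace.single i (1:ℝ) : E d), T₀ x - T₁ x⟫ ^ 2 :=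
        integral_finsetSum _ (fun i _ => hIl i)
    _ ≤ ∑ i : Fin d, (36 * C₂ * (L ^ 2 * h) + 8 * (I / h ^ 2)) :=
        Finset.sum_le_sum fun i _ => interp_one hK hshift h₀ h₁ a (hunit i) hh hh1
    _ = d * (36 * C₂ * (L ^ 2 * h) + 8 * (I / h ^ 2)) := by
        simp only [Finset.sum_const, Finset.card_univ, Fintype.card_fin, nsmul_eq_mul]
    _ ≤ d * ((36 * C₂ + 8) * (L ^ 2 * h) + (36 * C₂ + 8) * (I / h ^ 2)) := by
        have hLh : 0 ≤ L ^ 2 * h := by positivity
        gcongr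
        · linarith
        · linarith
    _ = d * (36 * C₂ + 8) * (L ^ 2 * h + I / h ^ 2) := by ring

end Vale.Agent.P074
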