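import Mathlib
import Vale.Agent.P074.Lag
import Vale.Agent.P074.Shift

open MeasureTheory Set
open scoped RealInnerProductSpace ENNReal NNReal

namespace Vale.Agent.P074

/-- statement of the main lemma with constant `C` -/
def MLProp {d : ℕ} (K : Set (E d)) (C : ℝ) : Prop :=
  ∀ (ι : Type) [Fintype ι] [Nonempty ι] (z : ι → E d) (p : ι → ℝ) (ψ₀ ψ₁ : ι → ℝ) (γ : E d → ℝ),
    Function.Injective z → (∀ i, 0 ≤ p i) → Measurable γ → (∀ x ∈ K, |γ x| ≤ 1 / 2) →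
    (∀ i, (unif K).real (Lag z ψ₀ i) = p i) →
    (∀ i, ∫ x in Lag z ψ₁ i, (1 + γ x) ∂(unif K) = p i) →
    ∀ (v : ι → E d) (l : ℝ), 0 < l →
      ∑ i, ∫ x in Lag z ψ₁ i, ⟪x, v i⟫ * (1 + γ x) ∂(unif K)
        - ∑ i, ∫ x in Lag z ψ₀ i, ⟪x, v i⟫ ∂(unif K)
      ≤ l / 2 * (C * ∫ x, γ x ^ 2 ∂(unif K)) + 1 / (2 * l) * ∑ i, p i * ‖v i‖ ^ 2

/-- statement of the discrete stability inequality with constant `C` -/
def DiscProp {d : ℕ} (K : Set (E d)) (L C : ℝ) : Prop :=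
  ∀ (ι : Type) [Fintype ι] [Nonempty ι] (a b : ι → E d) (p : ι → ℝ) (ψa ψb : ι → ℝ),
    (∀ t : ℚ, Function.Injective fun i => a i + (t : ℝ) • (b i - a i)) →
    (∀ i, 0 ≤ p i) → (∀ i, ‖a i‖ ≤ L) → (∀ i, ‖b i‖ ≤ L) →
    (∀ i, (unif K).real (Lag a ψa i) = p i) →
    (∀ i, (unif K).real (Lag b ψb i) = p i) →
    ∀ Ta Tb : E d → E d, IsSub (pot a ψa) Ta L → IsSub (pot b ψb) Tb L →
      ∫ x, ‖Ta x - Tb x‖ ^ 2 ∂(unif K) ≤ C * (∑ i, p i * ‖a i - b i‖ ^ 2) ^ (1 / 3 : ℝ)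

end Vale.Agent.P074
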