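import Mathlib
import Vale.Agent.P074.Lag

open MeasureTheory Set
open scoped RealInnerProductSpace ENNReal NNReal

namespace Vale.Agent.P074

variable {d : ℕ} {ι : Type*}

lemma mem_Lag {z : ι → E d} {ψ : ι → ℝ} {i : ι} {x : E d} :
    x ∈ Lag z ψ i ↔ ∀ j, ⟪x, z j⟫ - ψ j ≤ ⟪x, z i⟫ - ψ i := Iff.rfl

lemma isClosed_Lag (z : ι → E d) (ψ : ι → ℝ) (i : ι) : IsClosed (Lag z ψ i) := by
  have : Lag z ψ i = ⋂ j, {x | ⟪x, z j⟫ - ψ j ≤ ⟪x, z i⟫ - ψ i} := by
    ext x; simp [Lag]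
  rw [this]
  refine isClosed_iInter fun j => isClosed_le ?_ ?_ <;> fun_prop

lemma measurableSet_Lag (z : ι → E d) (ψ : ι → ℝ) (i : ι) : MeasurableSet (Lag z ψ i) :=
  (isClosed_Lag z ψ i).measurableSet

/-- convex combinations of points in Laguerre cells -/
lemma combo_mem_Lag {z : ι → E d} {ψ₀ ψ₁ : ι → ℝ} {i : ι} {x y : E d} {s : ℝ} (hs0 : 0 ≤ s)
    (hs1 : s ≤ 1) (hx : x ∈ Lag z ψ₀ i) (hy : y ∈ Lag z ψ₁ i) :
    (1 - s) • x + s • y ∈ Lag z (fun j => (1 - s) * ψ₀ j + s * ψ₁ j) i := by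
  intro j
  have h1 := hx j
  have h2 := hy j
  simp only [inner_add_left, inner_smul_left, RCLike.conj_to_real]
  nlinarith

section Fin
variable [Fintype ι] [Nonempty ι]

lemma bddAbove_pot (z : ι → E d) (ψ : ι → ℝ) (x : E d) :
    BddAbove (range fun i => ⟪x, z i⟫ - ψ i) := (Set.finite_range _).bddAbove

lemma le_pot (z : ι → E d) (ψ : ι → ℝ) (x : E d) (i : ι) :
    ⟪x, z i⟫ - ψ i ≤ pot z ψ x := le_ciSup (bddAbove_pot z ψ x) i

lemma pot_le {z : ι → E d} {ψ : ι → ℝ} {x : E d} {c : ℝ} (h : ∀ i, ⟪x, z i⟫ - ψ i ≤ c) :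
    pot z ψ x ≤ c := ciSup_le h

lemma exists_pot_eq (z : ι → E d) (ψ : ι → ℝ) (x : E d) :
    ∃ i, pot z ψ x = ⟪x, z i⟫ - ψ i := by
  obtain ⟨i, hi⟩ := exists_eq_ciSup_of_finite (f := fun i => ⟪x, z i⟫ - ψ i)
  exact ⟨i, hi.symm⟩

lemma pot_eq_of_mem {z : ι → E d} {ψ : ι → ℝ} {x : E d} {i : ι} (h : x ∈ Lag z ψ i) :
    pot z ψ x = ⟪x, z i⟫ - ψ i := le_antisymm (pot_le h) (le_pot z ψ x i)

lemma mem_Lag_iff_pot {z : ι → E d} {ψ : ι → ℝ} {x : E d} {i : ι} :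
    x ∈ Lag z ψ i ↔ pot z ψ x = ⟪x, z i⟫ - ψ i := by
  refine ⟨pot_eq_of_mem, fun h j => ?_⟩
  rw [← h]; exact le_pot z ψ x j

lemma exists_mem_Lag (z : ι → E d) (ψ : ι → ℝ) (x : E d) : ∃ i, x ∈ Lag z ψ i := by
  obtain ⟨i, hi⟩ := exists_pot_eq z ψ x
  exact ⟨i, mem_Lag_iff_pot.2 hi⟩

lemma pot_mono_psi {z : ι → E d} {ψ ψ' : ι → ℝ} {x : E d} {c : ℝ} (h : ∀ i, ψ' i ≤ ψ i + c) :
    pot z ψ x ≤ pot z ψ' x + c := by
  refine pot_le fun i => ?_
  have := le_pot z ψ' x i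
  linarith [h i]

lemma abs_pot_sub_le {z : ι → E d} {ψ ψ' : ι → ℝ} (x : E d) {c : ℝ}
    (h : ∀ i, |ψ i - ψ' i| ≤ c) : |pot z ψ x - pot z ψ' x| ≤ c := by
  rw [abs_le]
  constructor
  · have : pot z ψ' x ≤ pot z ψ x + c :=
      pot_mono_psi fun i => by have := abs_le.1 (h i); linarith
    linarith
  · have : pot z ψ x ≤ pot z ψ' x + c :=
      pot_mono_psi fun i => by have := abs_le.1 (h i); linarith
    linarith

lemma continuous_pot_x (z : ι → E d) (ψ : ι → ℝ) : Continuous (pot z ψ) := by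
  have : pot z ψ = fun x => Finset.univ.sup' Finset.univ_nonempty fun i => ⟪x, z i⟫ - ψ i := by
    funext x
    rw [Finset.sup'_univ_eq_ciSup]
    rfl
  rw [this]
  apply Continuous.finset_sup'_apply
  intro i _
  fun_prop

lemma measurable_pot (z : ι → E d) (ψ : ι → ℝ) : Measurable (pot z ψ) :=
  (continuous_pot_x z ψ).measurable

lemma continuous_pot_psi (z : ι → E d) (x : E d) : Continuous fun ψ : ι → ℝ => pot z ψ x := by
  have : (fun ψ : ι → ℝ => pot z ψ x)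
      = fun ψ => Finset.univ.sup' Finset.univ_nonempty fun i => ⟪x, z i⟫ - ψ i := by
    funext x
    rw [Finset.sup'_univ_eq_ciSup]
    rfl
  rw [this]
  apply Continuous.finset_sup'_apply
  intro i _
  fun_prop

lemma abs_pot_le {z : ι → E d} {ψ : ι → ℝ} {x : E d} {R Z M : ℝ} (hx : ‖x‖ ≤ R)
    (hz : ∀ i, ‖z i‖ ≤ Z) (hψ : ∀ i, |ψ i| ≤ M) : |pot z ψ x| ≤ R * Z + M := by
  obtain ⟨i, hi⟩ := exists_pot_eq z ψ x
  rw [hi]
  have h1 : |⟪x, z i⟫| ≤ R * Z :=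
    (abs_real_inner_le_norm _ _).trans
      (mul_le_mul hx (hz i) (norm_nonneg _) ((norm_nonneg _).trans hx))
  have h2 := hψ i
  calc |⟪x, z i⟫ - ψ i| ≤ |⟪x, z i⟫| + |ψ i| := abs_sub _ _
    _ ≤ _ := by linarith

lemma pot_add_const (z : ι → E d) (ψ : ι → ℝ) (c : ℝ) (x : E d) :
    pot z (fun i => ψ i + c) x = pot z ψ x - c := by
  apply le_antisymm
  · refine pot_le fun i => ?_
    have := le_pot z ψ x i
    linarith
  · have : pot z ψ x ≤ pot z (fun i => ψ i + c) x + c := pot_mono_psi fun i => le_rfl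
    linarith

end Fin

/-- Hyperplanes are null sets. -/
lemma volume_hyperplane {v : E d} (hv : v ≠ 0) (c : ℝ) : volume {x : E d | ⟪x, v⟫ = c} = 0 := by
  have hsub : {x : E d | ⟪x, v⟫ = c} ⊆ ((AffineSubspace.mk' ((c / ‖v‖ ^ 2) • v)
      (ℝ ∙ v)ᗮ : AffineSubspace ℝ (E d)) : Set (E d)) := by
    intro x hx
    have hx' : ⟪x, v⟫ = c := hx
    rw [SetLike.mem_coe, AffineSubspace.mem_mk', Submodule.mem_orthogonal_singleton_iff_inner_left]
    rw [vsub_eq_sub, inner_sub_left, inner_smul_left, real_inner_self_eq_norm_sq, hx']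
    have : ‖v‖ ≠ 0 := norm_ne_zero_iff.2 hv
    simp only [RCLike.conj_to_real]
    field_simp
    ring
  refine measure_mono_null hsub (Measure.addHaar_affineSubspace volume _ ?_)
  intro htop
  have h1 : (AffineSubspace.mk' ((c / ‖v‖ ^ 2) • v) (ℝ ∙ v)ᗮ : AffineSubspace ℝ (E d)).direction
      = ⊤ := by rw [htop]; exact AffineSubspace.direction_top ℝ _ _
  rw [AffineSubspace.direction_mk'] at h1
  have h2 : v ∈ (ℝ ∙ v)ᗮ := by rw [h1]; exact Submodule.mem_top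
  rw [Submodule.mem_orthogonal_singleton_iff_inner_left] at h2
  exact hv (inner_self_eq_zero.1 h2)

/-- Almost every point belongs to at most one Laguerre cell. -/
lemma ae_Lag_unique [Countable ι] {z : ι → E d} (hz : Function.Injective z) (ψ : ι → ℝ) :
    ∀ᵐ x ∂(volume : Measure (E d)), ∀ i j, x ∈ Lag z ψ i → x ∈ Lag z ψ j → i = j := by
  rw [ae_all_iff]; intro i
  rw [ae_all_iff]; intro j
  by_cases hij : i = j
  · exact Filter.Eventually.of_forall fun x _ _ => hij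
  · have hne : z i - z j ≠ 0 := sub_ne_zero.2 fun h => hij (hz h)
    have h0 := volume_hyperplane hne (ψ i - ψ j)
    have h1 : ∀ᵐ x ∂(volume : Measure (E d)), ¬ (⟪x, z i - z j⟫ = ψ i - ψ j) := by
      rw [ae_iff]
      simpa using h0
    filter_upwards [h1] with x hx hi hj
    exfalso
    apply hx
    have h2 := hi j
    have h3 := hj i
    rw [inner_sub_right]
    linarith

end Vale.Agent.P074
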