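import Mathlib
import Vale.Agent.P074.Defs

open MeasureTheory Set
open scoped RealInnerProductSpace ENNReal NNReal

namespace Vale.Agent.P074

lemma integrable_of_ae_bound {α : Type*} [MeasurableSpace α] {ρ : Measure α} [IsFiniteMeasure ρ]
    {f : α → ℝ} (hf : AEStronglyMeasurable f ρ) {C : ℝ} (h : ∀ᵐ x ∂ρ, |f x| ≤ C) :
    Integrable f ρ :=
  Integrable.of_bound hf C (by simpa [Real.norm_eq_abs] using h)

theorem isOptimalMap_of_potential {d : ℕ} {ρ : Measure (E d)} [IsFiniteMeasure ρ] {R L B : ℝ}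
    (hR : ∀ᵐ x ∂ρ, ‖x‖ ≤ R) {T : E d → E d} (hT : Measurable T) {F : Set (E d)}
    (hF : MeasurableSet F) (hFb : ∀ y ∈ F, ‖y‖ ≤ L) (hTF : ∀ᵐ x ∂ρ, T x ∈ F) {ψ : E d → ℝ}
    (hψ : Measurable ψ) (hψb : ∀ y ∈ F, |ψ y| ≤ B)
    (h : ∀ᵐ x ∂ρ, ∀ y ∈ F, ⟪x, y⟫ - ψ y ≤ ⟪x, T x⟫ - ψ (T x)) :
    IsOptimalMap ρ (ρ.map T) T := by
  refine ⟨hT, rfl, fun S hS hST => ?_⟩
  have hSF : ∀ᵐ x ∂ρ, S x ∈ F := by
    have h1 : (ρ.map T) Fᶜ = 0 := by
      rw [Measure.map_apply hT hF.compl]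
      exact hTF
    rw [← hST, Measure.map_apply hS hF.compl] at h1
    exact h1
  -- pointwise identity
  have key : ∀ x y : E d, ‖x - y‖ ^ 2 = (‖x‖ ^ 2 - 2 * (⟪x, y⟫ - ψ y)) + (‖y‖ ^ 2 - 2 * ψ y) := by
    intro x y
    rw [norm_sub_sq_real]; ring
  have hmeas : ∀ U : E d → E d, Measurable U → (∀ᵐ x ∂ρ, U x ∈ F) →
      Integrable (fun x => ‖x‖ ^ 2 - 2 * (⟪x, U x⟫ - ψ (U x))) ρ ∧
      Integrable (fun x => ‖U x‖ ^ 2 - 2 * ψ (U x)) ρ := by
    intro U hU hUF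
    constructor
    · refine integrable_of_ae_bound (C := R ^ 2 + 2 * (R * L + B)) ?_ ?_
      · apply Measurable.aestronglyMeasurable
        have : Measurable fun x : E d => ⟪x, U x⟫ := Measurable.inner measurable_id hU
        have h2 : Measurable fun x : E d => ψ (U x) := hψ.comp hU
        fun_prop
      · filter_upwards [hR, hUF] with x hx hxF
        have h1 := hFb _ hxF
        have h2 := hψb _ hxF
        have h3 : |⟪x, U x⟫| ≤ R * L := by
          refine (abs_real_inner_le_norm _ _).trans ?_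
          exact mul_le_mul hx h1 (norm_nonneg _) ((norm_nonneg _).trans hx)
        have h4 : ‖x‖ ^ 2 ≤ R ^ 2 := by
          have := norm_nonneg x
          nlinarith
        have h5 : 0 ≤ ‖x‖ ^ 2 := by positivity
        rw [abs_le] at *
        constructor <;> nlinarith
    · refine integrable_of_ae_bound (C := L ^ 2 + 2 * B) ?_ ?_
      · apply Measurable.aestronglyMeasurable
        have h2 : Measurable fun x : E d => ψ (U x) := hψ.comp hU
        fun_prop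
      · filter_upwards [hUF] with x hxF
        have h1 := hFb _ hxF
        have h2 := hψb _ hxF
        have h4 : ‖U x‖ ^ 2 ≤ L ^ 2 := by
          have := norm_nonneg (U x)
          nlinarith
        have h5 : 0 ≤ ‖U x‖ ^ 2 := by positivity
        rw [abs_le] at *
        constructor <;> nlinarith
  have hTi := hmeas T hT hTF
  have hSi := hmeas S hS hSF
  have hg : Measurable fun y : E d => ‖y‖ ^ 2 - 2 * ψ y := by fun_prop
  have heq : ∫ x, (‖T x‖ ^ 2 - 2 * ψ (T x)) ∂ρ = ∫ x, (‖S x‖ ^ 2 - 2 * ψ (S x)) ∂ρ := by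
    have e1 := integral_map (μ := ρ) hT.aemeasurable (f := fun y : E d => ‖y‖ ^ 2 - 2 * ψ y)
      hg.aestronglyMeasurable
    have e2 := integral_map (μ := ρ) hS.aemeasurable (f := fun y : E d => ‖y‖ ^ 2 - 2 * ψ y)
      hg.aestronglyMeasurable
    rw [← e1, ← e2, hST]
  have hle : ∫ x, (‖x‖ ^ 2 - 2 * (⟪x, T x⟫ - ψ (T x))) ∂ρ
      ≤ ∫ x, (‖x‖ ^ 2 - 2 * (⟪x, S x⟫ - ψ (S x))) ∂ρ := by
    apply integral_mono_ae hTi.1 hSi.1
    filter_upwards [h, hSF] with x hx hxF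
    have := hx _ hxF
    linarith
  calc ∫ x, ‖x - T x‖ ^ 2 ∂ρ
      = ∫ x, (‖x‖ ^ 2 - 2 * (⟪x, T x⟫ - ψ (T x))) ∂ρ + ∫ x, (‖T x‖ ^ 2 - 2 * ψ (T x)) ∂ρ := by
        rw [← integral_add hTi.1 hTi.2]
        exact integral_congr_ae (Filter.Eventually.of_forall fun x => key x (T x))
    _ ≤ ∫ x, (‖x‖ ^ 2 - 2 * (⟪x, S x⟫ - ψ (S x))) ∂ρ + ∫ x, (‖S x‖ ^ 2 - 2 * ψ (S x)) ∂ρ := by
        rw [heq]; linarith
    _ = ∫ x, ‖x - S x‖ ^ 2 ∂ρ := by
        rw [← integral_add hSi.1 hSi.2]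
        exact integral_congr_ae (Filter.Eventually.of_forall fun x => (key x (S x)).symm)

end Vale.Agent.P074
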