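import Mathlib
import Vale.Agent.P074.LagBasic
import Vale.Agent.P074.OptSuff

open MeasureTheory Set Filter Topology
open scoped RealInnerProductSpace ENNReal NNReal

namespace Vale.Agent.P074

variable {d : ℕ} {ι : Type*} [Fintype ι] [Nonempty ι]

/-- penalized Kantorovich functional -/
noncomputable def Gfun (ρ : Measure (E d)) (z : ι → E d) (p : ι → ℝ) (f : E d → ℝ) (ε : ℝ)
    (ψ : ι → ℝ) : ℝ :=
  ∫ x, pot z ψ x ∂ρ + ∑ i, p i * ψ i
    + ε / 2 * (∫ x, (pot z ψ x - f x) ^ 2 ∂ρ - (∫ x, (pot z ψ x - f x) ∂ρ) ^ 2)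

lemma integrable_pot {ρ : Measure (E d)} [IsFiniteMeasure ρ] {R : ℝ} (hR : ∀ᵐ x ∂ρ, ‖x‖ ≤ R)
    (z : ι → E d) (ψ : ι → ℝ) : Integrable (pot z ψ) ρ := by
  obtain ⟨Z, hZ⟩ : ∃ Z, ∀ i, ‖z i‖ ≤ Z := by
    obtain ⟨Z, hZ⟩ := (Set.finite_range fun i => ‖z i‖).bddAbove
    exact ⟨Z, fun i => hZ ⟨i, rfl⟩⟩
  obtain ⟨M, hM⟩ : ∃ M, ∀ i, |ψ i| ≤ M := by
    obtain ⟨M, hM⟩ := (Set.finite_range fun i => |ψ i|).bddAbove
    exact ⟨M, fun i => hM ⟨i, rfl⟩⟩
  refine integrable_of_ae_bound (C := R * Z + M) (measurable_pot z ψ).aestronglyMeasurable ?_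
  filter_upwards [hR] with x hx using abs_pot_le hx hZ hM

lemma integrable_w {ρ : Measure (E d)} [IsFiniteMeasure ρ] {R Z M B : ℝ} (hR : ∀ᵐ x ∂ρ, ‖x‖ ≤ R)
    {z : ι → E d} (hZ : ∀ i, ‖z i‖ ≤ Z) {ψ : ι → ℝ} (hψ : ∀ i, |ψ i| ≤ M) {f : E d → ℝ}
    (hf : Measurable f) (hfB : ∀ᵐ x ∂ρ, |f x| ≤ B) :
    Integrable (fun x => pot z ψ x - f x) ρ ∧ Integrable (fun x => (pot z ψ x - f x) ^ 2) ρ := by
  have hm : Measurable fun x => pot z ψ x - f x := (measurable_pot z ψ).sub hf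
  have hb : ∀ᵐ x ∂ρ, |pot z ψ x - f x| ≤ R * Z + M + B := by
    filter_upwards [hR, hfB] with x hx hx'
    have := abs_pot_le hx hZ hψ
    calc |pot z ψ x - f x| ≤ |pot z ψ x| + |f x| := abs_sub _ _
      _ ≤ _ := by linarith
  refine ⟨integrable_of_ae_bound hm.aestronglyMeasurable hb, ?_⟩
  refine integrable_of_ae_bound (C := (R * Z + M + B) ^ 2) (hm.pow_const 2).aestronglyMeasurable ?_
  filter_upwards [hb] with x hx
  rw [abs_pow]
  exact pow_le_pow_left₀ (abs_nonneg _) hx 2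

lemma continuousOn_Gfun {ρ : Measure (E d)} [IsFiniteMeasure ρ] {R Z M B : ℝ}
    (hR : ∀ᵐ x ∂ρ, ‖x‖ ≤ R)
    {z : ι → E d} (hZ : ∀ i, ‖z i‖ ≤ Z) {f : E d → ℝ}
    (hf : Measurable f) (hfB : ∀ᵐ x ∂ρ, |f x| ≤ B) (p : ι → ℝ) (ε : ℝ) :
    ContinuousOn (Gfun ρ z p f ε) {ψ | ∀ i, |ψ i| ≤ M} := by
  have hmw : ∀ ψ : ι → ℝ, Measurable fun x => pot z ψ x - f x :=
    fun ψ => (measurable_pot z ψ).sub hf
  have hb : ∀ ψ : ι → ℝ, (∀ i, |ψ i| ≤ M) → ∀ᵐ x ∂ρ, |pot z ψ x - f x| ≤ R * Z + M + B := by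
    intro ψ hψ
    filter_upwards [hR, hfB] with x hx hx'
    have := abs_pot_le hx hZ hψ
    calc |pot z ψ x - f x| ≤ |pot z ψ x| + |f x| := abs_sub _ _
      _ ≤ _ := by linarith
  have c1 : ContinuousOn (fun ψ => ∫ x, pot z ψ x ∂ρ) {ψ : ι → ℝ | ∀ i, |ψ i| ≤ M} := by
    refine continuousOn_of_dominated (bound := fun _ => R * Z + M) ?_ ?_ ?_ ?_
    · exact fun ψ _ => (measurable_pot z ψ).aestronglyMeasurable
    · intro ψ hψ
      filter_upwards [hR] with x hx
      rw [Real.norm_eq_abs]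
      exact abs_pot_le hx hZ hψ
    · exact integrable_const _
    · exact Eventually.of_forall fun x => (continuous_pot_psi z x).continuousOn
  have c2 : ContinuousOn (fun ψ => ∫ x, (pot z ψ x - f x) ^ 2 ∂ρ)
      {ψ : ι → ℝ | ∀ i, |ψ i| ≤ M} := by
    refine continuousOn_of_dominated (bound := fun _ => (R * Z + M + B) ^ 2) ?_ ?_ ?_ ?_
    · exact fun ψ _ => ((hmw ψ).pow_const 2).aestronglyMeasurable
    · intro ψ hψ
      filter_upwards [hb ψ hψ] with x hx
      rw [Real.norm_eq_abs, abs_pow]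
      exact pow_le_pow_left₀ (abs_nonneg _) hx 2
    · exact integrable_const _
    · refine Eventually.of_forall fun x => ?_
      exact (((continuous_pot_psi z x).sub continuous_const).pow 2).continuousOn
  have c3 : ContinuousOn (fun ψ => ∫ x, (pot z ψ x - f x) ∂ρ)
      {ψ : ι → ℝ | ∀ i, |ψ i| ≤ M} := by
    refine continuousOn_of_dominated (bound := fun _ => (R * Z + M + B)) ?_ ?_ ?_ ?_
    · exact fun ψ _ => (hmw ψ).aestronglyMeasurable
    · intro ψ hψ
      filter_upwards [hb ψ hψ] with x hx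
      rw [Real.norm_eq_abs]
      exact hx
    · exact integrable_const _
    · refine Eventually.of_forall fun x => ?_
      exact ((continuous_pot_psi z x).sub continuous_const).continuousOn
  have c4 : Continuous fun ψ : ι → ℝ => ∑ i, p i * ψ i := by fun_prop
  unfold Gfun
  exact (c1.add c4.continuousOn).add (continuousOn_const.mul (c2.sub (c3.pow 2)))

lemma Gfun_add_const {ρ : Measure (E d)} [IsProbabilityMeasure ρ] {R B : ℝ}
    (hR : ∀ᵐ x ∂ρ, ‖x‖ ≤ R) (z : ι → E d) {p : ι → ℝ} (hp : ∑ i, p i = 1) {f : E d → ℝ}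
    (hf : Measurable f) (hfB : ∀ᵐ x ∂ρ, |f x| ≤ B) (ε : ℝ) (ψ : ι → ℝ) (c : ℝ) :
    Gfun ρ z p f ε (fun i => ψ i + c) = Gfun ρ z p f ε ψ := by
  obtain ⟨Z, hZ⟩ : ∃ Z, ∀ i, ‖z i‖ ≤ Z := by
    obtain ⟨Z, hZ⟩ := (Set.finite_range fun i => ‖z i‖).bddAbove
    exact ⟨Z, fun i => hZ ⟨i, rfl⟩⟩
  obtain ⟨M, hM⟩ : ∃ M, ∀ i, |ψ i| ≤ M := by
    obtain ⟨M, hM⟩ := (Set.finite_range fun i => |ψ i|).bddAbove
    exact ⟨M, fun i => hM ⟨i, rfl⟩⟩
  obtain ⟨i1, i2⟩ := integrable_w hR hZ hM hf hfB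
  have i0 := integrable_pot hR z ψ
  unfold Gfun
  have e0 : ∫ x, pot z (fun i => ψ i + c) x ∂ρ = ∫ x, pot z ψ x ∂ρ - c := by
    simp_rw [pot_add_const]
    rw [integral_sub i0 (integrable_const _)]
    simp
  have e1 : ∫ x, (pot z (fun i => ψ i + c) x - f x) ∂ρ = ∫ x, (pot z ψ x - f x) ∂ρ - c := by
    simp_rw [pot_add_const]
    have : (fun x => pot z ψ x - c - f x) = fun x => (pot z ψ x - f x) - c := by
      funext x; ring
    rw [this, integral_sub i1 (integrable_const _)]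
    simp
  have e2 : ∫ x, (pot z (fun i => ψ i + c) x - f x) ^ 2 ∂ρ
      = ∫ x, (pot z ψ x - f x) ^ 2 ∂ρ - 2 * c * ∫ x, (pot z ψ x - f x) ∂ρ + c ^ 2 := by
    simp_rw [pot_add_const]
    have : (fun x => (pot z ψ x - c - f x) ^ 2)
        = fun x => ((pot z ψ x - f x) ^ 2 - 2 * c * (pot z ψ x - f x)) + c ^ 2 := by
      funext x; ring
    have i3 : Integrable (fun x => (pot z ψ x - f x) ^ 2 - 2 * c * (pot z ψ x - f x)) ρ :=
      i2.sub (i1.const_mul _)
    rw [this, integral_add i3 (integrable_const _),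
      integral_sub i2 (i1.const_mul _), integral_const_mul]
    simp
  have e3 : ∑ i, p i * (ψ i + c) = ∑ i, p i * ψ i + c := by
    simp_rw [mul_add]
    rw [Finset.sum_add_distrib, ← Finset.sum_mul, hp, one_mul]
  rw [e0, e1, e2, e3]
  ring

/-- the set where index `i` wins by a margin `t` -/
def Ucell (z : ι → E d) (ψ : ι → ℝ) (i : ι) (t : ℝ) : Set (E d) :=
  {x | ∀ j, j ≠ i → ⟪x, z j⟫ - ψ j ≤ ⟪x, z i⟫ - ψ i - t}

lemma measurableSet_Ucell (z : ι → E d) (ψ : ι → ℝ) (i : ι) (t : ℝ) :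
    MeasurableSet (Ucell z ψ i t) := by
  have : Ucell z ψ i t = ⋂ j, ⋂ (_ : j ≠ i), {x | ⟪x, z j⟫ - ψ j ≤ ⟪x, z i⟫ - ψ i - t} := by
    ext x; simp [Ucell]
  rw [this]
  refine MeasurableSet.iInter fun j => MeasurableSet.iInter fun _ => ?_
  exact (isClosed_le (by fun_prop) (by fun_prop)).measurableSet

/-- first-order condition at one index -/
lemma first_order {ρ : Measure (E d)} [IsProbabilityMeasure ρ] {R Z M B : ℝ}
    (hR : ∀ᵐ x ∂ρ, ‖x‖ ≤ R) {z : ι → E d} (hZ : ∀ i, ‖z i‖ ≤ Z) {p : ι → ℝ} {f : E d → ℝ}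
    (hf : Measurable f) (hfB : ∀ᵐ x ∂ρ, |f x| ≤ B) {ε : ℝ} (hε : 0 ≤ ε) {ψ : ι → ℝ}
    (hψ : ∀ i, |ψ i| ≤ M)
    (hθ : ∀ᵐ x ∂ρ, 0 ≤ 1 + ε * ((pot z ψ x - f x) - ∫ y, (pot z ψ y - f y) ∂ρ))
    (i : ι) {t : ℝ} (ht : 0 < t) [DecidableEq ι]
    (hG : Gfun ρ z p f ε ψ ≤ Gfun ρ z p f ε (Function.update ψ i (ψ i + t))) :
    ∫ x in Ucell z ψ i t, (1 + ε * ((pot z ψ x - f x) - ∫ y, (pot z ψ y - f y) ∂ρ)) ∂ρ
      ≤ p i + ε / 2 * t := by
  set ψ' := Function.update ψ i (ψ i + t) with hψ'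
  set w : E d → ℝ := fun x => pot z ψ x - f x with hw
  set wb : ℝ := ∫ y, w y ∂ρ with hwb
  set δ : E d → ℝ := fun x => pot z ψ' x - pot z ψ x with hδ
  have hψ'M : ∀ j, |ψ' j| ≤ M + t := by
    intro j
    by_cases h : j = i
    · subst h
      rw [hψ', Function.update_self]
      calc |ψ j + t| ≤ |ψ j| + |t| := abs_add_le _ _
        _ ≤ _ := by rw [abs_of_pos ht]; linarith [hψ j]
    · rw [hψ', Function.update_of_ne h]; linarith [hψ j]
  have hle : ∀ j, ψ j ≤ ψ' j := by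
    intro j
    by_cases h : j = i
    · subst h; rw [hψ', Function.update_self]; linarith
    · rw [hψ', Function.update_of_ne h]
  have hle' : ∀ j, ψ' j ≤ ψ j + t := by
    intro j
    by_cases h : j = i
    · subst h; rw [hψ', Function.update_self]
    · rw [hψ', Function.update_of_ne h]; linarith
  have hδ0 : ∀ x, δ x ≤ 0 := by
    intro x
    have : pot z ψ' x ≤ pot z ψ x + 0 := pot_mono_psi (fun j => by linarith [hle j])
    simp only [hδ]; linarith
  have hδt : ∀ x, -t ≤ δ x := by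
    intro x
    have : pot z ψ x ≤ pot z ψ' x + t := pot_mono_psi hle'
    simp only [hδ]; linarith
  have hδU : ∀ x ∈ Ucell z ψ i t, δ x = -t := by
    intro x hx
    apply le_antisymm _ (hδt x)
    have h1 : pot z ψ' x ≤ pot z ψ x - t := by
      refine pot_le fun j => ?_
      by_cases h : j = i
      · subst h
        rw [hψ', Function.update_self]
        have := le_pot z ψ x j
        linarith
      · rw [hψ', Function.update_of_ne h]
        have h2 : ⟪x, z j⟫ - ψ j ≤ ⟪x, z i⟫ - ψ i - t := hx j h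
        have := le_pot z ψ x i
        linarith
    simp only [hδ]; linarith
  have mδ : Measurable δ := (measurable_pot z ψ').sub (measurable_pot z ψ)
  have iδ : Integrable δ ρ := (integrable_pot hR z ψ').sub (integrable_pot hR z ψ)
  have iδ2 : Integrable (fun x => δ x ^ 2) ρ := by
    refine integrable_of_ae_bound (C := t ^ 2) (mδ.pow_const 2).aestronglyMeasurable ?_
    refine Eventually.of_forall fun x => ?_
    rw [abs_pow]
    refine pow_le_pow_left₀ (abs_nonneg _) ?_ 2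
    rw [abs_le]; exact ⟨hδt x, (hδ0 x).trans ht.le⟩
  obtain ⟨iw, iw2⟩ := integrable_w hR hZ hψ hf hfB
  have iwδ : Integrable (fun x => w x * δ x) ρ := by
    refine Integrable.mul_bdd (c := t) iw mδ.aestronglyMeasurable ?_
    refine Eventually.of_forall fun x => ?_
    rw [Real.norm_eq_abs, abs_le]; exact ⟨hδt x, (hδ0 x).trans ht.le⟩
  have e0 : ∫ x, pot z ψ' x ∂ρ = ∫ x, pot z ψ x ∂ρ + ∫ x, δ x ∂ρ := by
    rw [← integral_add (integrable_pot hR z ψ) iδ]
    congr 1; funext x; simp only [hδ]; ring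
  have e1 : ∫ x, (pot z ψ' x - f x) ∂ρ = wb + ∫ x, δ x ∂ρ := by
    rw [hwb, ← integral_add iw iδ]
    congr 1; funext x; simp only [hδ, hw]; ring
  have e2 : ∫ x, (pot z ψ' x - f x) ^ 2 ∂ρ
      = ∫ x, w x ^ 2 ∂ρ + 2 * ∫ x, w x * δ x ∂ρ + ∫ x, δ x ^ 2 ∂ρ := by
    have i3 : Integrable (fun x => w x ^ 2 + 2 * (w x * δ x)) ρ := iw2.add (iwδ.const_mul 2)
    rw [← integral_const_mul, ← integral_add iw2 (iwδ.const_mul 2), ← integral_add i3 iδ2]
    congr 1; funext x; simp only [hδ, hw]; ring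
  have e3 : ∑ j, p j * ψ' j = ∑ j, p j * ψ j + p i * t := by
    rw [← Finset.add_sum_erase _ _ (Finset.mem_univ i),
      ← Finset.add_sum_erase Finset.univ (fun j => p j * ψ j) (Finset.mem_univ i)]
    have : ∑ j ∈ Finset.univ.erase i, p j * ψ' j = ∑ j ∈ Finset.univ.erase i, p j * ψ j := by
      refine Finset.sum_congr rfl fun j hj => ?_
      rw [hψ', Function.update_of_ne (Finset.ne_of_mem_erase hj)]
    rw [this, hψ', Function.update_self]
    ring
  have hδ2 : ∫ x, δ x ^ 2 ∂ρ ≤ t ^ 2 := by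
    have : ∫ x, δ x ^ 2 ∂ρ ≤ ∫ _x, t ^ 2 ∂ρ := by
      refine integral_mono iδ2 (integrable_const _) fun x => ?_
      have h1 := hδ0 x
      have h2 := hδt x
      simp only
      nlinarith
    simpa using this
  have hmain : 0 ≤ ∫ x, δ x ∂ρ + p i * t + ε * (∫ x, w x * δ x ∂ρ - wb * ∫ x, δ x ∂ρ)
      + ε / 2 * t ^ 2 := by
    have h1 : Gfun ρ z p f ε ψ' - Gfun ρ z p f ε ψ
        = ∫ x, δ x ∂ρ + p i * t + ε * (∫ x, w x * δ x ∂ρ - wb * ∫ x, δ x ∂ρ)
          + ε / 2 * (∫ x, δ x ^ 2 ∂ρ - (∫ x, δ x ∂ρ) ^ 2) := by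
      unfold Gfun
      rw [e0, e1, e2, e3]
      ring
    have h2 : ε / 2 * (∫ x, δ x ^ 2 ∂ρ - (∫ x, δ x ∂ρ) ^ 2) ≤ ε / 2 * t ^ 2 := by
      apply mul_le_mul_of_nonneg_left _ (by linarith)
      nlinarith [sq_nonneg (∫ x, δ x ∂ρ)]
    linarith
  -- the weighted integral
  have iθδ : Integrable (fun x => δ x * (1 + ε * (w x - wb))) ρ := by
    have : (fun x => δ x * (1 + ε * (w x - wb)))
        = fun x => (δ x + ε * (w x * δ x)) - (ε * wb) * δ x := by funext x; ring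
    rw [this]
    exact (iδ.add (iwδ.const_mul _)).sub (iδ.const_mul _)
  have e4 : ∫ x, δ x * (1 + ε * (w x - wb)) ∂ρ
      = ∫ x, δ x ∂ρ + ε * (∫ x, w x * δ x ∂ρ - wb * ∫ x, δ x ∂ρ) := by
    have : (fun x => δ x * (1 + ε * (w x - wb)))
        = fun x => (δ x + ε * (w x * δ x)) - (ε * wb) * δ x := by funext x; ring
    have i3 : Integrable (fun x => δ x + ε * (w x * δ x)) ρ := iδ.add (iwδ.const_mul _)
    rw [this, integral_sub i3 (iδ.const_mul _),
      integral_add iδ (iwδ.const_mul _), integral_const_mul, integral_const_mul]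
    ring
  have hU := measurableSet_Ucell z ψ i t
  have iθ : Integrable (fun x => 1 + ε * (w x - wb)) ρ :=
    (integrable_const _).add ((iw.sub (integrable_const _)).const_mul _)
  have e5 : ∫ x, δ x * (1 + ε * (w x - wb)) ∂ρ
      ≤ -t * ∫ x in Ucell z ψ i t, (1 + ε * (w x - wb)) ∂ρ := by
    rw [← integral_const_mul, ← integral_indicator hU]
    refine integral_mono_ae iθδ ((iθ.const_mul (-t)).indicator hU) ?_
    filter_upwards [hθ] with x hx
    by_cases hxU : x ∈ Ucell z ψ i t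
    · rw [indicator_of_mem hxU, hδU x hxU]
    · rw [indicator_of_notMem hxU]
      exact mul_nonpos_of_nonpos_of_nonneg (hδ0 x) hx
  have h6 : t * ∫ x in Ucell z ψ i t, (1 + ε * (w x - wb)) ∂ρ ≤ t * (p i + ε / 2 * t) := by
    nlinarith
  exact le_of_mul_le_mul_left h6 ht

lemma sum_setIntegral_Lag {ρ : Measure (E d)} (hρ : ρ ≪ volume) {z : ι → E d}
    (hz : Function.Injective z) (ψ : ι → ℝ) {g : E d → ℝ} (hg : Integrable g ρ) :
    ∑ i, ∫ x in Lag z ψ i, g x ∂ρ = ∫ x, g x ∂ρ := by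
  have h1 : ∀ i, ∫ x in Lag z ψ i, g x ∂ρ = ∫ x, (Lag z ψ i).indicator g x ∂ρ := fun i =>
    (integral_indicator (measurableSet_Lag z ψ i)).symm
  simp_rw [h1]
  rw [← integral_finsetSum _ fun i _ => hg.indicator (measurableSet_Lag z ψ i)]
  apply integral_congr_ae
  filter_upwards [hρ.ae_le (ae_Lag_unique hz ψ)] with x hx
  obtain ⟨i, hi⟩ := exists_mem_Lag z ψ x
  rw [Finset.sum_eq_single i]
  · rw [indicator_of_mem hi]
  · intro j _ hj
    rw [indicator_of_notMem]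
    intro hj'
    exact hj (hx j i hj' hi)
  · intro h; exact absurd (Finset.mem_univ i) h

/-- **Semidiscrete optimal transport** with a variance penalization. -/
theorem semi_pen {ρ : Measure (E d)} [IsProbabilityMeasure ρ] (hρ : ρ ≪ volume) {R Z B : ℝ}
    (hR : ∀ᵐ x ∂ρ, ‖x‖ ≤ R) {z : ι → E d} (hz : Function.Injective z) (hZ : ∀ i, ‖z i‖ ≤ Z)
    {p : ι → ℝ} (hp : ∀ i, 0 ≤ p i) (hsum : ∑ i, p i = 1) {f : E d → ℝ} (hf : Measurable f)
    (hfB : ∀ᵐ x ∂ρ, |f x| ≤ B) {ε : ℝ} (hε : 0 ≤ ε)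
    (hεB : ε * (2 * (3 * (R * Z) + 1 + B)) ≤ 1 / 2) :
    ∃ ψ : ι → ℝ, (∀ i, 0 ≤ ψ i ∧ ψ i ≤ 2 * (R * Z) + 1) ∧
      (∀ ψ' : ι → ℝ, (∀ i, 0 ≤ ψ' i ∧ ψ' i ≤ 2 * (R * Z) + 1) →
        Gfun ρ z p f ε ψ ≤ Gfun ρ z p f ε ψ') ∧
      ∀ i, ∫ x in Lag z ψ i,
        (1 + ε * ((pot z ψ x - f x) - ∫ y, (pot z ψ y - f y) ∂ρ)) ∂ρ = p i := by
  classical
  have hR0 : 0 ≤ R := by
    obtain ⟨x, hx⟩ := hR.exists
    exact (norm_nonneg x).trans hx
  have hZ0 : 0 ≤ Z := (norm_nonneg _).trans (hZ (Classical.arbitrary ι))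
  have hRZ : 0 ≤ R * Z := mul_nonneg hR0 hZ0
  set M : ℝ := 2 * (R * Z) + 1 with hM
  have hM0 : 0 < M := by linarith
  set S : Set (ι → ℝ) := Icc (fun _ => 0) (fun _ => M) with hS
  have memS : ∀ ψ : ι → ℝ, ψ ∈ S ↔ ∀ i, 0 ≤ ψ i ∧ ψ i ≤ M := by
    intro ψ
    simp only [hS, mem_Icc, Pi.le_def]
    exact ⟨fun h i => ⟨h.1 i, h.2 i⟩, fun h => ⟨fun i => (h i).1, fun i => (h i).2⟩⟩
  have hScont : ContinuousOn (Gfun ρ z p f ε) S := by
    refine (continuousOn_Gfun (M := M) hR hZ hf hfB p ε).mono ?_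
    intro ψ hψ i
    rw [memS] at hψ
    rw [abs_of_nonneg (hψ i).1]; exact (hψ i).2
  obtain ⟨ψ₀, hψ₀S, hψ₀⟩ := isCompact_Icc.exists_isMinOn
    (⟨fun _ => 0, left_mem_Icc.2 fun _ => hM0.le⟩ : S.Nonempty) hScont
  obtain ⟨j, hj⟩ := Finite.exists_min ψ₀
  set ψ : ι → ℝ := fun i => ψ₀ i + (- ψ₀ j) with hψdef
  have hψ₀S' := (memS ψ₀).1 hψ₀S
  have hGeq : Gfun ρ z p f ε ψ = Gfun ρ z p f ε ψ₀ :=
    Gfun_add_const hR z hsum hf hfB ε ψ₀ (- ψ₀ j)
  have hψS : ∀ i, 0 ≤ ψ i ∧ ψ i ≤ M := by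
    intro i
    simp only [hψdef]
    constructor
    · linarith [hj i]
    · linarith [(hψ₀S' i).2, (hψ₀S' j).1]
  have hψj : ψ j = 0 := by simp [hψdef]
  have hψM : ∀ i, |ψ i| ≤ M := fun i => by rw [abs_of_nonneg (hψS i).1]; exact (hψS i).2
  have hmin : ∀ ψ' : ι → ℝ, (∀ i, 0 ≤ ψ' i ∧ ψ' i ≤ M) → Gfun ρ z p f ε ψ ≤ Gfun ρ z p f ε ψ' := by
    intro ψ' hψ'
    rw [hGeq]
    exact hψ₀ ((memS ψ').2 hψ')
  refine ⟨ψ, hψS, hmin, ?_⟩
  set w : E d → ℝ := fun x => pot z ψ x - f x with hw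
  set wb : ℝ := ∫ y, w y ∂ρ with hwb
  obtain ⟨iw, iw2⟩ := integrable_w hR hZ hψM hf hfB
  have hwB : ∀ᵐ x ∂ρ, |w x| ≤ 3 * (R * Z) + 1 + B := by
    filter_upwards [hR, hfB] with x hx hx'
    have := abs_pot_le hx hZ hψM
    calc |pot z ψ x - f x| ≤ |pot z ψ x| + |f x| := abs_sub _ _
      _ ≤ _ := by linarith
  have hwbB : |wb| ≤ 3 * (R * Z) + 1 + B := by
    have := norm_integral_le_of_norm_le_const (μ := ρ) (f := w) (C := 3 * (R * Z) + 1 + B)
      (by filter_upwards [hwB] with x hx; rw [Real.norm_eq_abs]; exact hx)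
    simpa [Real.norm_eq_abs] using this
  have hθ : ∀ᵐ x ∂ρ, 0 ≤ 1 + ε * (w x - wb) := by
    filter_upwards [hwB] with x hx
    have h1 : |w x - wb| ≤ 2 * (3 * (R * Z) + 1 + B) := by
      calc |w x - wb| ≤ |w x| + |wb| := abs_sub _ _
        _ ≤ _ := by linarith
    have h2 := abs_le.1 h1
    nlinarith [h2.1]
  have iθ : Integrable (fun x => 1 + ε * (w x - wb)) ρ :=
    (integrable_const _).add ((iw.sub (integrable_const _)).const_mul _)
  have hint : ∫ x, (1 + ε * (w x - wb)) ∂ρ = 1 := by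
    have i3 : Integrable (fun x => ε * (w x - wb)) ρ := (iw.sub (integrable_const _)).const_mul _
    rw [integral_add (integrable_const _) i3, integral_const_mul,
      integral_sub iw (integrable_const _)]
    simp [hwb, hw]
  have hle : ∀ i, ∫ x in Lag z ψ i, (1 + ε * (w x - wb)) ∂ρ ≤ p i := by
    intro i
    rcases lt_or_ge (ψ i) M with hi | hi
    · -- limit of first order conditions
      set t : ℕ → ℝ := fun k => (M - ψ i) / (k + 1) with ht
      have ht0 : ∀ k, 0 < t k := fun k => div_pos (by linarith) (by positivity)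
      have htM : ∀ k, t k ≤ M - ψ i := fun k => by
        rw [ht]; simp only
        apply div_le_self (by linarith)
        have : (0 : ℝ) ≤ k := Nat.cast_nonneg k
        linarith
      have hanti : Antitone t := by
        intro a b hab
        simp only [ht]
        apply div_le_div_of_nonneg_left (by linarith) (by positivity)
        have : (a : ℝ) ≤ b := by exact_mod_cast hab
        linarith
      have hmono : Monotone fun k => Ucell z ψ i (t k) := by
        intro a b hab x hx k hk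
        have := hx k hk
        linarith [hanti hab]
      have hfo : ∀ k, ∫ x in Ucell z ψ i (t k), (1 + ε * (w x - wb)) ∂ρ ≤ p i + ε / 2 * t k := by
        intro k
        refine first_order hR hZ hf hfB hε hψM hθ i (ht0 k) (hmin _ ?_)
        intro l
        by_cases hl : l = i
        · subst hl
          rw [Function.update_self]
          constructor
          · linarith [(hψS l).1, ht0 k]
          · linarith [htM k]
        · rw [Function.update_of_ne hl]; exact hψS l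
      have hlim := tendsto_setIntegral_of_monotone (μ := ρ)
        (fun k => measurableSet_Ucell z ψ i (t k)) hmono
        (f := fun x => 1 + ε * (w x - wb)) iθ.integrableOn
      have htlim : Tendsto t atTop (𝓝 0) := by
        have : Tendsto (fun k : ℕ => (M - ψ i) / ((k : ℝ) + 1)) atTop (𝓝 0) :=
          tendsto_const_nhds.div_atTop (tendsto_natCast_atTop_atTop.atTop_add tendsto_const_nhds)
        exact this
      have hlim2 : Tendsto (fun k => p i + ε / 2 * t k) atTop (𝓝 (p i)) := by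
        simpa using (htlim.const_mul (ε / 2)).const_add (p i)
      have hU : ∫ x in ⋃ k, Ucell z ψ i (t k), (1 + ε * (w x - wb)) ∂ρ ≤ p i :=
        le_of_tendsto_of_tendsto' hlim hlim2 hfo
      refine le_trans ?_ hU
      -- the cell is a.e. contained in the union
      apply setIntegral_mono_set iθ.integrableOn
      · exact ae_restrict_of_ae hθ
      · filter_upwards [hρ.ae_le (ae_Lag_unique hz ψ)] with x hx hxi
        have hxi' : x ∈ Lag z ψ i := hxi
        have hstrict : ∀ l, l ≠ i → 0 < (⟪x, z i⟫ - ψ i) - (⟪x, z l⟫ - ψ l) := by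
          intro l hl
          rcases (hxi' l).lt_or_eq with h | h
          · linarith
          · exfalso
            apply hl
            refine hx l i ?_ hxi'
            intro k
            rw [h]; exact hxi' k
        -- uniform margin
        obtain ⟨m, hm0, hm⟩ : ∃ m : ℝ, 0 < m ∧ ∀ l, l ≠ i → m ≤ (⟪x, z i⟫ - ψ i) - (⟪x, z l⟫ - ψ l) := by
          by_cases hne : ∃ l, l ≠ i
          · obtain ⟨l₀, hl₀, hl₀'⟩ := (Finset.univ.filter fun l => l ≠ i).exists_min_image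
              (fun l => (⟪x, z i⟫ - ψ i) - (⟪x, z l⟫ - ψ l))
              (by obtain ⟨l, hl⟩ := hne; exact ⟨l, by simp [hl]⟩)
            refine ⟨_, hstrict l₀ (by simpa using hl₀), fun l hl => hl₀' l (by simp [hl])⟩
          · push Not at hne
            exact ⟨1, one_pos, fun l hl => absurd (hne l) hl⟩
        obtain ⟨k, hk⟩ := (htlim.eventually (gt_mem_nhds hm0)).exists
        refine mem_iUnion.2 ⟨k, ?_⟩
        intro l hl
        have := hm l hl
        linarith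
    · -- empty cell
      have hnull : ∀ᵐ x ∂ρ, x ∉ Lag z ψ i := by
        filter_upwards [hR] with x hx hxi
        have h1 := hxi j
        rw [hψj] at h1
        have h2 : |⟪x, z i⟫| ≤ R * Z :=
          (abs_real_inner_le_norm _ _).trans (mul_le_mul hx (hZ i) (norm_nonneg _) hR0)
        have h3 : |⟪x, z j⟫| ≤ R * Z :=
          (abs_real_inner_le_norm _ _).trans (mul_le_mul hx (hZ j) (norm_nonneg _) hR0)
        have h4 := (abs_le.1 h2).2
        have h5 := (abs_le.1 h3).1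
        linarith
      have : ρ (Lag z ψ i) = 0 := by
        rw [← compl_compl (Lag z ψ i)]
        exact hnull
      rw [Measure.restrict_eq_zero.2 this]
      simpa using hp i
  have htot : ∑ i, ∫ x in Lag z ψ i, (1 + ε * (w x - wb)) ∂ρ = ∑ i, p i := by
    rw [sum_setIntegral_Lag hρ hz ψ iθ, hint, hsum]
  intro i
  exact (Finset.sum_eq_sum_iff_of_le fun i _ => hle i).1 htot i (Finset.mem_univ i)

/-- Semidiscrete optimal transport for a finite source measure. -/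
theorem semi_exists {σ : Measure (E d)} [IsFiniteMeasure σ] (hσ : σ ≪ volume) {R : ℝ}
    (hR : ∀ᵐ x ∂σ, ‖x‖ ≤ R) {z : ι → E d} (hz : Function.Injective z)
    {p : ι → ℝ} (hp : ∀ i, 0 ≤ p i) (hsum : ∑ i, p i = σ.real univ) :
    ∃ ψ : ι → ℝ, ∀ i, σ.real (Lag z ψ i) = p i := by
  by_cases h0 : σ = 0
  · subst h0
    refine ⟨fun _ => 0, fun i => ?_⟩
    have h1 : ∑ i, p i = 0 := by simpa using hsum
    have := (Finset.sum_eq_zero_iff_of_nonneg fun i _ => hp i).1 h1 i (Finset.mem_univ i)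
    rw [this]; simp
  · have hu0 : σ univ ≠ 0 := by simpa using h0
    have hut : σ univ ≠ ∞ := measure_ne_top _ _
    set m : ℝ := σ.real univ with hm
    have hm0 : 0 < m := by
      rw [hm, Measure.real]
      exact ENNReal.toReal_pos hu0 hut
    set ρ : Measure (E d) := (σ univ)⁻¹ • σ with hρ
    haveI : IsProbabilityMeasure ρ := by
      constructor
      rw [hρ, Measure.smul_apply, smul_eq_mul]
      exact ENNReal.inv_mul_cancel hu0 hut
    have hρv : ρ ≪ volume := (Measure.smul_absolutelyContinuous).trans hσ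
    have hρR : ∀ᵐ x ∂ρ, ‖x‖ ≤ R := Measure.ae_smul_measure hR _
    obtain ⟨Z, hZ⟩ : ∃ Z, ∀ i, ‖z i‖ ≤ Z := by
      obtain ⟨Z, hZ⟩ := (Set.finite_range fun i => ‖z i‖).bddAbove
      exact ⟨Z, fun i => hZ ⟨i, rfl⟩⟩
    obtain ⟨ψ, _, _, hψ⟩ := semi_pen (p := fun i => p i / m) (f := fun _ => 0) (B := 0) (ε := 0)
      hρv hρR hz hZ (fun i => div_nonneg (hp i) hm0.le)
      (by rw [← Finset.sum_div, hsum]; exact div_self hm0.ne') measurable_const (by simp)
      le_rfl (by norm_num)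
    refine ⟨ψ, fun i => ?_⟩
    have h1 := hψ i
    simp only [zero_mul, add_zero, integral_const, MeasurableSet.univ, measureReal_restrict_apply,
      univ_inter, smul_eq_mul, mul_one] at h1
    have h2 : ρ.real (Lag z ψ i) = σ.real (Lag z ψ i) / m := by
      rw [hρ, Measure.real, Measure.smul_apply, smul_eq_mul, ENNReal.toReal_mul,
        ENNReal.toReal_inv]
      rw [hm]; simp only [Measure.real]
      field_simp
    rw [h2] at h1
    field_simp at h1
    exact h1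

/-- Semidiscrete optimal transport for a source with density `θ` restricted to `C`. -/
theorem semi_density {ρ : Measure (E d)} [IsFiniteMeasure ρ] (hρ : ρ ≪ volume) {R : ℝ}
    (hR : ∀ᵐ x ∂ρ, ‖x‖ ≤ R) {θ : E d → ℝ} (hθm : Measurable θ) {B : ℝ}
    (hθ : ∀ᵐ x ∂ρ, 0 ≤ θ x ∧ θ x ≤ B) {C : Set (E d)} (hC : MeasurableSet C)
    {z : ι → E d} (hz : Function.Injective z)
    {p : ι → ℝ} (hp : ∀ i, 0 ≤ p i) (hsum : ∑ i, p i = ∫ x in C, θ x ∂ρ) :
    ∃ ψ : ι → ℝ, ∀ i, ∫ x in C ∩ Lag z ψ i, θ x ∂ρ = p i := by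
  have iθ : Integrable θ ρ := by
    refine integrable_of_ae_bound (C := B) hθm.aestronglyMeasurable ?_
    filter_upwards [hθ] with x hx
    rw [abs_of_nonneg hx.1]; exact hx.2
  set σ : Measure (E d) := (ρ.restrict C).withDensity (fun x => ENNReal.ofReal (θ x)) with hσ
  have hσρ : σ ≪ ρ :=
    (withDensity_absolutelyContinuous _ _).trans Measure.restrict_le_self.absolutelyContinuous
  haveI : IsFiniteMeasure σ := isFiniteMeasure_withDensity_ofReal iθ.restrict.2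
  have hreal : ∀ A : Set (E d), MeasurableSet A → σ.real A = ∫ x in C ∩ A, θ x ∂ρ := by
    intro A hA
    rw [Measure.real, hσ, withDensity_apply _ hA, Measure.restrict_restrict hA, inter_comm A C,
      ← ofReal_integral_eq_lintegral_ofReal iθ.integrableOn
        (ae_restrict_of_ae (by filter_upwards [hθ] with x hx using hx.1)),
      ENNReal.toReal_ofReal]
    exact integral_nonneg_of_ae (ae_restrict_of_ae (by filter_upwards [hθ] with x hx using hx.1))
  obtain ⟨ψ, hψ⟩ := semi_exists (σ := σ) (hσρ.trans hρ) (hσρ.ae_le hR) hz hp (by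
    rw [hsum, hreal _ MeasurableSet.univ, inter_univ])
  exact ⟨ψ, fun i => by rw [← hψ i, hreal _ (measurableSet_Lag z ψ i)]⟩

end Vale.Agent.P074
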