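import Mathlib
import Vale.Agent.P074.Semi
import Vale.Agent.P074.MLDef
import Vale.Agent.P074.Shift

open MeasureTheory Set Filter Topology
open scoped RealInnerProductSpace ENNReal NNReal

namespace Vale.Agent.P074

/-- (SEL) measurable selection of a Laguerre index; gives a subgradient map -/
theorem exists_isSub {d : ℕ} {ι : Type*} [Fintype ι] [Nonempty ι] (z : ι → E d) (ψ : ι → ℝ)
    {L : ℝ} (hL : ∀ i, ‖z i‖ ≤ L) :
    ∃ I : E d → ι, (∀ i, MeasurableSet (I ⁻¹' {i})) ∧ (∀ x, x ∈ Lag z ψ (I x)) ∧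
      IsSub (pot z ψ) (fun x => z (I x)) L := by
  classical
  set e := Fintype.equivFin ι with he
  have hne : ∀ x : E d, (Finset.univ.filter fun k => x ∈ Lag z ψ (e.symm k)).Nonempty := by
    intro x
    obtain ⟨i, hi⟩ := exists_mem_Lag z ψ x
    exact ⟨e i, by simp [hi]⟩
  set J : E d → Fin (Fintype.card ι) := fun x =>
    (Finset.univ.filter fun k => x ∈ Lag z ψ (e.symm k)).min' (hne x) with hJ
  have hJmem : ∀ x, x ∈ Lag z ψ (e.symm (J x)) := by
    intro x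
    have := Finset.min'_mem _ (hne x)
    exact (Finset.mem_filter.1 this).2
  have hJle : ∀ x k, x ∈ Lag z ψ (e.symm k) → J x ≤ k := by
    intro x k hk
    exact Finset.min'_le _ _ (by simp [hk])
  have hJpre : ∀ k, J ⁻¹' {k} = Lag z ψ (e.symm k) ∩ ⋂ l : {l // l < k}, (Lag z ψ (e.symm l))ᶜ := by
    intro k
    ext x
    simp only [mem_preimage, mem_singleton_iff, mem_inter_iff, mem_iInter, mem_compl_iff,
      Subtype.forall]
    constructor
    · intro h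
      subst h
      refine ⟨hJmem x, fun l hl hxl => ?_⟩
      exact absurd (hJle x l hxl) (not_le.2 hl)
    · rintro ⟨h1, h2⟩
      apply le_antisymm (hJle x k h1)
      by_contra hcon
      exact h2 (J x) (not_le.1 hcon) (hJmem x)
  refine ⟨fun x => e.symm (J x), ?_, hJmem, ?_, ?_, ?_⟩
  · intro i
    have : (fun x => e.symm (J x)) ⁻¹' {i} = J ⁻¹' {e i} := by
      ext x
      simp [Equiv.symm_apply_eq]
    rw [this, hJpre]
    exact (measurableSet_Lag _ _ _).inter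
      (MeasurableSet.iInter fun l => (measurableSet_Lag _ _ _).compl)
  · intro x y
    have h1 := pot_eq_of_mem (hJmem x)
    have h2 := le_pot z ψ y (e.symm (J x))
    rw [h1, inner_sub_right, real_inner_comm y, real_inner_comm x]
    linarith
  · intro x
    exact hL _
  · have hm : ∀ i, MeasurableSet ((fun x => e.symm (J x)) ⁻¹' {i}) := by
      intro i
      have : (fun x => e.symm (J x)) ⁻¹' {i} = J ⁻¹' {e i} := by
        ext x
        simp [Equiv.symm_apply_eq]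
      rw [this, hJpre]
      exact (measurableSet_Lag _ _ _).inter
        (MeasurableSet.iInter fun l => (measurableSet_Lag _ _ _).compl)
    intro A _
    have : (fun x => z (e.symm (J x))) ⁻¹' A =
        ⋃ i : {i // z i ∈ A}, (fun x => e.symm (J x)) ⁻¹' {(i : ι)} := by
      ext x
      simp
    rw [this]
    exact MeasurableSet.iUnion fun i => hm i

/-! ### facts on the uniform measure -/

lemma disc_vol {d : ℕ} {K : Set (E d)} (hK : IsCompact K) (hKi : (interior K).Nonempty) :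
    volume K ≠ 0 ∧ volume K ≠ ∞ :=
  ⟨(isOpen_interior.measure_pos volume hKi |>.trans_le (measure_mono interior_subset)).ne',
    hK.measure_lt_top.ne⟩

lemma disc_prob {d : ℕ} {K : Set (E d)} (hK : IsCompact K) (hKi : (interior K).Nonempty) :
    IsProbabilityMeasure (unif K) := by
  obtain ⟨h0, h1⟩ := disc_vol hK hKi
  constructor
  simp only [unif, Measure.smul_apply, Measure.restrict_apply MeasurableSet.univ, univ_inter,
    smul_eq_mul]
  exact ENNReal.inv_mul_cancel h0 h1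

lemma disc_ac {d : ℕ} (K : Set (E d)) : unif K ≪ volume :=
  Measure.smul_absolutelyContinuous.trans Measure.restrict_le_self.absolutelyContinuous

lemma disc_mem {d : ℕ} {K : Set (E d)} (hK : IsCompact K) : ∀ᵐ x ∂(unif K), x ∈ K :=
  Measure.ae_smul_measure (ae_restrict_mem hK.measurableSet) _

lemma disc_integral {d : ℕ} (K : Set (E d)) (f : E d → ℝ) :
    ∫ x, f x ∂(unif K) = (volume.real K)⁻¹ * ∫ x in K, f x := by
  rw [unif, integral_smul_measure, ENNReal.toReal_inv, smul_eq_mul, Measure.real]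

/-- integrals over selected cells -/
lemma disc_sel {d : ℕ} {ι : Type*} [Fintype ι] [Nonempty ι] {ρ : Measure (E d)}
    [IsFiniteMeasure ρ] (hρ : ρ ≪ volume) {z : ι → E d} (hz : Function.Injective z)
    {ψ : ι → ℝ} {I : E d → ι} (hIm : ∀ i, MeasurableSet (I ⁻¹' {i}))
    (hI : ∀ x, x ∈ Lag z ψ (I x)) {g : E d → ℝ} (hg : Integrable g ρ) (c : ι → ℝ) :
    Integrable (fun x => c (I x) * g x) ρ ∧
    ∫ x, c (I x) * g x ∂ρ = ∑ i, c i * ∫ x in Lag z ψ i, g x ∂ρ := by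
  have hcm : Measurable fun x => c (I x) := by
    intro A _
    have : (fun x => c (I x)) ⁻¹' A = ⋃ i : {i // c i ∈ A}, I ⁻¹' {(i : ι)} := by
      ext x; simp
    rw [this]
    exact MeasurableSet.iUnion fun i => hIm i
  obtain ⟨M, hM⟩ : ∃ M, ∀ i, |c i| ≤ M := by
    obtain ⟨M, hM⟩ := (Set.finite_range fun i => |c i|).bddAbove
    exact ⟨M, fun i => hM ⟨i, rfl⟩⟩
  have hint : Integrable (fun x => c (I x) * g x) ρ :=
    hg.bdd_mul hcm.aestronglyMeasurable (c := M)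
      (Eventually.of_forall fun x => by rw [Real.norm_eq_abs]; exact hM _)
  refine ⟨hint, ?_⟩
  rw [← sum_setIntegral_Lag hρ hz ψ hint]
  apply Finset.sum_congr rfl
  intro i _
  rw [← integral_const_mul]
  apply setIntegral_congr_ae (measurableSet_Lag z ψ i)
  filter_upwards [hρ.ae_le (ae_Lag_unique hz ψ)] with x hx hxi
  rw [hx (I x) i (hI x) hxi]

/-- weak duality -/
lemma disc_dual {d : ℕ} {ι : Type*} [Fintype ι] [Nonempty ι] {ρ : Measure (E d)}
    [IsFiniteMeasure ρ] (hρ : ρ ≪ volume) {R : ℝ} (hR : ∀ᵐ x ∂ρ, ‖x‖ ≤ R)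
    {z : ι → E d} (hz : Function.Injective z)
    {ψ ψ' p : ι → ℝ} {θ : E d → ℝ} (hθm : Measurable θ) {Bθ : ℝ}
    (hθ : ∀ᵐ x ∂ρ, 0 ≤ θ x ∧ θ x ≤ Bθ)
    (hp : ∀ i, ∫ x in Lag z ψ' i, θ x ∂ρ = p i) :
    0 ≤ ∫ x, (pot z ψ x - pot z ψ' x) * θ x ∂ρ + ∑ i, (ψ i - ψ' i) * p i := by
  obtain ⟨Z, hZ⟩ : ∃ Z, ∀ i, ‖z i‖ ≤ Z := by
    obtain ⟨Z, hZ⟩ := (Set.finite_range fun i => ‖z i‖).bddAbove
    exact ⟨Z, fun i => hZ ⟨i, rfl⟩⟩
  obtain ⟨I, hIm, hI, -⟩ := exists_isSub z ψ' hZ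
  have iθ : Integrable θ ρ := by
    refine integrable_of_ae_bound (C := Bθ) hθm.aestronglyMeasurable ?_
    filter_upwards [hθ] with x hx
    rw [abs_of_nonneg hx.1]; exact hx.2
  obtain ⟨i1, e1⟩ := disc_sel hρ hz hIm hI iθ (fun i => ψ i - ψ' i)
  have ip : ∀ φ : ι → ℝ, Integrable (fun x => pot z φ x * θ x) ρ := by
    intro φ
    refine (integrable_pot hR z φ).mul_bdd hθm.aestronglyMeasurable (c := Bθ) ?_
    filter_upwards [hθ] with x hx
    rw [Real.norm_eq_abs, abs_of_nonneg hx.1]; exact hx.2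
  have i2 : Integrable (fun x => (pot z ψ x - pot z ψ' x) * θ x) ρ := by
    have := (ip ψ).sub (ip ψ')
    refine this.congr (Eventually.of_forall fun x => ?_)
    simp only [Pi.sub_apply]; ring
  have e2 : ∑ i, (ψ i - ψ' i) * p i = ∫ x, (ψ (I x) - ψ' (I x)) * θ x ∂ρ := by
    rw [e1]
    exact Finset.sum_congr rfl fun i _ => by rw [hp i]
  rw [e2, ← integral_add i2 i1]
  apply integral_nonneg_of_ae
  filter_upwards [hθ] with x hx
  have h1 := le_pot z ψ x (I x)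
  have h2 := pot_eq_of_mem (hI x)
  simp only [Pi.zero_apply]
  rw [← add_mul]
  apply mul_nonneg _ hx.1
  linarith

/-- statement of the duality + telescoping lemma -/
def TelProp {d : ℕ} (K : Set (E d)) (C : ℝ) : Prop :=
  ∀ (ι : Type) [Fintype ι] [Nonempty ι] (a b : ι → E d) (p ψa ψb : ι → ℝ) (γ : E d → ℝ),
    (∀ t : ℚ, Function.Injective fun i => a i + (t : ℝ) • (b i - a i)) →
    (∀ i, 0 ≤ p i) → Measurable γ → (∀ x ∈ K, |γ x| ≤ 1 / 2) →
    (∀ i, (unif K).real (Lag a ψa i) = p i) →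
    (∀ i, ∫ x in Lag b ψb i, (1 + γ x) ∂(unif K) = p i) → ∀ l : ℝ, 0 < l →
    ∫ x, (pot b ψb x - pot a ψa x) * γ x ∂(unif K)
      ≤ l / 2 * (C * ∫ x, γ x ^ 2 ∂(unif K)) + 1 / (2 * l) * ∑ i, p i * ‖b i - a i‖ ^ 2

lemma disc_step {d : ℕ} {K : Set (E d)} (hK : IsCompact K) (hKi : (interior K).Nonempty)
    {R : ℝ} (hR : ∀ x ∈ K, ‖x‖ ≤ R) {L C₀ : ℝ} (hC₀ : 1 ≤ C₀) (hTEL : TelProp K C₀)
    {ι : Type} [Fintype ι] [Nonempty ι] {a b : ι → E d} {p ψa ψb : ι → ℝ}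
    (hinj : ∀ t : ℚ, Function.Injective fun i => a i + (t : ℝ) • (b i - a i))
    (hp : ∀ i, 0 ≤ p i) (hbL : ∀ i, ‖b i‖ ≤ L)
    (ha : ∀ i, (unif K).real (Lag a ψa i) = p i)
    (hb : ∀ i, (unif K).real (Lag b ψb i) = p i) {B Bb : ℝ}
    (hB : ∀ x ∈ K, |pot a ψa x| ≤ B) (hBb : ∀ x ∈ K, |pot b ψb x| ≤ Bb) {ε : ℝ} (hε : 0 < ε)
    (hεB : ε * (2 * (3 * (R * L) + 1 + B)) ≤ 1 / 2) :
    ∃ ψ : ι → ℝ,
      ∫ x, (pot b ψ x - pot a ψa x - ∫ y, (pot b ψ y - pot a ψa y) ∂(unif K)) ^ 2 ∂(unif K)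
        ≤ C₀ * ∑ i, p i * ‖a i - b i‖ ^ 2 ∧
      ∫ x, (pot b ψ x - pot b ψb x) ∂(unif K) + ∑ i, (ψ i - ψb i) * p i
        ≤ ε * (2 * (3 * (R * L) + 1 + B)) * (3 * (R * L) + 1 + Bb) := by
  have := disc_prob hK hKi
  have hac : unif K ≪ volume := disc_ac K
  have hmem := disc_mem hK
  have hRae : ∀ᵐ x ∂(unif K), ‖x‖ ≤ R := by filter_upwards [hmem] with x hx using hR x hx
  have hinjb : Function.Injective b := by
    have := hinj 1
    simpa using this
  have hR0 : 0 ≤ R := by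
    obtain ⟨x, hx⟩ := hRae.exists
    exact (norm_nonneg x).trans hx
  have hL0 : 0 ≤ L := (norm_nonneg _).trans (hbL (Classical.arbitrary ι))
  have hRL : 0 ≤ R * L := mul_nonneg hR0 hL0
  have hsum : ∑ i, p i = 1 := by
    have := sum_setIntegral_Lag hac hinjb ψb (integrable_const (1:ℝ))
    simp only [integral_const, measureReal_restrict_apply MeasurableSet.univ, univ_inter,
      smul_eq_mul, mul_one, probReal_univ] at this
    rw [← this]
    exact Finset.sum_congr rfl fun i _ => (hb i).symm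
  have hfm : Measurable (pot a ψa) := measurable_pot a ψa
  have hfB : ∀ᵐ x ∂(unif K), |pot a ψa x| ≤ B := by filter_upwards [hmem] with x hx using hB x hx
  obtain ⟨ψ, hψ, -, hmass⟩ := semi_pen hac hRae hinjb hbL hp hsum hfm hfB hε.le hεB
  refine ⟨ψ, ?_⟩
  set w : E d → ℝ := fun x => pot b ψ x - pot a ψa x with hw
  set wb : ℝ := ∫ y, w y ∂(unif K) with hwb
  set γ : E d → ℝ := fun x => ε * (w x - wb) with hγ
  have hψM : ∀ i, |ψ i| ≤ 2 * (R * L) + 1 := fun i => by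
    rw [abs_of_nonneg (hψ i).1]; exact (hψ i).2
  have hwm : Measurable w := (measurable_pot b ψ).sub hfm
  have hpotK : ∀ x ∈ K, |pot b ψ x| ≤ 3 * (R * L) + 1 := by
    intro x hx
    have := abs_pot_le (hR x hx) hbL hψM
    linarith
  have hwK : ∀ x ∈ K, |w x| ≤ 3 * (R * L) + 1 + B := by
    intro x hx
    calc |pot b ψ x - pot a ψa x| ≤ |pot b ψ x| + |pot a ψa x| := abs_sub _ _
      _ ≤ _ := by linarith [hpotK x hx, hB x hx]
  have hwbB : |wb| ≤ 3 * (R * L) + 1 + B := by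
    have := norm_integral_le_of_norm_le_const (μ := unif K) (f := w) (C := 3 * (R * L) + 1 + B)
      (by filter_upwards [hmem] with x hx; rw [Real.norm_eq_abs]; exact hwK x hx)
    simpa [Real.norm_eq_abs] using this
  have hdK : ∀ x ∈ K, |w x - wb| ≤ 2 * (3 * (R * L) + 1 + B) := by
    intro x hx
    calc |w x - wb| ≤ |w x| + |wb| := abs_sub _ _
      _ ≤ _ := by linarith [hwK x hx]
  have hγm : Measurable γ := (hwm.sub_const wb).const_mul ε
  have hγK' : ∀ x ∈ K, |γ x| ≤ ε * (2 * (3 * (R * L) + 1 + B)) := by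
    intro x hx
    simp only [hγ]
    rw [abs_mul, abs_of_pos hε]
    exact mul_le_mul_of_nonneg_left (hdK x hx) hε.le
  have hγK : ∀ x ∈ K, |γ x| ≤ 1 / 2 := fun x hx => (hγK' x hx).trans hεB
  have hmass' : ∀ i, ∫ x in Lag b ψ i, (1 + γ x) ∂(unif K) = p i := hmass
  -- integrability
  have iw : Integrable w (unif K) :=
    integrable_of_ae_bound hwm.aestronglyMeasurable
      (by filter_upwards [hmem] with x hx using hwK x hx)
  have id : Integrable (fun x => w x - wb) (unif K) := iw.sub (integrable_const _)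
  have id2 : Integrable (fun x => (w x - wb) ^ 2) (unif K) := by
    refine integrable_of_ae_bound (C := (2 * (3 * (R * L) + 1 + B)) ^ 2)
      ((hwm.sub_const wb).pow_const 2).aestronglyMeasurable ?_
    filter_upwards [hmem] with x hx
    rw [abs_pow]
    exact pow_le_pow_left₀ (abs_nonneg _) (hdK x hx) 2
  have hd0 : ∫ x, (w x - wb) ∂(unif K) = 0 := by
    rw [integral_sub iw (integrable_const _)]
    simp [hwb]
  constructor
  · -- variance bound
    set V : ℝ := ∫ x, (w x - wb) ^ 2 ∂(unif K) with hV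
    have hV0 : 0 ≤ V := integral_nonneg fun x => sq_nonneg _
    have hl : 0 < 1 / (C₀ * ε) := by positivity
    have htel := hTEL ι a b p ψa ψ γ hinj hp hγm hγK ha hmass' (1 / (C₀ * ε)) hl
    have e1 : ∫ x, (pot b ψ x - pot a ψa x) * γ x ∂(unif K) = ε * V := by
      have : (fun x => (pot b ψ x - pot a ψa x) * γ x) =
          fun x => ε * (w x - wb) ^ 2 + ε * wb * (w x - wb) := by
        funext x; simp only [hγ, hw]; ring
      rw [this, integral_add (id2.const_mul ε) (id.const_mul (ε * wb)), integral_const_mul,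
        integral_const_mul, hd0]
      ring
    have e2 : ∫ x, γ x ^ 2 ∂(unif K) = ε ^ 2 * V := by
      have : (fun x => γ x ^ 2) = fun x => ε ^ 2 * (w x - wb) ^ 2 := by
        funext x; simp only [hγ]; ring
      rw [this, integral_const_mul]
    rw [e1, e2] at htel
    have e3 : 1 / (C₀ * ε) / 2 * (C₀ * (ε ^ 2 * V)) = ε * V / 2 := by
      field_simp
    have e4 : 1 / (2 * (1 / (C₀ * ε))) = C₀ * ε / 2 := by
      field_simp
    rw [e3, e4] at htel
    have e5 : ∑ i, p i * ‖b i - a i‖ ^ 2 = ∑ i, p i * ‖a i - b i‖ ^ 2 :=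
      Finset.sum_congr rfl fun i _ => by rw [norm_sub_rev]
    rw [e5] at htel
    have h6 : ε * V ≤ ε * (C₀ * ∑ i, p i * ‖a i - b i‖ ^ 2) := by linarith
    exact le_of_mul_le_mul_left h6 hε
  · -- gap bound
    have hθm : Measurable fun x => 1 + γ x := hγm.const_add 1
    have hθ : ∀ᵐ x ∂(unif K), 0 ≤ 1 + γ x ∧ 1 + γ x ≤ 3 / 2 := by
      filter_upwards [hmem] with x hx
      have := abs_le.1 (hγK x hx)
      constructor <;> linarith [this.1, this.2]
    have hdual := disc_dual (ψ := ψb) (ψ' := ψ) hac hRae hinjb hθm hθ hmass'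
    have ip : Integrable (fun x => pot b ψb x - pot b ψ x) (unif K) :=
      (integrable_pot hRae b ψb).sub (integrable_pot hRae b ψ)
    have ipγ : Integrable (fun x => (pot b ψb x - pot b ψ x) * γ x) (unif K) := by
      refine ip.mul_bdd hγm.aestronglyMeasurable (c := 1 / 2) ?_
      filter_upwards [hmem] with x hx
      rw [Real.norm_eq_abs]; exact hγK x hx
    have e1 : ∫ x, (pot b ψb x - pot b ψ x) * (1 + γ x) ∂(unif K) =
        ∫ x, (pot b ψb x - pot b ψ x) ∂(unif K) +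
        ∫ x, (pot b ψb x - pot b ψ x) * γ x ∂(unif K) := by
      rw [← integral_add ip ipγ]
      exact integral_congr_ae (Eventually.of_forall fun x => by ring)
    have e2 : ∫ x, (pot b ψb x - pot b ψ x) ∂(unif K) =
        - ∫ x, (pot b ψ x - pot b ψb x) ∂(unif K) := by
      rw [← integral_neg]
      exact integral_congr_ae (Eventually.of_forall fun x => by ring)
    have e3 : ∑ i, (ψb i - ψ i) * p i = - ∑ i, (ψ i - ψb i) * p i := by
      rw [← Finset.sum_neg_distrib]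
      exact Finset.sum_congr rfl fun i _ => by ring
    have e4 : ∫ x, (pot b ψb x - pot b ψ x) * γ x ∂(unif K) ≤
        ε * (2 * (3 * (R * L) + 1 + B)) * (3 * (R * L) + 1 + Bb) := by
      have h1 := norm_integral_le_of_norm_le_const (μ := unif K)
        (f := fun x => (pot b ψb x - pot b ψ x) * γ x)
        (C := ε * (2 * (3 * (R * L) + 1 + B)) * (3 * (R * L) + 1 + Bb)) (by
          filter_upwards [hmem] with x hx
          rw [Real.norm_eq_abs, abs_mul, mul_comm]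
          have h2 : |pot b ψb x - pot b ψ x| ≤ 3 * (R * L) + 1 + Bb := by
            calc |pot b ψb x - pot b ψ x| ≤ |pot b ψb x| + |pot b ψ x| := abs_sub _ _
              _ ≤ _ := by linarith [hpotK x hx, hBb x hx]
          exact mul_le_mul (hγK' x hx) h2 (abs_nonneg _) ((abs_nonneg _).trans (hγK' x hx)))
      simp only [probReal_univ, mul_one, Real.norm_eq_abs] at h1
      exact (le_abs_self _).trans h1
    rw [e1, e2, e3] at hdual
    linarith

lemma measurable_sel {d : ℕ} {ι : Type*} [Finite ι] {α : Type*} [MeasurableSpace α]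
    {I : E d → ι} (hIm : ∀ i, MeasurableSet (I ⁻¹' {i})) (c : ι → α) :
    Measurable fun x => c (I x) := by
  intro A _
  have : (fun x => c (I x)) ⁻¹' A = ⋃ i : {i // c i ∈ A}, I ⁻¹' {(i : ι)} := by
    ext x; simp
  rw [this]
  have : Countable ι := Finite.to_countable
  exact MeasurableSet.iUnion fun i => hIm i

lemma disc_combine {d : ℕ} {K : Set (E d)} (hK : IsCompact K) {L : ℝ} (hL : 0 ≤ L)
    {Ta Tb Tε Sb : E d → E d} (mTa : Measurable Ta) (mTb : Measurable Tb) (mTε : Measurable Tε)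
    (mSb : Measurable Sb) (bTa : ∀ x, ‖Ta x‖ ≤ L) (bTb : ∀ x, ‖Tb x‖ ≤ L)
    (bTε : ∀ x, ‖Tε x‖ ≤ L) (bSb : ∀ x, ‖Sb x‖ ≤ L) :
    ∫ x in K, ‖Ta x - Tb x‖ ^ 2 ≤ 2 * (∫ x in K, ‖Tε x - Ta x‖ ^ 2) +
      (4 * L * (∫ x in K, ‖Sb x - Tε x‖) + 4 * L * (∫ x in K, ‖Sb x - Tb x‖)) := by
  have ib : ∀ T T' : E d → E d, Measurable T → Measurable T' → (∀ x, ‖T x‖ ≤ L) →
      (∀ x, ‖T' x‖ ≤ L) → IntegrableOn (fun x => ‖T x - T' x‖) K ∧
      IntegrableOn (fun x => ‖T x - T' x‖ ^ 2) K := by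
    intro T T' hT hT' hTL hTL'
    have hb2 : ∀ x, ‖T x - T' x‖ ≤ L + L := fun x =>
      (norm_sub_le _ _).trans (add_le_add (hTL x) (hTL' x))
    refine ⟨?_, ?_⟩
    · refine integrableOn_bdd hK (B := L + L) (hT.sub hT').norm ?_
      intro x _
      rw [abs_norm]; exact hb2 x
    · refine integrableOn_bdd hK (B := (L + L) ^ 2) ((hT.sub hT').norm.pow_const 2) ?_
      intro x _
      rw [abs_of_nonneg (sq_nonneg _)]
      exact pow_le_pow_left₀ (norm_nonneg _) (hb2 x) 2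
  obtain ⟨j1, j2⟩ := ib Ta Tb mTa mTb bTa bTb
  obtain ⟨j3, j4⟩ := ib Tε Ta mTε mTa bTε bTa
  obtain ⟨j5, j6⟩ := ib Sb Tε mSb mTε bSb bTε
  obtain ⟨j7, j8⟩ := ib Sb Tb mSb mTb bSb bTb
  have hpt : ∀ x, ‖Ta x - Tb x‖ ^ 2 ≤ 2 * ‖Tε x - Ta x‖ ^ 2 +
      (4 * L * ‖Sb x - Tε x‖ + 4 * L * ‖Sb x - Tb x‖) := by
    intro x
    have t1 : ‖Ta x - Tb x‖ ≤ ‖Tε x - Ta x‖ + ‖Tε x - Tb x‖ := by
      have : Ta x - Tb x = (Tε x - Tb x) - (Tε x - Ta x) := by abel
      rw [this, add_comm]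
      exact norm_sub_le _ _
    have t2 : ‖Tε x - Tb x‖ ≤ ‖Sb x - Tε x‖ + ‖Sb x - Tb x‖ := by
      have : Tε x - Tb x = (Sb x - Tb x) - (Sb x - Tε x) := by abel
      rw [this, add_comm]
      exact norm_sub_le _ _
    have t3 : ‖Tε x - Tb x‖ ≤ 2 * L := by
      have := (norm_sub_le (Tε x) (Tb x)).trans (add_le_add (bTε x) (bTb x))
      linarith
    have t4 : ‖Ta x - Tb x‖ ^ 2 ≤ (‖Tε x - Ta x‖ + ‖Tε x - Tb x‖) ^ 2 :=
      pow_le_pow_left₀ (norm_nonneg _) t1 2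
    have t5 : (‖Tε x - Ta x‖ + ‖Tε x - Tb x‖) ^ 2 ≤
        2 * ‖Tε x - Ta x‖ ^ 2 + 2 * ‖Tε x - Tb x‖ ^ 2 := by
      nlinarith [sq_nonneg (‖Tε x - Ta x‖ - ‖Tε x - Tb x‖)]
    have t6 : ‖Tε x - Tb x‖ ^ 2 ≤ 2 * L * (‖Sb x - Tε x‖ + ‖Sb x - Tb x‖) := by
      have := norm_nonneg (Tε x - Tb x)
      calc ‖Tε x - Tb x‖ ^ 2 = ‖Tε x - Tb x‖ * ‖Tε x - Tb x‖ := sq _
        _ ≤ 2 * L * (‖Sb x - Tε x‖ + ‖Sb x - Tb x‖) :=
          mul_le_mul t3 t2 this (by positivity)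
    linarith
  calc ∫ x in K, ‖Ta x - Tb x‖ ^ 2
      ≤ ∫ x in K, (2 * ‖Tε x - Ta x‖ ^ 2 +
          (4 * L * ‖Sb x - Tε x‖ + 4 * L * ‖Sb x - Tb x‖)) :=
        integral_mono j2 ((j4.const_mul 2).add ((j5.const_mul (4 * L)).add
          (j7.const_mul (4 * L)))) hpt
    _ = 2 * (∫ x in K, ‖Tε x - Ta x‖ ^ 2) + (4 * L * (∫ x in K, ‖Sb x - Tε x‖) +
          4 * L * (∫ x in K, ‖Sb x - Tb x‖)) := by
        rw [← integral_const_mul, ← integral_const_mul, ← integral_const_mul,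
          ← integral_add (j5.const_mul (4 * L)) (j7.const_mul (4 * L))]
        exact integral_add (j4.const_mul 2) ((j5.const_mul (4 * L)).add (j7.const_mul (4 * L)))

lemma disc_arith {X Y I1 I2 L C₁ h' V ε W M Z δ : ℝ} {Y' : ℝ}
    (h4 : X ≤ 2 * Y + (4 * L * I1 + 4 * L * I2)) (h1 : Y ≤ Y')
    (h2 : I1 ≤ C₁ * (L * h' + V * (ε * W * M) / h')) (h3 : I2 ≤ C₁ * (L * h')) (hL : 0 ≤ L)
    (hh' : 0 < h') (hε : ε = h' * h')
    (hZ : Z = 4 * L * (C₁ * (L + V * (W * M)) + C₁ * L)) (hZ0 : 0 ≤ Z) (hε3 : h' ≤ δ / (Z + 1))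
    (hδ : 0 < δ) : X ≤ 2 * Y' + δ := by
  have e : V * (ε * W * M) / h' = V * (W * M) * h' := by
    rw [hε]; field_simp
  rw [e] at h2
  have a1 : 4 * L * I1 ≤ 4 * L * (C₁ * (L * h' + V * (W * M) * h')) := by gcongr
  have a2 : 4 * L * I2 ≤ 4 * L * (C₁ * (L * h')) := by gcongr
  have a3 : 4 * L * (C₁ * (L * h' + V * (W * M) * h')) + 4 * L * (C₁ * (L * h')) = Z * h' := by
    rw [hZ]; ring
  have a4 : Z * h' ≤ δ := by
    calc Z * h' ≤ Z * (δ / (Z + 1)) := by gcongr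
      _ ≤ δ := by
        rw [mul_div_assoc', div_le_iff₀ (by positivity)]
        nlinarith
  linarith

/-- the estimate with a free parameter `h` -/
lemma disc_key {d : ℕ} {K : Set (E d)} (hK : IsCompact K) (hKi : (interior K).Nonempty)
    {L C₀ C₁ C₂ : ℝ} (hC₀ : 1 ≤ C₀) (hTEL : TelProp K C₀) (hL : 0 ≤ L) (hC₁ : 0 ≤ C₁)
    (hC₂ : 0 ≤ C₂)
    (hgap : ∀ (L : ℝ) (φ : E d → ℝ) (T S : E d → E d) (c : E d → ℝ),
      IsSub φ T L → Measurable S → (∀ x, ‖S x‖ ≤ L) → Measurable c →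
      (∃ B, ∀ x ∈ K, |c x| ≤ B) →
      (∀ x ∈ K, ∀ x', ‖x' - x‖ ≤ 1 → ⟪x', S x⟫ ≤ φ x' + c x) →
      ∀ h : ℝ, 0 < h → h ≤ 1 →
        ∫ x in K, ‖S x - T x‖ ≤ C₁ * (L * h + (∫ x in K, (φ x + c x - ⟪x, S x⟫)) / h))
    (hint : ∀ (L : ℝ) (φ₀ φ₁ : E d → ℝ) (T₀ T₁ : E d → E d) (a : ℝ),
      IsSub φ₀ T₀ L → IsSub φ₁ T₁ L →
      ∀ h : ℝ, 0 < h → h ≤ 1 →
        ∫ x in K, ‖T₀ x - T₁ x‖ ^ 2
          ≤ C₂ * (L ^ 2 * h + (∫ x in K, (φ₀ x - φ₁ x - a) ^ 2) / h ^ 2))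
    {ι : Type} [Fintype ι] [Nonempty ι] {a b : ι → E d} {p ψa ψb : ι → ℝ}
    (hinj : ∀ t : ℚ, Function.Injective fun i => a i + (t : ℝ) • (b i - a i))
    (hp : ∀ i, 0 ≤ p i) (hbL : ∀ i, ‖b i‖ ≤ L)
    (ha : ∀ i, (unif K).real (Lag a ψa i) = p i)
    (hb : ∀ i, (unif K).real (Lag b ψb i) = p i) {Ta Tb : E d → E d}
    (hTa : IsSub (pot a ψa) Ta L) (hTb : IsSub (pot b ψb) Tb L) {h : ℝ} (hh : 0 < h)
    (hh1 : h ≤ 1) :
    ∫ x in K, ‖Ta x - Tb x‖ ^ 2 ≤ 2 * (C₂ * (L ^ 2 * h +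
      (volume.real K * (C₀ * ∑ i, p i * ‖a i - b i‖ ^ 2)) / h ^ 2)) := by
  have hprob := disc_prob hK hKi
  have hac : unif K ≪ volume := disc_ac K
  obtain ⟨hV0, hV1⟩ := disc_vol hK hKi
  set V : ℝ := volume.real K with hV
  have hVpos : 0 < V := ENNReal.toReal_pos hV0 hV1
  obtain ⟨R, hR⟩ := hK.exists_bound_of_continuousOn (f := fun x : E d => x) continuousOn_id
  obtain ⟨B, hB⟩ := hK.exists_bound_of_continuousOn (continuous_pot_x a ψa).continuousOn
  obtain ⟨Bb, hBb⟩ := hK.exists_bound_of_continuousOn (continuous_pot_x b ψb).continuousOn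
  obtain ⟨x₀, hx₀⟩ := hKi
  have hx₀K := interior_subset hx₀
  have hR0 : 0 ≤ R := (norm_nonneg _).trans (hR x₀ hx₀K)
  have hB0 : 0 ≤ B := (norm_nonneg _).trans (hB x₀ hx₀K)
  have hBb0 : 0 ≤ Bb := (norm_nonneg _).trans (hBb x₀ hx₀K)
  have hRL : 0 ≤ R * L := mul_nonneg hR0 hL
  have hinjb : Function.Injective b := by
    have := hinj 1
    simpa using this
  set S : ℝ := ∑ i, p i * ‖a i - b i‖ ^ 2 with hS
  set W : ℝ := 2 * (3 * (R * L) + 1 + B) with hW
  set M : ℝ := 3 * (R * L) + 1 + Bb with hM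
  have hWpos : 0 < W := by rw [hW]; linarith
  have hMpos : 0 < M := by rw [hM]; linarith
  set Z : ℝ := 4 * L * (C₁ * (L + V * (W * M)) + C₁ * L) with hZ
  have hZ0 : 0 ≤ Z := by positivity
  apply le_of_forall_pos_le_add
  intro δ hδ
  set ε : ℝ := min (1 / (2 * W)) (min 1 ((δ / (Z + 1)) ^ 2)) with hε
  have hεpos : 0 < ε := by
    rw [hε]
    refine lt_min (by positivity) (lt_min one_pos (by positivity))
  have hε1 : ε ≤ 1 := (min_le_right _ _).trans (min_le_left _ _)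
  have hε2 : ε * W ≤ 1 / 2 := by
    calc ε * W ≤ 1 / (2 * W) * W := by gcongr; exact min_le_left _ _
      _ = 1 / 2 := by field_simp
  have hε3 : √ε ≤ δ / (Z + 1) := by
    rw [Real.sqrt_le_left (by positivity)]
    exact (min_le_right _ _).trans (min_le_right _ _)
  set h' : ℝ := √ε with hh'
  have hh'pos : 0 < h' := Real.sqrt_pos.2 hεpos
  have hh'1 : h' ≤ 1 := Real.sqrt_le_one.2 hε1
  have hεh' : ε = h' * h' := (Real.mul_self_sqrt hεpos.le).symm
  obtain ⟨ψ, hvar, hgapb⟩ := disc_step hK ⟨x₀, hx₀⟩ hR hC₀ hTEL hinj hp hbL ha hb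
    hB hBb hεpos hε2
  obtain ⟨I, -, -, hTε⟩ := exists_isSub b ψ hbL
  obtain ⟨Ib, hIbm, hIb, hSb⟩ := exists_isSub b ψb hbL
  set Tε : E d → E d := fun x => b (I x) with hTεdef
  set Sb : E d → E d := fun x => b (Ib x) with hSbdef
  -- interpolation
  have h1 : ∫ x in K, ‖Tε x - Ta x‖ ^ 2 ≤ C₂ * (L ^ 2 * h + (V * (C₀ * S)) / h ^ 2) := by
    refine (hint L (pot b ψ) (pot a ψa) Tε Ta
      (∫ y, (pot b ψ y - pot a ψa y) ∂(unif K)) hTε hTa h hh hh1).trans ?_
    rw [disc_integral] at hvar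
    have h2 : ∫ x in K, (pot b ψ x - pot a ψa x -
        ∫ y, (pot b ψ y - pot a ψa y) ∂(unif K)) ^ 2 ≤ V * (C₀ * S) := by
      rw [inv_mul_le_iff₀ hVpos] at hvar
      exact hvar
    gcongr
  -- gap for `ψ`
  have hbd : ∀ c : ι → ℝ, ∃ B, ∀ x ∈ K, |c (Ib x)| ≤ B := by
    intro c
    obtain ⟨M, hM⟩ := (Set.finite_range fun i => |c i|).bddAbove
    exact ⟨M, fun x _ => hM ⟨Ib x, rfl⟩⟩
  have h2 : ∫ x in K, ‖Sb x - Tε x‖ ≤ C₁ * (L * h' + V * (ε * W * M) / h') := by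
    refine (hgap L (pot b ψ) Tε Sb (fun x => ψ (Ib x)) hTε hSb.meas hSb.bdd
      (measurable_sel hIbm ψ) (hbd ψ) ?_ h' hh'pos hh'1).trans ?_
    · intro x _ x' _
      have := le_pot b ψ x' (Ib x)
      simp only [hSbdef]
      linarith
    · have e1 : ∫ x in K, (pot b ψ x + ψ (Ib x) - ⟪x, Sb x⟫) ≤ V * (ε * W * M) := by
        have e2 : ∫ x, (pot b ψ x + ψ (Ib x) - ⟪x, Sb x⟫) ∂(unif K) =
            ∫ x, (pot b ψ x - pot b ψb x) ∂(unif K) + ∑ i, (ψ i - ψb i) * p i := by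
          obtain ⟨i1, e3⟩ := disc_sel hac hinjb hIbm hIb (integrable_const (μ := unif K) (1:ℝ))
            (fun i => ψ i - ψb i)
          have e4 : ∑ i, (ψ i - ψb i) * p i = ∫ x, (ψ (Ib x) - ψb (Ib x)) * 1 ∂(unif K) := by
            rw [e3]
            refine Finset.sum_congr rfl fun i _ => ?_
            rw [← hb i]
            simp
          have i2 : Integrable (fun x => pot b ψ x - pot b ψb x) (unif K) :=
            (integrable_pot (R := R) (by filter_upwards [disc_mem hK] with x hx using hR x hx)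
              b ψ).sub
            (integrable_pot (R := R) (by filter_upwards [disc_mem hK] with x hx using hR x hx)
              b ψb)
          rw [e4, ← integral_add i2 i1]
          refine integral_congr_ae (Eventually.of_forall fun x => ?_)
          have := pot_eq_of_mem (hIb x)
          simp only [hSbdef]
          linarith
        rw [disc_integral] at e2
        have e5 : V⁻¹ * ∫ x in K, (pot b ψ x + ψ (Ib x) - ⟪x, Sb x⟫) ≤ ε * W * M := by
          rw [e2]; exact hgapb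
        rw [inv_mul_le_iff₀ hVpos] at e5
        exact e5
      gcongr
  -- gap for `ψb`
  have h3 : ∫ x in K, ‖Sb x - Tb x‖ ≤ C₁ * (L * h') := by
    refine (hgap L (pot b ψb) Tb Sb (fun x => ψb (Ib x)) hTb hSb.meas hSb.bdd
      (measurable_sel hIbm ψb) (hbd ψb) ?_ h' hh'pos hh'1).trans ?_
    · intro x _ x' _
      have := le_pot b ψb x' (Ib x)
      simp only [hSbdef]
      linarith
    · have e1 : ∫ x in K, (pot b ψb x + ψb (Ib x) - ⟪x, Sb x⟫) = 0 := by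
        have : (fun x => pot b ψb x + ψb (Ib x) - ⟪x, Sb x⟫) = fun _ => (0:ℝ) := by
          funext x
          have := pot_eq_of_mem (hIb x)
          simp only [hSbdef]
          linarith
        rw [this]; simp
      rw [e1]; simp
  -- combine
  have h4 := disc_combine hK hL hTa.meas hTb.meas hTε.meas hSb.meas hTa.bdd hTb.bdd hTε.bdd
    hSb.bdd
  exact disc_arith h4 h1 h2 h3 hL hh'pos hεh' hZ hZ0 (hε3) hδ

/-- (DISC) discrete stability -/
theorem disc_bound_of_tel {d : ℕ} {K : Set (E d)} (hK : IsCompact K) (hKc : Convex ℝ K)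
    (hKi : (interior K).Nonempty) {C₀ : ℝ} (hC₀ : 1 ≤ C₀) (hTEL : TelProp K C₀) (L : ℝ)
    (hL : 0 ≤ L) : ∃ C : ℝ, 0 ≤ C ∧ DiscProp K L C := by
  obtain ⟨C₁, hC₁, hgap⟩ := gap_lemma hK hKc hKi
  obtain ⟨C₂, hC₂, hint⟩ := interp_lemma hK hKc hKi
  obtain ⟨hV0, hV1⟩ := disc_vol hK hKi
  have hprob := disc_prob hK hKi
  set V : ℝ := volume.real K with hV
  have hVpos : 0 < V := ENNReal.toReal_pos hV0 hV1
  set C : ℝ := V⁻¹ * (2 * (C₂ * (L ^ 2 + V * C₀))) + 4 * L ^ 2 with hC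
  have hCpos : 0 ≤ C := by positivity
  refine ⟨C, hCpos, ?_⟩
  intro ι _ _ a b p ψa ψb hinj hp haL hbL ha hb Ta Tb hTa hTb
  set S : ℝ := ∑ i, p i * ‖a i - b i‖ ^ 2 with hS
  have hS0 : 0 ≤ S := Finset.sum_nonneg fun i _ => mul_nonneg (hp i) (sq_nonneg _)
  have hkey : ∀ h : ℝ, 0 < h → h ≤ 1 → ∫ x, ‖Ta x - Tb x‖ ^ 2 ∂(unif K) ≤
      V⁻¹ * (2 * (C₂ * (L ^ 2 * h + (V * (C₀ * S)) / h ^ 2))) := by
    intro h hh hh1
    rw [disc_integral]
    gcongr
    exact disc_key hK hKi hC₀ hTEL hL hC₁ hC₂ hgap hint hinj hp hbL ha hb hTa hTb hh hh1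
  rcases hS0.eq_or_lt with h0 | hpos
  · -- `S = 0`
    rw [← h0, Real.zero_rpow (by norm_num), mul_zero]
    apply le_of_forall_pos_le_add
    intro δ hδ
    set Q : ℝ := V⁻¹ * (2 * (C₂ * L ^ 2)) with hQ
    have hQ0 : 0 ≤ Q := by positivity
    set h : ℝ := min 1 (δ / (Q + 1)) with hh
    have hhpos : 0 < h := lt_min one_pos (by positivity)
    have := hkey h hhpos (min_le_left _ _)
    rw [← h0] at this
    calc ∫ x, ‖Ta x - Tb x‖ ^ 2 ∂(unif K) ≤
        V⁻¹ * (2 * (C₂ * (L ^ 2 * h + (V * (C₀ * 0)) / h ^ 2))) := this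
      _ = Q * h := by rw [hQ]; ring
      _ ≤ Q * (δ / (Q + 1)) := by gcongr; exact min_le_right _ _
      _ ≤ 0 + δ := by
        rw [mul_div_assoc', zero_add, div_le_iff₀ (by positivity)]
        nlinarith
  · rcases le_or_gt S 1 with hS1 | hS1
    · -- `0 < S ≤ 1`
      set h : ℝ := S ^ (1 / 3 : ℝ) with hh
      have hhpos : 0 < h := Real.rpow_pos_of_pos hpos _
      have hh1 : h ≤ 1 := Real.rpow_le_one hS0 hS1 (by norm_num)
      have hh3 : h ^ 3 = S := by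
        rw [hh, ← Real.rpow_natCast, ← Real.rpow_mul hS0]
        norm_num
      have := hkey h hhpos hh1
      have e1 : (V * (C₀ * S)) / h ^ 2 = V * C₀ * h := by
        rw [← hh3]; field_simp
      rw [e1] at this
      calc ∫ x, ‖Ta x - Tb x‖ ^ 2 ∂(unif K) ≤
          V⁻¹ * (2 * (C₂ * (L ^ 2 * h + V * C₀ * h))) := this
        _ = V⁻¹ * (2 * (C₂ * (L ^ 2 + V * C₀))) * h := by ring
        _ ≤ C * h := by
          gcongr
          rw [hC]
          have : 0 ≤ 4 * L ^ 2 := by positivity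
          linarith
    · -- `S > 1`
      have h1 : (1:ℝ) ≤ S ^ (1 / 3 : ℝ) := Real.one_le_rpow hS1.le (by norm_num)
      have h2 : ∫ x, ‖Ta x - Tb x‖ ^ 2 ∂(unif K) ≤ 4 * L ^ 2 := by
        have hb2 : ∀ x, ‖Ta x - Tb x‖ ^ 2 ≤ 4 * L ^ 2 := by
          intro x
          have := (norm_sub_le (Ta x) (Tb x)).trans (add_le_add (hTa.bdd x) (hTb.bdd x))
          calc ‖Ta x - Tb x‖ ^ 2 ≤ (L + L) ^ 2 := pow_le_pow_left₀ (norm_nonneg _) this 2
            _ = 4 * L ^ 2 := by ring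
        have := norm_integral_le_of_norm_le_const (μ := unif K)
          (f := fun x => ‖Ta x - Tb x‖ ^ 2) (C := 4 * L ^ 2)
          (Eventually.of_forall fun x => by
            rw [Real.norm_eq_abs, abs_of_nonneg (sq_nonneg _)]; exact hb2 x)
        simp only [probReal_univ, mul_one, Real.norm_eq_abs] at this
        exact (le_abs_self _).trans this
      have h3 : 4 * L ^ 2 ≤ C := by
        rw [hC]
        have : 0 ≤ V⁻¹ * (2 * (C₂ * (L ^ 2 + V * C₀))) := by positivity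
        linarith
      calc ∫ x, ‖Ta x - Tb x‖ ^ 2 ∂(unif K) ≤ C * 1 := by rw [mul_one]; exact h2.trans h3
        _ ≤ C * S ^ (1 / 3 : ℝ) := by gcongr

lemma TelProp.mono {d : ℕ} {K : Set (E d)} {C C' : ℝ} (h : TelProp K C) (hCC' : C ≤ C') :
    TelProp K C' := by
  intro ι _ _ a b p ψa ψb γ hinj hp hγ hγK ha hb l hl
  refine (h ι a b p ψa ψb γ hinj hp hγ hγK ha hb l hl).trans ?_
  have h0 : 0 ≤ ∫ x, γ x ^ 2 ∂(unif K) := integral_nonneg fun x => sq_nonneg _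
  gcongr

/-- (DISC) discrete stability, from the telescoping lemma for an arbitrary constant -/
theorem disc_bound_of_tel' {d : ℕ} {K : Set (E d)} (hK : IsCompact K) (hKc : Convex ℝ K)
    (hKi : (interior K).Nonempty) {C₀ : ℝ} (hTEL : TelProp K C₀) (L : ℝ)
    (hL : 0 ≤ L) : ∃ C : ℝ, 0 ≤ C ∧ DiscProp K L C :=
  disc_bound_of_tel hK hKc hKi (le_max_right C₀ 1) (hTEL.mono (le_max_left C₀ 1)) L hL

end Vale.Agent.P074
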