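import Mathlib
import Vale.Agent.P074.LagBasic

open MeasureTheory Set ProbabilityTheory Filter
open scoped unitInterval ENNReal NNReal Topology

namespace Vale.Agent.P074

lemma continuous_cdf_of_noAtoms (m : Measure ℝ) [IsProbabilityMeasure m] [NullSingletonClass m] :
    Continuous (cdf m) := by
  rw [continuous_iff_continuousAt]
  intro a
  rw [(monotone_cdf m).continuousAt_iff_leftLim_eq_rightLim, StieltjesFunction.rightLim_eq]
  have h1 : (cdf m).measure {a} = 0 := by
    rw [measure_cdf]; exact measure_singleton a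
  rw [StieltjesFunction.measure_singleton] at h1
  have h2 := (monotone_cdf m).leftLim_le (le_refl a)
  have h3 : cdf m a - Function.leftLim (cdf m) a ≤ 0 := ENNReal.ofReal_eq_zero.1 h1
  linarith

theorem exists_map_unif (m : Measure ℝ) [IsProbabilityMeasure m] [NullSingletonClass m] :
    ∃ g : ℝ → I, Measurable g ∧ m.map g = volume := by
  have hF := continuous_cdf_of_noAtoms m
  let g : ℝ → I := fun x => ⟨cdf m x, cdf_nonneg m x, cdf_le_one m x⟩
  have hg : Measurable g := (hF.subtype_mk _).measurable
  refine ⟨g, hg, ?_⟩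
  have : IsProbabilityMeasure (m.map g) := Measure.isProbabilityMeasure_map hg.aemeasurable
  refine Measure.ext_of_Iic _ _ fun t => ?_
  rw [Measure.map_apply hg measurableSet_Iic, unitInterval.volume_Iic]
  set A : Set ℝ := {x | cdf m x ≤ (t : ℝ)} with hA
  have hpre : g ⁻¹' Iic t = A := by
    ext x
    simp only [mem_preimage, mem_Iic, hA, mem_ofPred_eq]
    exact Iff.rfl
  rw [hpre]
  rcases A.eq_empty_or_nonempty with hE | hne
  · have ht : (t : ℝ) ≤ 0 := by
      refine ge_of_tendsto (tendsto_cdf_atBot m) (Eventually.of_forall fun x => ?_)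
      by_contra hx
      have : x ∈ A := le_of_lt (not_le.1 hx)
      rw [hE] at this
      exact this
    rw [hE, measure_empty, ENNReal.ofReal_eq_zero.2 ht]
  by_cases hb : BddAbove A
  · have hcl : IsClosed A := isClosed_le hF continuous_const
    have hs : sSup A ∈ A := hcl.csSup_mem hne hb
    have hAI : A = Iic (sSup A) := by
      ext x
      constructor
      · intro hx
        exact le_csSup hb hx
      · intro hx
        exact le_trans (monotone_cdf m hx) hs
    have hle : cdf m (sSup A) ≤ t := hs
    have hge : (t : ℝ) ≤ cdf m (sSup A) := by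
      refine ge_of_tendsto (b := (t : ℝ)) (f := cdf m) (x := 𝓝[>] (sSup A))
        (hF.continuousAt.tendsto.mono_left nhdsWithin_le_nhds) ?_
      filter_upwards [self_mem_nhdsWithin] with x hx
      by_contra hlt
      have : x ∈ A := le_of_lt (not_le.1 hlt)
      exact absurd (le_csSup hb this) (not_le.2 hx)
    rw [hAI, ← ofReal_cdf m, le_antisymm hle hge]
  · have huniv : A = univ := by
      ext x
      simp only [mem_univ, iff_true]
      obtain ⟨y, hy, hxy⟩ := not_bddAbove_iff.1 hb x
      exact le_trans (monotone_cdf m hxy.le) hy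
    have ht : (1 : ℝ) ≤ t := by
      refine le_of_tendsto (tendsto_cdf_atTop m) (Eventually.of_forall fun x => ?_)
      have : x ∈ A := by rw [huniv]; trivial
      exact this
    have ht1 : (t : ℝ) = 1 := le_antisymm t.2.2 ht
    rw [huniv, measure_univ, ht1, ENNReal.ofReal_one]

theorem exists_map_eq_of_ac {d : ℕ} (hd : 0 < d) (m μ : Measure (E d)) [IsFiniteMeasure m]
    [IsFiniteMeasure μ] (hac : m ≪ volume) (hmass : m univ = μ univ) :
    ∃ f : E d → E d, Measurable f ∧ m.map f = μ := by
  rcases eq_or_ne (m univ) 0 with h0 | h0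
  · have hm : m = 0 := Measure.measure_univ_eq_zero.1 h0
    have hμ : μ = 0 := Measure.measure_univ_eq_zero.1 (hmass ▸ h0)
    exact ⟨id, measurable_id, by simp [hm, hμ]⟩
  have ht : m univ ≠ ∞ := measure_ne_top _ _
  set v : E d := EuclideanSpace.single ⟨0, hd⟩ 1 with hv
  have hv0 : v ≠ 0 := by
    intro h
    have := congrArg (fun w : E d => w ⟨0, hd⟩) h
    simp [hv] at this
  set m' : Measure (E d) := (m univ)⁻¹ • m with hm'
  have : IsProbabilityMeasure m' := ⟨by
    rw [hm', Measure.smul_apply, smul_eq_mul, ENNReal.inv_mul_cancel h0 ht]⟩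
  have hfm : Measurable fun x : E d => (inner ℝ x v : ℝ) := by fun_prop
  set l : Measure ℝ := m'.map (fun x => inner ℝ x v) with hl
  have : IsProbabilityMeasure l := Measure.isProbabilityMeasure_map hfm.aemeasurable
  have : NullSingletonClass l := ⟨fun c => by
    rw [hl, Measure.map_apply hfm (measurableSet_singleton c), hm', Measure.smul_apply]
    have : m ((fun x : E d => (inner ℝ x v : ℝ)) ⁻¹' {c}) = 0 := hac (volume_hyperplane hv0 c)
    rw [this, smul_zero]⟩
  obtain ⟨g, hg, hgl⟩ := exists_map_unif l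
  set μ' : Measure (E d) := (μ univ)⁻¹ • μ with hμ'
  have : IsProbabilityMeasure μ' := ⟨by
    rw [hμ', Measure.smul_apply, smul_eq_mul, ENNReal.inv_mul_cancel (hmass ▸ h0) (hmass ▸ ht)]⟩
  obtain ⟨f, hf, hfμ⟩ := MeasureTheory.Measure.exists_measurable_map_eq μ'
  refine ⟨fun x => f (g (inner ℝ x v)), hf.comp (hg.comp hfm), ?_⟩
  have h1 : m'.map (fun x => f (g (inner ℝ x v))) = μ' := by
    rw [← hfμ, ← hgl, hl, Measure.map_map hg hfm, Measure.map_map hf (hg.comp hfm)]
    rfl
  have h2 : m = (m univ) • m' := by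
    rw [hm', smul_smul, ENNReal.mul_inv_cancel h0 ht, one_smul]
  have h3 : μ = (m univ) • μ' := by
    rw [hμ', smul_smul, hmass, ENNReal.mul_inv_cancel (hmass ▸ h0) (hmass ▸ ht), one_smul]
  rw [h2, Measure.map_smul, h1, ← h3]

end Vale.Agent.P074
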