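import Mathlib
import Vale.Agent.P074.LagBasic
import Vale.Agent.P074.Shift

open MeasureTheory Set Filter
open scoped RealInnerProductSpace ENNReal NNReal Topology

namespace Vale.Agent.P074

section GSel

variable {d : ℕ} {ι : Type*} {z : ι → E d} {ψ : ι → ℝ}

/-- a measurable selection of the maximising index -/
lemma g_exists_sel [Fintype ι] [Nonempty ι] (z : ι → E d) (ψ : ι → ℝ) :
    ∃ s : E d → ι, (∀ i, MeasurableSet (s ⁻¹' {i})) ∧ ∀ x, x ∈ Lag z ψ (s x) := by
  classical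
  obtain ⟨n, ⟨e⟩⟩ := Finite.exists_equiv_fin ι
  have hex : ∀ x : E d, ∃ k : ℕ, ∃ h : k < n, x ∈ Lag z ψ (e.symm ⟨k, h⟩) := by
    intro x
    obtain ⟨i, hi⟩ := exists_mem_Lag z ψ x
    exact ⟨e i, (e i).2, by simpa using hi⟩
  have hmeas : ∀ k : ℕ, MeasurableSet {x : E d | ∃ h : k < n, x ∈ Lag z ψ (e.symm ⟨k, h⟩)} := by
    intro k
    by_cases h : k < n
    · have : {x : E d | ∃ h : k < n, x ∈ Lag z ψ (e.symm ⟨k, h⟩)} = Lag z ψ (e.symm ⟨k, h⟩) := by
        ext x; simp [h]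
      rw [this]
      exact measurableSet_Lag _ _ _
    · have : {x : E d | ∃ h : k < n, x ∈ Lag z ψ (e.symm ⟨k, h⟩)} = ∅ := by
        ext x; simp [h]
      rw [this]
      exact MeasurableSet.empty
  have hN : Measurable fun x => Nat.find (hex x) := measurable_find hex hmeas
  refine ⟨fun x => e.symm ⟨Nat.find (hex x), (Nat.find_spec (hex x)).1⟩, fun i => ?_, fun x => ?_⟩
  · have : (fun x => e.symm ⟨Nat.find (hex x), (Nat.find_spec (hex x)).1⟩) ⁻¹' {i}
        = (fun x => Nat.find (hex x)) ⁻¹' {((e i : Fin n) : ℕ)} := by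
      ext x
      simp only [mem_preimage, mem_singleton_iff]
      rw [Equiv.symm_apply_eq, Fin.ext_iff]
    rw [this]
    exact hN (measurableSet_singleton _)
  · exact (Nat.find_spec (hex x)).2

lemma g_measurable_of_sel [Countable ι] {α : Type*} [MeasurableSpace α] {s : E d → ι}
    (hs : ∀ i, MeasurableSet (s ⁻¹' {i})) {f : ι → E d → α} (hf : ∀ i, Measurable (f i)) :
    Measurable fun x => f (s x) x := by
  intro B hB
  have : (fun x => f (s x) x) ⁻¹' B = ⋃ i, (s ⁻¹' {i} ∩ f i ⁻¹' B) := by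
    ext x; simp
  rw [this]
  exact MeasurableSet.iUnion fun i => (hs i).inter (hf i hB)

lemma g_isSub_of_sel [Fintype ι] [Nonempty ι] {s : E d → ι} (hs : ∀ i, MeasurableSet (s ⁻¹' {i}))
    (hsL : ∀ x, x ∈ Lag z ψ (s x)) {L : ℝ} (hL : ∀ i, ‖z i‖ ≤ L) :
    IsSub (pot z ψ) (fun x => z (s x)) L where
  sub x y := by
    rw [pot_eq_of_mem (hsL x)]
    have h := le_pot z ψ y (s x)
    rw [inner_sub_right, real_inner_comm y, real_inner_comm x]
    linarith
  bdd x := hL _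
  meas := g_measurable_of_sel (f := fun i _ => z i) hs fun i => measurable_const

lemma g_exists_isSub_pot [Fintype ι] [Nonempty ι] (z : ι → E d) (ψ : ι → ℝ) {L : ℝ}
    (hL : ∀ i, ‖z i‖ ≤ L) : ∃ U : E d → E d, IsSub (pot z ψ) U L := by
  obtain ⟨s, hs, hsL⟩ := g_exists_sel z ψ
  exact ⟨_, g_isSub_of_sel hs hsL hL⟩

end GSel

end Vale.Agent.P074
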