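import Mathlib
import Vale.Agent.P074.Lag
import Vale.Agent.P074.Shift
import Vale.Agent.P074.LagBasic
import Vale.Agent.P074.GSel
import Vale.Agent.P074.GAtomless
import Vale.Agent.P074.OptSuff

open MeasureTheory Set Filter
open scoped RealInnerProductSpace ENNReal NNReal Topology

namespace Vale.Agent.P074

/-- gluing transport maps along a measurable partition -/
theorem exists_glue {d : ℕ} (hd : 0 < d) {ρ : Measure (E d)} [IsFiniteMeasure ρ]
    (hac : ρ ≪ volume) {ι : Type*} [Fintype ι] {s : E d → ι}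
    (hs : ∀ i, MeasurableSet (s ⁻¹' {i})) (m : ι → Measure (E d)) [∀ i, IsFiniteMeasure (m i)]
    (hmass : ∀ i, ρ (s ⁻¹' {i}) = m i univ) {P : ι → E d → Prop}
    (hP : ∀ i, MeasurableSet {y | P i y}) (hsupp : ∀ i, ∀ᵐ y ∂(m i), P i y) :
    ∃ S : E d → E d, Measurable S ∧ ρ.map S = ∑ i, m i ∧ ∀ᵐ x ∂ρ, P (s x) (S x) := by
  have h1 : ∀ i, ∃ f : E d → E d, Measurable f ∧ (ρ.restrict (s ⁻¹' {i})).map f = m i := by
    intro i
    refine exists_map_eq_of_ac hd _ _ (Measure.restrict_le_self.absolutelyContinuous.trans hac) ?_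
    rw [Measure.restrict_apply_univ, hmass]
  choose f hf hfm using h1
  have hS : Measurable fun x => f (s x) x := g_measurable_of_sel hs hf
  have hpre : ∀ B : Set (E d), (fun x => f (s x) x) ⁻¹' B = ⋃ i, (f i ⁻¹' B ∩ s ⁻¹' {i}) := by
    intro B; ext x; simp
  refine ⟨fun x => f (s x) x, hS, ?_, ?_⟩
  · ext B hB
    rw [Measure.map_apply hS hB, hpre, measure_iUnion, Measure.finsetSum_apply, tsum_fintype]
    · refine Finset.sum_congr rfl fun i _ => ?_
      rw [← hfm i, Measure.map_apply (hf i) hB, Measure.restrict_apply (hf i hB)]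
    · intro i j hij
      refine Disjoint.mono inter_subset_right inter_subset_right ?_
      exact Disjoint.preimage _ (by simpa using hij)
    · intro i
      exact (hf i hB).inter (hs i)
  · have h2 : ∀ i, ρ (f i ⁻¹' {y | ¬ P i y} ∩ s ⁻¹' {i}) = 0 := by
      intro i
      have hm : MeasurableSet {y | ¬ P i y} := (hP i).compl
      rw [← Measure.restrict_apply (hf i hm), ← Measure.map_apply (hf i) hm, hfm i]
      exact hsupp i
    have h3 : ρ (⋃ i, (f i ⁻¹' {y | ¬ P i y} ∩ s ⁻¹' {i})) = 0 := measure_iUnion_null h2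
    rw [ae_iff]
    refine measure_mono_null ?_ h3
    intro x hx
    simp only [mem_iUnion, mem_inter_iff, mem_preimage, mem_singleton_iff]
    exact ⟨s x, hx, rfl⟩

/-- an upper bound for the (local) conjugate of `pot z ψ` -/
noncomputable def cc {d : ℕ} {ι : Type*} (z : ι → E d) (ψ : ι → ℝ) (B : ℝ) (y : E d) : ℝ :=
  ⨅ i, (ψ i + B * ‖y - z i‖)

section cc
variable {d : ℕ} {ι : Type*} [Fintype ι] {z : ι → E d} {ψ : ι → ℝ} {B : ℝ}

lemma cc_le (z : ι → E d) (ψ : ι → ℝ) (B : ℝ) (y : E d) (i : ι) :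
    cc z ψ B y ≤ ψ i + B * ‖y - z i‖ :=
  ciInf_le (f := fun i => ψ i + B * ‖y - z i‖) (Set.finite_range _).bddBelow i

lemma measurable_cc : Measurable (cc z ψ B) := by
  unfold cc
  exact Measurable.iInf fun i => by fun_prop

variable [Nonempty ι]

lemma fenchel_cc {x : E d} (hx : ‖x‖ ≤ B) (y : E d) : ⟪x, y⟫ ≤ pot z ψ x + cc z ψ B y := by
  have h : ⟪x, y⟫ - pot z ψ x ≤ cc z ψ B y := by
    refine le_ciInf fun i => ?_
    have h1 := le_pot z ψ x i
    have h2 : ⟪x, y⟫ = ⟪x, z i⟫ + ⟪x, y - z i⟫ := by rw [inner_sub_right]; ring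
    have h3 : ⟪x, y - z i⟫ ≤ B * ‖y - z i‖ :=
      (real_inner_le_norm _ _).trans (by gcongr)
    linarith
  linarith

lemma exists_abs_cc_le (z : ι → E d) (ψ : ι → ℝ) (hB : 0 ≤ B) (L : ℝ) :
    ∃ M, ∀ y : E d, ‖y‖ ≤ L → |cc z ψ B y| ≤ M := by
  obtain ⟨i, hi⟩ := Finite.exists_min ψ
  refine ⟨|ψ i| + (|ψ i| + B * (L + ‖z i‖)), fun y hy => ?_⟩
  have h1 : cc z ψ B y ≤ ψ i + B * ‖y - z i‖ := cc_le _ _ _ _ i
  have h2 : ψ i ≤ cc z ψ B y := le_ciInf fun j => by
    have := hi j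
    have : 0 ≤ B * ‖y - z j‖ := by positivity
    linarith
  have h3 : B * ‖y - z i‖ ≤ B * (L + ‖z i‖) := by
    gcongr
    exact (norm_sub_le _ _).trans (by linarith)
  have h4 := abs_nonneg (ψ i)
  have h5 := neg_abs_le (ψ i)
  have h6 := le_abs_self (ψ i)
  have h7 : 0 ≤ B * (L + ‖z i‖) := le_trans (by positivity) h3
  rw [abs_le]
  constructor <;> linarith

end cc

lemma exists_abs_pot_le {d : ℕ} {ι : Type*} [Fintype ι] [Nonempty ι] (z : ι → E d) (ψ : ι → ℝ)
    (R : ℝ) : ∃ M, ∀ x : E d, ‖x‖ ≤ R → |pot z ψ x| ≤ M := by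
  have h1 : ∀ i, ∃ M, ∀ x : E d, ‖x‖ ≤ R → |⟪x, z i⟫ - ψ i| ≤ M := by
    intro i
    refine ⟨R * ‖z i‖ + |ψ i|, fun x hx => (abs_sub _ _).trans ?_⟩
    gcongr
    exact (abs_real_inner_le_norm _ _).trans (by gcongr)
  choose M hM using h1
  refine ⟨∑ i, |M i|, fun x hx => ?_⟩
  obtain ⟨i, hi⟩ := exists_mem_Lag z ψ x
  rw [pot_eq_of_mem hi]
  refine (hM i x hx).trans ((le_abs_self _).trans ?_)
  exact Finset.single_le_sum (f := fun i => |M i|) (fun j _ => abs_nonneg _) (Finset.mem_univ i)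

/-- optimality in terms of the linear functional -/
lemma opt_le {d : ℕ} {ρ : Measure (E d)} [IsProbabilityMeasure ρ] {R L : ℝ}
    (hR : ∀ᵐ x ∂ρ, ‖x‖ ≤ R) {μ : Measure (E d)} (hμL : ∀ᵐ y ∂μ, ‖y‖ ≤ L)
    {T : E d → E d} (hT : IsOptimalMap ρ μ T) {S : E d → E d} (hS : Measurable S)
    (hSμ : ρ.map S = μ) {f g : E d → ℝ} (hf : Integrable f ρ) (hg : Integrable g μ) :
    ∫ x, (f x + g (T x) - ⟪x, T x⟫) ∂ρ ≤ ∫ x, (f x + g (S x) - ⟪x, S x⟫) ∂ρ := by
  obtain ⟨hTm, hTμ, hTopt⟩ := hT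
  have hopt := hTopt S hS hSμ
  have hbd : ∀ U : E d → E d, Measurable U → ρ.map U = μ → ∀ᵐ x ∂ρ, ‖U x‖ ≤ L := by
    intro U hU hUμ
    rw [← hUμ] at hμL
    exact ae_of_ae_map hU.aemeasurable hμL
  have hid : AEStronglyMeasurable (fun x : E d => x) ρ := measurable_id.aestronglyMeasurable
  have key : ∀ U : E d → E d, Measurable U → ρ.map U = μ →
      (Integrable (fun x => g (U x)) ρ ∧ Integrable (fun x => ⟪x, U x⟫) ρ ∧
        ∫ x, g (U x) ∂ρ = ∫ y, g y ∂μ ∧
        ∫ x, ‖x - U x‖ ^ 2 ∂ρ = ∫ x, ‖x‖ ^ 2 ∂ρ - 2 * ∫ x, ⟪x, U x⟫ ∂ρ + ∫ y, ‖y‖ ^ 2 ∂μ) := by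
    intro U hU hUμ
    have hUb := hbd U hU hUμ
    have h1 : Integrable (fun x => g (U x)) ρ := by
      rw [← hUμ] at hg
      exact hg.comp_measurable hU
    have h2 : Integrable (fun x => ⟪x, U x⟫) ρ := by
      refine Integrable.of_bound (C := R * L) ?_ ?_
      · exact (Measurable.inner measurable_id hU).aestronglyMeasurable
      · filter_upwards [hR, hUb] with x hx hx'
        rw [Real.norm_eq_abs]
        refine (abs_real_inner_le_norm _ _).trans ?_
        exact mul_le_mul hx hx' (norm_nonneg _) ((norm_nonneg _).trans hx)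
    have h3 : Integrable (fun x : E d => ‖x‖ ^ 2) ρ := by
      refine Integrable.of_bound (C := R ^ 2) (by fun_prop) ?_
      filter_upwards [hR] with x hx
      rw [Real.norm_eq_abs, abs_of_nonneg (by positivity)]
      gcongr
    have h4 : Integrable (fun x : E d => ‖U x‖ ^ 2) ρ := by
      refine Integrable.of_bound (C := L ^ 2) (by fun_prop) ?_
      filter_upwards [hUb] with x hx
      rw [Real.norm_eq_abs, abs_of_nonneg (by positivity)]
      gcongr
    refine ⟨h1, h2, ?_, ?_⟩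
    · rw [← hUμ, integral_map hU.aemeasurable]
      rw [hUμ]; exact hg.aestronglyMeasurable
    · have h5 : ∫ y, ‖y‖ ^ 2 ∂μ = ∫ x, ‖U x‖ ^ 2 ∂ρ := by
        rw [← hUμ, integral_map hU.aemeasurable]
        fun_prop
      have h6 : ∀ x, ‖x - U x‖ ^ 2 = ‖x‖ ^ 2 - 2 * ⟪x, U x⟫ + ‖U x‖ ^ 2 := fun x => by
        rw [norm_sub_sq_real]
      simp_rw [h6]
      have h7 : Integrable (fun x => ‖x‖ ^ 2 - 2 * ⟪x, U x⟫) ρ := h3.sub (h2.const_mul 2)
      rw [integral_add h7 h4, integral_sub h3 (h2.const_mul 2), integral_const_mul, h5]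
  obtain ⟨a1, a2, a3, a4⟩ := key T hTm hTμ
  obtain ⟨b1, b2, b3, b4⟩ := key S hS hSμ
  rw [a4, b4] at hopt
  have a5 : Integrable (fun x => f x + g (T x)) ρ := hf.add a1
  have b5 : Integrable (fun x => f x + g (S x)) ρ := hf.add b1
  rw [integral_sub a5 a2, integral_sub b5 b2, integral_add hf a1,
    integral_add hf b1, a3, b3]
  linarith

/-- the Monge-optimal map has a small Fenchel gap relative to the semidiscrete potential of a
nearby discrete measure -/
theorem monge_gap {d : ℕ} (hd : 0 < d) {ρ : Measure (E d)} [IsProbabilityMeasure ρ]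
    (hac : ρ ≪ volume) {R L : ℝ} (hR : ∀ᵐ x ∂ρ, ‖x‖ ≤ R)
    {μ : Measure (E d)} (hμL : ∀ᵐ y ∂μ, ‖y‖ ≤ L)
    {T : E d → E d} (hT : IsOptimalMap ρ μ T)
    {ι : Type*} [Fintype ι] [Nonempty ι] (z : ι → E d) (ψ : ι → ℝ) (m : ι → Measure (E d))
    [∀ i, IsFiniteMeasure (m i)] (hm : μ = ∑ i, m i) {δ : ℝ}
    (hsupp : ∀ i, ∀ᵐ y ∂(m i), ‖y - z i‖ ≤ δ) (hmass : ∀ i, ρ (Lag z ψ i) = m i univ)
    {B : ℝ} (hB : 0 ≤ B) :
    ∫ x, (pot z ψ x + cc z ψ B (T x) - ⟪x, T x⟫) ∂ρ ≤ (B + R) * δ := by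
  obtain ⟨s, hs, hsL⟩ := g_exists_sel z ψ
  have hμ1 : μ univ = 1 := by
    rw [← hT.2.1, Measure.map_apply hT.1 MeasurableSet.univ, preimage_univ, measure_univ]
  have hμprob : IsProbabilityMeasure μ := ⟨hμ1⟩
  have hsum1 : ∑ i, ρ.real (Lag z ψ i) = 1 := by
    have h1 : ∑ i, m i univ = 1 := by
      rw [← hμ1, hm, Measure.finsetSum_apply]
    simp_rw [measureReal_def, hmass]
    rw [← ENNReal.toReal_sum (fun i _ => measure_ne_top _ _), h1, ENNReal.toReal_one]
  have hsum2 : ∑ i, ρ.real (s ⁻¹' {i}) = 1 := by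
    have h1 : ρ (⋃ i, s ⁻¹' {i}) = ∑' i, ρ (s ⁻¹' {i}) := by
      refine measure_iUnion ?_ hs
      intro i j hij
      exact Disjoint.preimage _ (by simpa using hij)
    have h2 : (⋃ i, s ⁻¹' {i}) = univ := by ext x; simp
    rw [h2, measure_univ, tsum_fintype] at h1
    simp_rw [measureReal_def]
    rw [← ENNReal.toReal_sum (fun i _ => measure_ne_top _ _), ← h1, ENNReal.toReal_one]
  have hle : ∀ i, ρ.real (s ⁻¹' {i}) ≤ ρ.real (Lag z ψ i) := by
    intro i
    refine measureReal_mono ?_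
    intro x hx
    have : s x = i := hx
    rw [← this]
    exact hsL x
  have heq : ∀ i, ρ.real (s ⁻¹' {i}) = ρ.real (Lag z ψ i) := by
    have h1 := (Finset.sum_eq_sum_iff_of_le (s := Finset.univ) (fun i _ => hle i)).1
      (hsum2.trans hsum1.symm)
    intro i
    exact h1 i (Finset.mem_univ i)
  have hmass' : ∀ i, ρ (s ⁻¹' {i}) = m i univ := by
    intro i
    rw [← hmass i]
    exact (ENNReal.toReal_eq_toReal_iff' (measure_ne_top _ _) (measure_ne_top _ _)).1 (heq i)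
  obtain ⟨S, hS, hSm, hSδ⟩ := exists_glue hd hac hs m hmass' (P := fun i y => ‖y - z i‖ ≤ δ)
    (fun i => measurableSet_le (by fun_prop) measurable_const) hsupp
  obtain ⟨M1, hM1⟩ := exists_abs_pot_le z ψ R
  obtain ⟨M2, hM2⟩ := exists_abs_cc_le z ψ hB L
  have hf : Integrable (pot z ψ) ρ := by
    refine Integrable.of_bound (C := M1) (measurable_pot z ψ).aestronglyMeasurable ?_
    filter_upwards [hR] with x hx
    exact hM1 x hx
  have hg : Integrable (cc z ψ B) μ := by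
    refine Integrable.of_bound (C := M2) measurable_cc.aestronglyMeasurable ?_
    filter_upwards [hμL] with x hx
    exact hM2 x hx
  have h1 := opt_le hR hμL hT hS (hSm.trans hm.symm) hf hg
  refine h1.trans ?_
  have h2 : ∫ x, ((B + R) * δ) ∂ρ = (B + R) * δ := by simp
  rw [← h2]
  have hgS : Integrable (fun x => cc z ψ B (S x)) ρ := by
    have : ρ.map S = μ := hSm.trans hm.symm
    rw [← this] at hg
    exact hg.comp_measurable hS
  have hSL : ∀ᵐ x ∂ρ, ‖S x‖ ≤ L := by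
    have : ρ.map S = μ := hSm.trans hm.symm
    rw [← this] at hμL
    exact ae_of_ae_map hS.aemeasurable hμL
  have hin : Integrable (fun x => ⟪x, S x⟫) ρ := by
    refine Integrable.of_bound (C := R * L) ?_ ?_
    · exact (Measurable.inner measurable_id hS).aestronglyMeasurable
    · filter_upwards [hR, hSL] with x hx hx'
      rw [Real.norm_eq_abs]
      refine (abs_real_inner_le_norm _ _).trans ?_
      exact mul_le_mul hx hx' (norm_nonneg _) ((norm_nonneg _).trans hx)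
  refine integral_mono_ae ((hf.add hgS).sub hin) (integrable_const _) ?_
  filter_upwards [hR, hSδ] with x hx hxδ
  have e1 := cc_le z ψ B (S x) (s x)
  have e2 : B * ‖S x - z (s x)‖ ≤ B * δ := by gcongr
  have e3 := pot_eq_of_mem (hsL x)
  have e4 : ⟪x, z (s x)⟫ = ⟪x, S x⟫ - ⟪x, S x - z (s x)⟫ := by rw [inner_sub_right]; ring
  have e5 : - (R * δ) ≤ ⟪x, S x - z (s x)⟫ := by
    have h5 : |⟪x, S x - z (s x)⟫| ≤ R * δ := by
      refine (abs_real_inner_le_norm _ _).trans ?_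
      exact mul_le_mul hx hxδ (norm_nonneg _) ((norm_nonneg _).trans hx)
    exact (abs_le.1 h5).1
  linarith

end Vale.Agent.P074
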