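import Mathlib
import Vale.Agent.P074.Lag
import Vale.Agent.P074.GSel

open MeasureTheory Set Filter
open scoped RealInnerProductSpace ENNReal NNReal Topology

namespace Vale.Agent.P074

lemma g_exists_generic {d : ℕ} (hd : 0 < d) {ι : Type*} [Fintype ι] (a b : ι → E d) {ε : ℝ}
    (hε : 0 < ε) : ∃ z z' : ι → E d,
      (∀ t : ℚ, Function.Injective fun i => z i + (t : ℝ) • (z' i - z i)) ∧
      (∀ i, ‖z i - a i‖ ≤ ε) ∧ (∀ i, ‖z' i - b i‖ ≤ ε) := by
  classical
  set e : E d := EuclideanSpace.single ⟨0, hd⟩ 1 with he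
  have hen : ‖e‖ = 1 := by simp [he]
  have he0 : e ≠ 0 := by
    intro h
    rw [h, norm_zero] at hen
    exact zero_ne_one hen
  obtain ⟨n, ⟨f⟩⟩ := Finite.exists_equiv_fin ι
  let k : ι → ℝ := fun i => ((f i : Fin n) : ℕ)
  have hk : Function.Injective k := by
    intro i j hij
    have h0 : (((f i : Fin n) : ℕ) : ℝ) = (((f j : Fin n) : ℕ) : ℝ) := hij
    have h1 : ((f i : Fin n) : ℕ) = ((f j : Fin n) : ℕ) := by exact_mod_cast h0
    exact f.injective (Fin.ext h1)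
  have hk0 : ∀ i, 0 ≤ k i := fun i => Nat.cast_nonneg _
  have hkn : ∀ i, k i ≤ n := fun i => by
    have h0 : (((f i : Fin n) : ℕ) : ℝ) ≤ n := by exact_mod_cast (f i).2.le
    exact h0
  let bad : ℚ → ι → ι → Set ℝ := fun t i j =>
    {τ | i ≠ j ∧ (a i + τ • k i • e) + (t : ℝ) • (b i - a i)
      = (a j + τ • k j • e) + (t : ℝ) • (b j - a j)}
  have hbad : ∀ t i j, (bad t i j).Countable := by
    intro t i j
    refine Set.Subsingleton.countable ?_
    rintro τ ⟨hij, h1⟩ σ ⟨-, h2⟩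
    have h3 : (τ - σ) • (k i - k j) • e = 0 := by
      have h4 : (τ - σ) • (k i - k j) • e
          = (((a i + τ • k i • e) + (t : ℝ) • (b i - a i))
              - ((a j + τ • k j • e) + (t : ℝ) • (b j - a j)))
            - (((a i + σ • k i • e) + (t : ℝ) • (b i - a i))
              - ((a j + σ • k j • e) + (t : ℝ) • (b j - a j))) := by
        module
      rw [h4, h1, h2, sub_self, sub_self, sub_self]
    rcases smul_eq_zero.1 h3 with h | h
    · exact sub_eq_zero.1 h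
    · rcases smul_eq_zero.1 h with h | h
      · exact absurd (hk (sub_eq_zero.1 h)) hij
      · exact absurd h he0
  have hcount : (⋃ t : ℚ, ⋃ i, ⋃ j, bad t i j).Countable :=
    Set.countable_iUnion fun t => Set.countable_iUnion fun i => Set.countable_iUnion fun j =>
      hbad t i j
  have hpos : 0 < ε / (n + 1) := by positivity
  obtain ⟨τ, hτ, hτI⟩ := (hcount.dense_compl ℝ).exists_mem_open isOpen_Ioo
    (nonempty_Ioo.2 hpos)
  have hτn : ∀ i, ‖τ • k i • e‖ ≤ ε := by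
    intro i
    rw [norm_smul, norm_smul, hen, mul_one, Real.norm_eq_abs, Real.norm_eq_abs,
      abs_of_pos hτI.1, abs_of_nonneg (hk0 i)]
    have h1 : τ * k i ≤ ε / (n + 1) * n := by
      refine mul_le_mul hτI.2.le (hkn i) (hk0 i) hpos.le
    have h2 : ε / (n + 1) * n ≤ ε := by
      rw [div_mul_eq_mul_div, div_le_iff₀ (by positivity)]
      nlinarith
    exact h1.trans h2
  refine ⟨fun i => a i + τ • k i • e, fun i => b i + τ • k i • e, fun t i j hij => ?_,
    fun i => ?_, fun i => ?_⟩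
  · by_contra hne
    apply hτ
    simp only [mem_iUnion]
    refine ⟨t, i, j, hne, ?_⟩
    have hij' : (a i + τ • k i • e) + (t : ℝ) • ((b i + τ • k i • e) - (a i + τ • k i • e))
        = (a j + τ • k j • e) + (t : ℝ) • ((b j + τ • k j • e) - (a j + τ • k j • e)) := hij
    have e1 : (b i + τ • k i • e) - (a i + τ • k i • e) = b i - a i := by abel
    have e2 : (b j + τ • k j • e) - (a j + τ • k j • e) = b j - a j := by abel
    rwa [e1, e2] at hij'
  · rw [add_sub_cancel_left]; exact hτn i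
  · rw [add_sub_cancel_left]; exact hτn i

/-- nearest point selection -/
lemma g_exists_nearest {d : ℕ} {ι : Type*} [Fintype ι] [Nonempty ι] (c : ι → E d) :
    ∃ s : E d → ι, (∀ i, MeasurableSet (s ⁻¹' {i})) ∧ ∀ x i, ‖x - c (s x)‖ ≤ ‖x - c i‖ := by
  obtain ⟨s, hs, hsL⟩ := g_exists_sel c (fun i => ‖c i‖ ^ 2 / 2)
  refine ⟨s, hs, fun x i => ?_⟩
  have h1 : ⟪x, c i⟫ - ‖c i‖ ^ 2 / 2 ≤ ⟪x, c (s x)⟫ - ‖c (s x)‖ ^ 2 / 2 := hsL x i
  have h2 := norm_sub_sq_real x (c i)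
  have h3 := norm_sub_sq_real x (c (s x))
  have h4 : ‖x - c (s x)‖ ^ 2 ≤ ‖x - c i‖ ^ 2 := by linarith
  exact (sq_le_sq₀ (norm_nonneg _) (norm_nonneg _)).1 h4

lemma sum_restrict_fibres {Ω κ : Type*} [MeasurableSpace Ω] [Fintype κ] (γ : Measure Ω)
    {s : Ω → κ} (hs : ∀ k, MeasurableSet (s ⁻¹' {k})) :
    ∑ i : {k // γ (s ⁻¹' {k}) ≠ 0}, γ.restrict (s ⁻¹' {i.1}) = γ := by
  classical
  ext A hA
  rw [Measure.finsetSum_apply]
  have h1 : ∑ i : {k // γ (s ⁻¹' {k}) ≠ 0}, (γ.restrict (s ⁻¹' {i.1})) A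
      = ∑ k ∈ Finset.univ.filter (fun k => γ (s ⁻¹' {k}) ≠ 0), (γ.restrict (s ⁻¹' {k})) A := by
    rw [← Finset.sum_subtype_eq_sum_filter]
    refine Finset.sum_congr ?_ fun _ _ => rfl
    ext; simp
  rw [h1, Finset.sum_filter_of_ne]
  · have h2 : γ A = γ (⋃ k, (A ∩ s ⁻¹' {k})) := by
      congr 1; ext x; simp
    rw [h2, measure_iUnion, tsum_fintype]
    · refine Finset.sum_congr rfl fun k _ => ?_
      rw [Measure.restrict_apply hA]
    · intro i j hij
      refine Disjoint.mono inter_subset_right inter_subset_right ?_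
      exact Disjoint.preimage _ (by simpa using hij)
    · exact fun k => hA.inter (hs k)
  · intro k _ hk h0
    apply hk
    rw [Measure.restrict_apply hA]
    exact measure_mono_null inter_subset_right h0

theorem g_exists_disc {d : ℕ} (hd : 0 < d) {Y : Set (E d)} (hY : IsCompact Y) {L : ℝ}
    (hL : ∀ y ∈ Y, ‖y‖ ≤ L) {γ : Measure (E d × E d)} [IsProbabilityMeasure γ]
    (hγ1 : ∀ᵐ p ∂γ, p.1 ∈ Y) (hγ2 : ∀ᵐ p ∂γ, p.2 ∈ Y) {δ : ℝ} (hδ : 0 < δ) :
    ∃ (ι : Type) (_ : Fintype ι) (_ : Nonempty ι) (p : ι → ℝ) (z z' : ι → E d)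
      (m m' : ι → Measure (E d)),
      (∀ i, 0 < p i) ∧ ∑ i, p i = 1 ∧
      (∀ t : ℚ, Function.Injective fun i => z i + (t : ℝ) • (z' i - z i)) ∧
      (∀ i, ‖z i‖ ≤ L + δ) ∧ (∀ i, ‖z' i‖ ≤ L + δ) ∧
      γ.map Prod.fst = ∑ i, m i ∧ γ.map Prod.snd = ∑ i, m' i ∧
      (∀ i, m i univ = ENNReal.ofReal (p i)) ∧ (∀ i, m' i univ = ENNReal.ofReal (p i)) ∧
      (∀ i, ∀ᵐ y ∂(m i), ‖y - z i‖ ≤ δ) ∧ (∀ i, ∀ᵐ y ∂(m' i), ‖y - z' i‖ ≤ δ) ∧
      ∑ i, p i * ‖z i - z' i‖ ^ 2 ≤ (∫ q, ‖q.1 - q.2‖ ^ 2 ∂γ) + (8 * L * δ + 4 * δ ^ 2) := by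
  classical
  -- a finite net
  obtain ⟨t, htY, htfin, hcov⟩ := hY.finite_cover_balls (half_pos hδ)
  have hYne : Y.Nonempty := by
    by_contra h
    rw [not_nonempty_iff_eq_empty] at h
    have h0 : γ univ = 0 := by
      have : ∀ᵐ p ∂γ, False := by
        filter_upwards [hγ1] with p hp
        rw [h] at hp
        exact hp
      simp [ae_iff] at this
    rw [measure_univ] at h0
    exact one_ne_zero h0
  have htne : t.Nonempty := by
    obtain ⟨y, hy⟩ := hYne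
    obtain ⟨x, hx, -⟩ := mem_iUnion₂.1 (hcov hy)
    exact ⟨x, hx⟩
  have : Finite t := htfin
  have := Fintype.ofFinite t
  have : Nonempty t := htne.to_subtype
  obtain ⟨s, hs, hnear⟩ := g_exists_nearest (fun i : t => (i : E d))
  have hsY : ∀ y ∈ Y, ‖y - (s y : E d)‖ ≤ δ / 2 := by
    intro y hy
    obtain ⟨x, hx, hyx⟩ := mem_iUnion₂.1 (hcov hy)
    rw [mem_ball_iff_norm] at hyx
    exact (hnear y ⟨x, hx⟩).trans hyx.le
  set S : E d × E d → t × t := fun p => (s p.1, s p.2) with hS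
  have hSm : ∀ k, MeasurableSet (S ⁻¹' {k}) := by
    intro k
    have : S ⁻¹' {k} = (Prod.fst ⁻¹' (s ⁻¹' {k.1})) ∩ (Prod.snd ⁻¹' (s ⁻¹' {k.2})) := by
      ext p
      simp [hS, Prod.ext_iff]
    rw [this]
    exact (measurable_fst (hs _)).inter (measurable_snd (hs _))
  let ι : Type := {k : t × t // γ (S ⁻¹' {k}) ≠ 0}
  have hsum : ∑ i : ι, γ.restrict (S ⁻¹' {i.1}) = γ := sum_restrict_fibres γ hSm
  have hι : Nonempty ι := by
    by_contra h
    rw [not_nonempty_iff] at h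
    have : γ = 0 := by
      rw [← hsum]
      simp
    exact (IsProbabilityMeasure.ne_zero γ) this
  obtain ⟨z, z', hz, hzc, hzc'⟩ := g_exists_generic hd (fun i : ι => (i.1.1 : E d))
    (fun i : ι => (i.1.2 : E d)) (half_pos hδ)
  have hcell1 : ∀ i : ι, ∀ᵐ q ∂(γ.restrict (S ⁻¹' {i.1})), ‖q.1 - z i‖ ≤ δ := by
    intro i
    filter_upwards [ae_restrict_of_ae hγ1, ae_restrict_mem (hSm i.1)] with q hq hqS
    have h1 : s q.1 = i.1.1 := by
      have : S q = i.1 := hqS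
      rw [← this]
    have h2 := hsY _ hq
    rw [h1] at h2
    have h3 := hzc i
    rw [norm_sub_rev] at h3
    calc ‖q.1 - z i‖ = ‖(q.1 - (i.1.1 : E d)) + ((i.1.1 : E d) - z i)‖ := by congr 1; abel
      _ ≤ ‖q.1 - (i.1.1 : E d)‖ + ‖(i.1.1 : E d) - z i‖ := norm_add_le _ _
      _ ≤ δ := by linarith
  have hcell2 : ∀ i : ι, ∀ᵐ q ∂(γ.restrict (S ⁻¹' {i.1})), ‖q.2 - z' i‖ ≤ δ := by
    intro i
    filter_upwards [ae_restrict_of_ae hγ2, ae_restrict_mem (hSm i.1)] with q hq hqS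
    have h1 : s q.2 = i.1.2 := by
      have : S q = i.1 := hqS
      rw [← this]
    have h2 := hsY _ hq
    rw [h1] at h2
    have h3 := hzc' i
    rw [norm_sub_rev] at h3
    calc ‖q.2 - z' i‖ = ‖(q.2 - (i.1.2 : E d)) + ((i.1.2 : E d) - z' i)‖ := by congr 1; abel
      _ ≤ ‖q.2 - (i.1.2 : E d)‖ + ‖(i.1.2 : E d) - z' i‖ := norm_add_le _ _
      _ ≤ δ := by linarith
  have hzL : ∀ i : ι, ‖z i‖ ≤ L + δ := by
    intro i
    have h1 := hL _ (htY i.1.1.2)
    calc ‖z i‖ = ‖(z i - (i.1.1 : E d)) + (i.1.1 : E d)‖ := by congr 1; abel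
      _ ≤ ‖z i - (i.1.1 : E d)‖ + ‖(i.1.1 : E d)‖ := norm_add_le _ _
      _ ≤ L + δ := by have := hzc i; linarith
  have hzL' : ∀ i : ι, ‖z' i‖ ≤ L + δ := by
    intro i
    have h1 := hL _ (htY i.1.2.2)
    calc ‖z' i‖ = ‖(z' i - (i.1.2 : E d)) + (i.1.2 : E d)‖ := by congr 1; abel
      _ ≤ ‖z' i - (i.1.2 : E d)‖ + ‖(i.1.2 : E d)‖ := norm_add_le _ _
      _ ≤ L + δ := by have := hzc' i; linarith
  refine ⟨ι, inferInstance, hι, fun i => γ.real (S ⁻¹' {i.1}), z, z',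
    fun i => (γ.restrict (S ⁻¹' {i.1})).map Prod.fst,
    fun i => (γ.restrict (S ⁻¹' {i.1})).map Prod.snd, ?_, ?_, hz, hzL, hzL', ?_, ?_, ?_, ?_,
    ?_, ?_, ?_⟩
  · intro i
    exact ENNReal.toReal_pos i.2 (measure_ne_top _ _)
  · have h1 : (∑ i : ι, γ.restrict (S ⁻¹' {i.1})) univ = 1 := by rw [hsum, measure_univ]
    rw [Measure.finsetSum_apply] at h1
    simp_rw [measureReal_def]
    rw [← ENNReal.toReal_sum (fun i _ => measure_ne_top _ _)]
    simp_rw [Measure.restrict_apply_univ] at h1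
    rw [h1, ENNReal.toReal_one]
  · conv_lhs => rw [← hsum]
    ext A hA
    rw [Measure.map_apply measurable_fst hA, Measure.finsetSum_apply, Measure.finsetSum_apply]
    refine Finset.sum_congr rfl fun i _ => ?_
    rw [Measure.map_apply measurable_fst hA]
  · conv_lhs => rw [← hsum]
    ext A hA
    rw [Measure.map_apply measurable_snd hA, Measure.finsetSum_apply, Measure.finsetSum_apply]
    refine Finset.sum_congr rfl fun i _ => ?_
    rw [Measure.map_apply measurable_snd hA]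
  · intro i
    rw [Measure.map_apply measurable_fst MeasurableSet.univ, preimage_univ,
      Measure.restrict_apply_univ, ofReal_measureReal]
  · intro i
    rw [Measure.map_apply measurable_snd MeasurableSet.univ, preimage_univ,
      Measure.restrict_apply_univ, ofReal_measureReal]
  · intro i
    rw [ae_map_iff measurable_fst.aemeasurable (measurableSet_le (by fun_prop) measurable_const)]
    exact hcell1 i
  · intro i
    rw [ae_map_iff measurable_snd.aemeasurable (measurableSet_le (by fun_prop) measurable_const)]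
    exact hcell2 i
  · have hint : Integrable (fun q : E d × E d => ‖q.1 - q.2‖ ^ 2) γ := by
      refine Integrable.of_bound (C := (2 * L) ^ 2) (by fun_prop) ?_
      filter_upwards [hγ1, hγ2] with q h1 h2
      rw [Real.norm_eq_abs, abs_of_nonneg (by positivity)]
      gcongr
      refine (norm_sub_le _ _).trans ?_
      have := hL _ h1
      have := hL _ h2
      linarith
    have hsplit : ∫ q, ‖q.1 - q.2‖ ^ 2 ∂γ
        = ∑ i : ι, ∫ q in S ⁻¹' {i.1}, ‖q.1 - q.2‖ ^ 2 ∂γ := by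
      conv_lhs => rw [← hsum]
      rw [integral_finsetSum_measure]
      intro i _
      exact hint.restrict
    have hp1 : ∑ i : ι, γ.real (S ⁻¹' {i.1}) = 1 := by
      have h1 : (∑ i : ι, γ.restrict (S ⁻¹' {i.1})) univ = 1 := by rw [hsum, measure_univ]
      rw [Measure.finsetSum_apply] at h1
      simp_rw [measureReal_def]
      rw [← ENNReal.toReal_sum (fun i _ => measure_ne_top _ _)]
      simp_rw [Measure.restrict_apply_univ] at h1
      rw [h1, ENNReal.toReal_one]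
    have hterm : ∀ i : ι, γ.real (S ⁻¹' {i.1}) * ‖z i - z' i‖ ^ 2
        ≤ (∫ q in S ⁻¹' {i.1}, ‖q.1 - q.2‖ ^ 2 ∂γ)
          + γ.real (S ⁻¹' {i.1}) * (8 * L * δ + 4 * δ ^ 2) := by
      intro i
      have h1 : ∫ q in S ⁻¹' {i.1}, ‖z i - z' i‖ ^ 2 ∂γ
          ≤ ∫ q in S ⁻¹' {i.1}, (‖q.1 - q.2‖ ^ 2 + (8 * L * δ + 4 * δ ^ 2)) ∂γ := by
        refine integral_mono_ae (integrable_const _) (hint.restrict.add (integrable_const _)) ?_
        filter_upwards [hcell1 i, hcell2 i, ae_restrict_of_ae hγ1, ae_restrict_of_ae hγ2]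
          with q h1 h2 h3 h4
        have h5 : ‖z i - z' i‖ ≤ ‖q.1 - q.2‖ + 2 * δ := by
          calc ‖z i - z' i‖ = ‖(z i - q.1) + (q.1 - q.2) + (q.2 - z' i)‖ := by congr 1; abel
            _ ≤ ‖(z i - q.1) + (q.1 - q.2)‖ + ‖q.2 - z' i‖ := norm_add_le _ _
            _ ≤ ‖z i - q.1‖ + ‖q.1 - q.2‖ + ‖q.2 - z' i‖ := by gcongr; exact norm_add_le _ _
            _ ≤ ‖q.1 - q.2‖ + 2 * δ := by rw [norm_sub_rev (z i)]; linarith
        have h6 : ‖q.1 - q.2‖ ≤ 2 * L := by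
          refine (norm_sub_le _ _).trans ?_
          have := hL _ h3
          have := hL _ h4
          linarith
        have h7 := norm_nonneg (q.1 - q.2)
        have h8 := norm_nonneg (z i - z' i)
        show ‖z i - z' i‖ ^ 2 ≤ ‖q.1 - q.2‖ ^ 2 + (8 * L * δ + 4 * δ ^ 2)
        nlinarith [mul_le_mul_of_nonneg_right h6 hδ.le]
      rw [setIntegral_const, smul_eq_mul, integral_add hint.restrict (integrable_const _),
        setIntegral_const, smul_eq_mul] at h1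
      exact h1
    calc ∑ i : ι, γ.real (S ⁻¹' {i.1}) * ‖z i - z' i‖ ^ 2
        ≤ ∑ i : ι, ((∫ q in S ⁻¹' {i.1}, ‖q.1 - q.2‖ ^ 2 ∂γ)
          + γ.real (S ⁻¹' {i.1}) * (8 * L * δ + 4 * δ ^ 2)) := Finset.sum_le_sum fun i _ => hterm i
      _ = _ := by
        rw [Finset.sum_add_distrib, ← hsplit, ← Finset.sum_mul, hp1, one_mul]

end Vale.Agent.P074
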