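import Mathlib
import Vale.Agent.P074.Defs
import Vale.Agent.P074.Lag
import Vale.Agent.P074.LagBasic
import Vale.Agent.P074.MLDef
import Vale.Agent.P074.Shift
import Vale.Agent.P074.Semi
import Vale.Agent.P074.OptSuff
import Vale.Agent.P074.GSel
import Vale.Agent.P074.GAtomless
import Vale.Agent.P074.GApprox
import Vale.Agent.P074.GDisc

open MeasureTheory Set Filter
open scoped RealInnerProductSpace ENNReal NNReal Topology

namespace Vale.Agent.P074

section Unif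
variable {d : ℕ} {K : Set (E d)}

lemma g_vol_pos (hKi : (interior K).Nonempty) : volume K ≠ 0 := by
  have h1 : 0 < volume (interior K) := isOpen_interior.measure_pos volume hKi
  exact (h1.trans_le (measure_mono interior_subset)).ne'

lemma g_isProb (hK : IsCompact K) (hKi : (interior K).Nonempty) :
    IsProbabilityMeasure (unif K) := by
  constructor
  unfold unif
  rw [Measure.smul_apply, Measure.restrict_apply_univ, smul_eq_mul]
  exact ENNReal.inv_mul_cancel (g_vol_pos hKi) hK.measure_lt_top.ne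

lemma g_unif_ac : unif K ≪ volume := by
  unfold unif
  exact (Measure.smul_absolutelyContinuous).trans Measure.restrict_le_self.absolutelyContinuous

lemma g_unif_ae (hK : IsCompact K) {P : E d → Prop} (h : ∀ x ∈ K, P x) : ∀ᵐ x ∂(unif K), P x := by
  unfold unif
  exact Measure.ae_smul_measure ((ae_restrict_mem hK.measurableSet).mono h) _

lemma g_ae_restrict (hK : IsCompact K) {P : E d → Prop} (h : ∀ᵐ x ∂(unif K), P x) :
    ∀ᵐ x ∂(volume.restrict K), P x := by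
  unfold unif at h
  rwa [Measure.ae_ennreal_smul_measure_iff] at h
  exact ENNReal.inv_ne_zero.2 hK.measure_lt_top.ne

lemma g_unif_integral (f : E d → ℝ) :
    ∫ x, f x ∂(unif K) = (volume.real K)⁻¹ * ∫ x in K, f x := by
  unfold unif
  rw [integral_smul_measure, smul_eq_mul, ENNReal.toReal_inv]
  rfl

lemma g_integral_unif (hK : IsCompact K) (hKi : (interior K).Nonempty) (f : E d → ℝ) :
    ∫ x in K, f x = volume.real K * ∫ x, f x ∂(unif K) := by
  have h : volume.real K ≠ 0 := by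
    rw [measureReal_def]
    exact (ENNReal.toReal_pos (g_vol_pos hKi) hK.measure_lt_top.ne).ne'
  rw [g_unif_integral, ← mul_assoc, mul_inv_cancel₀ h, one_mul]

end Unif

/-- the Monge optimal map is `L²` close to the semidiscrete map -/
theorem g_close {d : ℕ} (hd : 0 < d) {K : Set (E d)} (hK : IsCompact K) (hKc : Convex ℝ K)
    (hKi : (interior K).Nonempty) (L : ℝ) (hL : 0 ≤ L) :
    ∃ C : ℝ, 0 ≤ C ∧ ∀ (μ : Measure (E d)), (∀ᵐ y ∂μ, ‖y‖ ≤ L) →
      ∀ T : E d → E d, IsOptimalMap (unif K) μ T →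
      ∀ (ι : Type) [Fintype ι] [Nonempty ι] (z : ι → E d) (ψ : ι → ℝ) (m : ι → Measure (E d))
        [∀ i, IsFiniteMeasure (m i)] (δ : ℝ), 0 < δ → δ ≤ 1 → μ = ∑ i, m i →
        (∀ i, ∀ᵐ y ∂(m i), ‖y - z i‖ ≤ δ) → (∀ i, unif K (Lag z ψ i) = m i univ) →
        ∀ U : E d → E d, IsSub (pot z ψ) U L →
          ∫ x, ‖T x - U x‖ ^ 2 ∂(unif K) ≤ C * √δ := by
  obtain ⟨R₀, hR₀⟩ := hK.isBounded.exists_norm_le
  set R : ℝ := max R₀ 0 with hRdef
  have hR0 : 0 ≤ R := le_max_right _ _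
  have hR : ∀ x ∈ K, ‖x‖ ≤ R := fun y hy => (hR₀ y hy).trans (le_max_left _ _)
  obtain ⟨C₂, hC₂, hgap⟩ := gap_lemma hK hKc hKi
  set V : ℝ := volume.real K with hV
  have hVpos : 0 < V := by
    rw [hV, measureReal_def]
    exact ENNReal.toReal_pos (g_vol_pos hKi) hK.measure_lt_top.ne
  set B : ℝ := R + 1 with hB
  have hB0 : 0 ≤ B := by positivity
  refine ⟨2 * L * (V⁻¹ * (C₂ * (L + V * (B + R)))), by positivity, ?_⟩
  intro μ hμL T hT ι _ _ z ψ m _ δ hδ hδ1 hm hsupp hmass U hU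
  have hprob : IsProbabilityMeasure (unif K) := g_isProb hK hKi
  have hRρ : ∀ᵐ x ∂(unif K), ‖x‖ ≤ R := g_unif_ae hK hR
  let T' : E d → E d := fun x => if ‖T x‖ ≤ L then T x else 0
  have hT'm : Measurable T' :=
    Measurable.ite (measurableSet_le hT.1.norm measurable_const) hT.1 measurable_const
  have hT'L : ∀ x, ‖T' x‖ ≤ L := by
    intro x
    by_cases h : ‖T x‖ ≤ L
    · simp only [T', h, if_true]
    · simp only [T', h, if_false, norm_zero]; exact hL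
  have hTT' : ∀ᵐ x ∂(unif K), T' x = T x := by
    have h1 : ∀ᵐ x ∂(unif K), ‖T x‖ ≤ L := by
      rw [← hT.2.1] at hμL
      exact ae_of_ae_map hT.1.aemeasurable hμL
    filter_upwards [h1] with x hx
    simp only [T', hx, if_true]
  obtain ⟨M, hM⟩ := exists_abs_cc_le z ψ hB0 L
  have hsδ : 0 < √δ := Real.sqrt_pos.2 hδ
  have h1 := hgap L (pot z ψ) U T' (fun x => cc z ψ B (T' x)) hU hT'm hT'L
    (measurable_cc.comp hT'm) ⟨M, fun x _ => hM _ (hT'L x)⟩ (fun x hx x' hxx' => by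
      apply fenchel_cc
      calc ‖x'‖ = ‖(x' - x) + x‖ := by congr 1; abel
        _ ≤ ‖x' - x‖ + ‖x‖ := norm_add_le _ _
        _ ≤ B := by have := hR x hx; rw [hB]; linarith) (√δ) hsδ (Real.sqrt_le_one.2 hδ1)
  have h2 : ∫ x in K, (pot z ψ x + cc z ψ B (T' x) - ⟪x, T' x⟫) ≤ V * ((B + R) * δ) := by
    rw [g_integral_unif hK hKi]
    refine mul_le_mul_of_nonneg_left ?_ hVpos.le
    have h3 : ∫ x, (pot z ψ x + cc z ψ B (T' x) - ⟪x, T' x⟫) ∂(unif K)
        = ∫ x, (pot z ψ x + cc z ψ B (T x) - ⟪x, T x⟫) ∂(unif K) := by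
      refine integral_congr_ae ?_
      filter_upwards [hTT'] with x hx
      rw [hx]
    rw [h3]
    exact monge_gap hd g_unif_ac hRρ hμL hT z ψ m hm hsupp hmass hB0
  have h4 : ∫ x in K, ‖T' x - U x‖ ≤ C₂ * (L + V * (B + R)) * √δ := by
    refine h1.trans ?_
    have h5 : (∫ x in K, (pot z ψ x + cc z ψ B (T' x) - ⟪x, T' x⟫)) / √δ
        ≤ V * (B + R) * √δ := by
      rw [div_le_iff₀ hsδ]
      refine h2.trans (le_of_eq ?_)
      have : √δ * √δ = δ := Real.mul_self_sqrt hδ.le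
      calc V * ((B + R) * δ) = V * (B + R) * (√δ * √δ) := by rw [this]; ring
        _ = V * (B + R) * √δ * √δ := by ring
    have h6 : L * √δ + (∫ x in K, (pot z ψ x + cc z ψ B (T' x) - ⟪x, T' x⟫)) / √δ
        ≤ (L + V * (B + R)) * √δ := by linarith
    calc C₂ * (L * √δ + (∫ x in K, (pot z ψ x + cc z ψ B (T' x) - ⟪x, T' x⟫)) / √δ)
        ≤ C₂ * ((L + V * (B + R)) * √δ) := by gcongr
      _ = _ := by ring
  have hnorm : ∀ x, ‖T' x - U x‖ ≤ 2 * L := fun x =>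
    (norm_sub_le _ _).trans (by have := hT'L x; have := hU.bdd x; linarith)
  have hi1 : Integrable (fun x => ‖T' x - U x‖) (unif K) :=
    Integrable.of_bound (C := 2 * L) (hT'm.sub hU.meas).norm.aestronglyMeasurable
      (Eventually.of_forall fun x => by rw [norm_norm]; exact hnorm x)
  have hi2 : Integrable (fun x => ‖T' x - U x‖ ^ 2) (unif K) :=
    Integrable.of_bound (C := (2 * L) ^ 2) ((hT'm.sub hU.meas).norm.pow_const 2).aestronglyMeasurable
      (Eventually.of_forall fun x => by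
        rw [Real.norm_eq_abs, abs_of_nonneg (by positivity)]
        have := hnorm x
        gcongr)
  calc ∫ x, ‖T x - U x‖ ^ 2 ∂(unif K) = ∫ x, ‖T' x - U x‖ ^ 2 ∂(unif K) := by
        refine integral_congr_ae ?_
        filter_upwards [hTT'] with x hx
        rw [hx]
    _ ≤ ∫ x, 2 * L * ‖T' x - U x‖ ∂(unif K) := by
        refine integral_mono hi2 (hi1.const_mul _) fun x => ?_
        have h7 := hnorm x
        have h8 := norm_nonneg (T' x - U x)
        show ‖T' x - U x‖ ^ 2 ≤ 2 * L * ‖T' x - U x‖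
        nlinarith
    _ = 2 * L * (V⁻¹ * ∫ x in K, ‖T' x - U x‖) := by
        rw [integral_const_mul, g_unif_integral]
    _ ≤ 2 * L * (V⁻¹ * (C₂ * (L + V * (B + R)) * √δ)) := by gcongr
    _ = _ := by ring

/-- bound for a given coupling -/
theorem g_coupling {d : ℕ} (hd : 0 < d) {K Y : Set (E d)} (hK : IsCompact K) (hKc : Convex ℝ K)
    (hKi : (interior K).Nonempty) (hY : IsCompact Y) {L₀ : ℝ} (hL0 : 0 ≤ L₀)
    (hYL : ∀ y ∈ Y, ‖y‖ ≤ L₀) {C₁ : ℝ} (hC₁ : 0 ≤ C₁) (hdisc : DiscProp K (L₀ + 1) C₁)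
    {μ ν : Measure (E d)} (hμ : ProbOn Y μ) (hν : ProbOn Y ν) {T S : E d → E d}
    (hT : IsOptimalMap (unif K) μ T) (hS : IsOptimalMap (unif K) ν S)
    {γ : Measure (E d × E d)} (hγ : IsCoupling γ μ ν) :
    ∫ x, ‖T x - S x‖ ^ 2 ∂(unif K) ≤ 3 * C₁ * (∫ q, ‖q.1 - q.2‖ ^ 2 ∂γ) ^ (1 / 3 : ℝ) := by
  obtain ⟨C₃, hC₃, hclose⟩ := g_close hd hK hKc hKi (L₀ + 1) (by linarith)
  have hprob : IsProbabilityMeasure (unif K) := g_isProb hK hKi
  have hμp := hμ.1
  have hνp := hν.1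
  obtain ⟨hγ1, hγ2⟩ := hγ
  have hγp : IsProbabilityMeasure γ := by
    constructor
    have h1 : (γ.map Prod.fst) univ = 1 := by rw [hγ1, measure_univ]
    rwa [Measure.map_apply measurable_fst MeasurableSet.univ, preimage_univ] at h1
  have hμY : ∀ᵐ y ∂μ, y ∈ Y := hμ.2
  have hνY : ∀ᵐ y ∂ν, y ∈ Y := hν.2
  have hγY1 : ∀ᵐ q ∂γ, q.1 ∈ Y := by
    rw [← hγ1] at hμY
    exact ae_of_ae_map measurable_fst.aemeasurable hμY
  have hγY2 : ∀ᵐ q ∂γ, q.2 ∈ Y := by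
    rw [← hγ2] at hνY
    exact ae_of_ae_map measurable_snd.aemeasurable hνY
  have hμL : ∀ᵐ y ∂μ, ‖y‖ ≤ L₀ + 1 := by
    filter_upwards [hμY] with y hy
    have := hYL y hy
    linarith
  have hνL : ∀ᵐ y ∂ν, ‖y‖ ≤ L₀ + 1 := by
    filter_upwards [hνY] with y hy
    have := hYL y hy
    linarith
  obtain ⟨R, hR⟩ := hK.isBounded.exists_norm_le
  have hRρ : ∀ᵐ x ∂(unif K), ‖x‖ ≤ R := g_unif_ae hK hR
  set D : ℝ := ∫ q, ‖q.1 - q.2‖ ^ 2 ∂γ with hD
  have hD0 : 0 ≤ D := integral_nonneg fun q => by positivity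
  have hbd : ∀ (κ : Measure (E d)) (W : E d → E d), (∀ᵐ y ∂κ, ‖y‖ ≤ L₀ + 1) →
      IsOptimalMap (unif K) κ W → ∀ᵐ x ∂(unif K), ‖W x‖ ≤ L₀ + 1 := by
    intro κ W hκ hW
    rw [← hW.2.1] at hκ
    exact ae_of_ae_map hW.1.aemeasurable hκ
  have hTb := hbd μ T hμL hT
  have hSb := hbd ν S hνL hS
  have hmain : ∀ δ : ℝ, 0 < δ → δ ≤ 1 → ∫ x, ‖T x - S x‖ ^ 2 ∂(unif K)
      ≤ 3 * (2 * (C₃ * √δ) + C₁ * (D + (8 * L₀ * δ + 4 * δ ^ 2)) ^ (1 / 3 : ℝ)) := by
    intro δ hδ hδ1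
    obtain ⟨ι, _, _, p, z, z', m, m', hp, hp1, hinj, hzL, hzL', hm, hm', hmp, hmp', hms, hms',
      hsum⟩ := g_exists_disc hd hY hYL hγY1 hγY2 hδ
    have hzinj : Function.Injective z := by
      have := hinj 0
      simpa using this
    have hzinj' : Function.Injective z' := by
      have := hinj 1
      simpa using this
    have hfm : ∀ i, IsFiniteMeasure (m i) := fun i => ⟨by rw [hmp i]; exact ENNReal.ofReal_lt_top⟩
    have hfm' : ∀ i, IsFiniteMeasure (m' i) := fun i =>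
      ⟨by rw [hmp' i]; exact ENNReal.ofReal_lt_top⟩
    obtain ⟨ψ, hψ⟩ := semi_exists (σ := unif K) g_unif_ac hRρ hzinj (fun i => (hp i).le)
      (by rw [hp1, measureReal_def, measure_univ, ENNReal.toReal_one])
    obtain ⟨ψ', hψ'⟩ := semi_exists (σ := unif K) g_unif_ac hRρ hzinj' (fun i => (hp i).le)
      (by rw [hp1, measureReal_def, measure_univ, ENNReal.toReal_one])
    have hzL1 : ∀ i, ‖z i‖ ≤ L₀ + 1 := fun i => (hzL i).trans (by linarith)
    have hzL1' : ∀ i, ‖z' i‖ ≤ L₀ + 1 := fun i => (hzL' i).trans (by linarith)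
    obtain ⟨U, hU⟩ := g_exists_isSub_pot z ψ hzL1
    obtain ⟨U', hU'⟩ := g_exists_isSub_pot z' ψ' hzL1'
    have hmass : ∀ i, unif K (Lag z ψ i) = m i univ := by
      intro i
      rw [hmp i, ← hψ i, ofReal_measureReal]
    have hmass' : ∀ i, unif K (Lag z' ψ' i) = m' i univ := by
      intro i
      rw [hmp' i, ← hψ' i, ofReal_measureReal]
    have a1 := hclose μ hμL T hT ι z ψ m δ hδ hδ1 (hγ1.symm.trans hm) hms hmass U hU
    have a2 := hclose ν hνL S hS ι z' ψ' m' δ hδ hδ1 (hγ2.symm.trans hm') hms' hmass' U' hU'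
    have a3 := hdisc ι z z' p ψ ψ' hinj (fun i => (hp i).le) hzL1 hzL1' hψ hψ' U U' hU hU'
    have a4 : ∫ x, ‖U x - U' x‖ ^ 2 ∂(unif K)
        ≤ C₁ * (D + (8 * L₀ * δ + 4 * δ ^ 2)) ^ (1 / 3 : ℝ) := by
      refine a3.trans ?_
      refine mul_le_mul_of_nonneg_left ?_ hC₁
      exact Real.rpow_le_rpow (Finset.sum_nonneg fun i _ => by have := (hp i).le; positivity)
        hsum (by norm_num)
    -- combine
    have hTm := hT.1
    have hSm := hS.1
    have hUm := hU.meas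
    have hUm' := hU'.meas
    have i1 : Integrable (fun x => ‖T x - U x‖ ^ 2) (unif K) := by
      refine Integrable.of_bound (C := (2 * (L₀ + 1)) ^ 2) (by fun_prop) ?_
      filter_upwards [hTb] with x hx
      rw [Real.norm_eq_abs, abs_of_nonneg (by positivity)]
      have h1 : ‖T x - U x‖ ≤ 2 * (L₀ + 1) :=
        (norm_sub_le _ _).trans (by have := hU.bdd x; linarith)
      gcongr
    have i2 : Integrable (fun x => ‖S x - U' x‖ ^ 2) (unif K) := by
      refine Integrable.of_bound (C := (2 * (L₀ + 1)) ^ 2) (by fun_prop) ?_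
      filter_upwards [hSb] with x hx
      rw [Real.norm_eq_abs, abs_of_nonneg (by positivity)]
      have h1 : ‖S x - U' x‖ ≤ 2 * (L₀ + 1) :=
        (norm_sub_le _ _).trans (by have := hU'.bdd x; linarith)
      gcongr
    have i3 : Integrable (fun x => ‖U x - U' x‖ ^ 2) (unif K) := by
      refine Integrable.of_bound (C := (2 * (L₀ + 1)) ^ 2) (by fun_prop) ?_
      refine Eventually.of_forall fun x => ?_
      rw [Real.norm_eq_abs, abs_of_nonneg (by positivity)]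
      have h1 : ‖U x - U' x‖ ≤ 2 * (L₀ + 1) :=
        (norm_sub_le _ _).trans (by have := hU'.bdd x; have := hU.bdd x; linarith)
      gcongr
    have i4 : Integrable (fun x => ‖T x - S x‖ ^ 2) (unif K) := by
      refine Integrable.of_bound (C := (2 * (L₀ + 1)) ^ 2) (by fun_prop) ?_
      filter_upwards [hSb, hTb] with x hx hx'
      rw [Real.norm_eq_abs, abs_of_nonneg (by positivity)]
      have h1 : ‖T x - S x‖ ≤ 2 * (L₀ + 1) :=
        (norm_sub_le _ _).trans (by linarith)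
      gcongr
    have hpt : ∀ x, ‖T x - S x‖ ^ 2
        ≤ 3 * (‖T x - U x‖ ^ 2 + ‖S x - U' x‖ ^ 2 + ‖U x - U' x‖ ^ 2) := by
      intro x
      have h1 : ‖T x - S x‖ ≤ ‖T x - U x‖ + ‖U x - U' x‖ + ‖S x - U' x‖ := by
        calc ‖T x - S x‖ = ‖(T x - U x) + (U x - U' x) + (U' x - S x)‖ := by congr 1; abel
          _ ≤ ‖(T x - U x) + (U x - U' x)‖ + ‖U' x - S x‖ := norm_add_le _ _
          _ ≤ ‖T x - U x‖ + ‖U x - U' x‖ + ‖U' x - S x‖ := by gcongr; exact norm_add_le _ _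
          _ = _ := by rw [norm_sub_rev (U' x)]
      have h2 : ‖T x - S x‖ ^ 2 ≤ (‖T x - U x‖ + ‖U x - U' x‖ + ‖S x - U' x‖) ^ 2 := by
        gcongr
      nlinarith [sq_nonneg (‖T x - U x‖ - ‖U x - U' x‖), sq_nonneg (‖T x - U x‖ - ‖S x - U' x‖),
        sq_nonneg (‖U x - U' x‖ - ‖S x - U' x‖)]
    have i12 : Integrable (fun x => ‖T x - U x‖ ^ 2 + ‖S x - U' x‖ ^ 2) (unif K) := i1.add i2
    have i123 : Integrable (fun x => ‖T x - U x‖ ^ 2 + ‖S x - U' x‖ ^ 2 + ‖U x - U' x‖ ^ 2)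
      (unif K) := i12.add i3
    calc ∫ x, ‖T x - S x‖ ^ 2 ∂(unif K)
        ≤ ∫ x, 3 * (‖T x - U x‖ ^ 2 + ‖S x - U' x‖ ^ 2 + ‖U x - U' x‖ ^ 2) ∂(unif K) :=
          integral_mono i4 (i123.const_mul 3) hpt
      _ = 3 * (∫ x, ‖T x - U x‖ ^ 2 ∂(unif K) + ∫ x, ‖S x - U' x‖ ^ 2 ∂(unif K)
            + ∫ x, ‖U x - U' x‖ ^ 2 ∂(unif K)) := by
          rw [integral_const_mul, integral_add i12 i3, integral_add i1 i2]
      _ ≤ _ := by linarith
  -- let δ → 0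
  have hcont : Continuous fun δ : ℝ =>
      3 * (2 * (C₃ * √δ) + C₁ * (D + (8 * L₀ * δ + 4 * δ ^ 2)) ^ (1 / 3 : ℝ)) := by
    have h1 : Continuous fun δ : ℝ => (D + (8 * L₀ * δ + 4 * δ ^ 2)) ^ (1 / 3 : ℝ) :=
      Continuous.rpow_const (by fun_prop) fun _ => Or.inr (by norm_num)
    fun_prop
  have hlim : Tendsto (fun δ : ℝ =>
      3 * (2 * (C₃ * √δ) + C₁ * (D + (8 * L₀ * δ + 4 * δ ^ 2)) ^ (1 / 3 : ℝ))) (𝓝[>] 0)
      (𝓝 (3 * C₁ * D ^ (1 / 3 : ℝ))) := by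
    have h1 := (hcont.tendsto 0).mono_left (nhdsWithin_le_nhds (s := Ioi (0 : ℝ)))
    have h2 : 3 * (2 * (C₃ * √(0 : ℝ)) + C₁ * (D + (8 * L₀ * 0 + 4 * 0 ^ 2)) ^ (1 / 3 : ℝ))
        = 3 * C₁ * D ^ (1 / 3 : ℝ) := by
      rw [Real.sqrt_zero]; simp; ring
    rwa [h2] at h1
  refine ge_of_tendsto hlim ?_
  have h1 : Ioc (0 : ℝ) 1 ∈ 𝓝[>] (0 : ℝ) := Ioc_mem_nhdsGT one_pos
  filter_upwards [h1] with δ hδ
  exact hmain δ hδ.1 hδ.2

theorem admissible_third {d : ℕ} (hd : 2 ≤ d)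
    (hdisc : ∀ K : Set (E d), IsCompact K → Convex ℝ K → (interior K).Nonempty →
      ∀ L : ℝ, 0 ≤ L → ∃ C : ℝ, 0 ≤ C ∧ DiscProp K L C) : Admissible d (1 / 3) := by
  intro K Y hK hKc hKi hY hYn
  obtain ⟨L₀, hL₀⟩ := hY.isBounded.exists_norm_le
  set L : ℝ := max L₀ 0 with hLdef
  have hL0 : 0 ≤ L := le_max_right _ _
  have hYL : ∀ y ∈ Y, ‖y‖ ≤ L := fun y hy => (hL₀ y hy).trans (le_max_left _ _)
  obtain ⟨C₁, hC₁, hD⟩ := hdisc K hK hKc hKi (L + 1) (by linarith)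
  set C : ℝ := √(3 * C₁) + 1 with hC
  have hCpos : 0 < C := by positivity
  refine ⟨C, fun μ ν hμ hν T S hT hS => ?_⟩
  set A : ℝ := √(∫ x, ‖T x - S x‖ ^ 2 ∂(unif K)) with hA
  have hA0 : 0 ≤ A := Real.sqrt_nonneg _
  have hkey : ∀ r ∈ {r : ℝ | ∃ γ : Measure (E d × E d), IsCoupling γ μ ν ∧
      r = Real.sqrt (∫ p, ‖p.1 - p.2‖ ^ 2 ∂γ)}, (A / C) ^ 3 ≤ r := by
    rintro r ⟨γ, hγ, rfl⟩
    have h1 := g_coupling (by omega) hK hKc hKi hY hL0 hYL hC₁ hD hμ hν hT hS hγ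
    set D : ℝ := ∫ q, ‖q.1 - q.2‖ ^ 2 ∂γ with hDdef
    have hD0 : 0 ≤ D := integral_nonneg fun q => by positivity
    have h2 : A ≤ √(3 * C₁) * (√D) ^ (1 / 3 : ℝ) := by
      rw [hA]
      refine (Real.sqrt_le_sqrt h1).trans (le_of_eq ?_)
      rw [Real.sqrt_mul (by positivity)]
      congr 1
      rw [Real.sqrt_eq_rpow, Real.sqrt_eq_rpow, ← Real.rpow_mul hD0, ← Real.rpow_mul hD0]
      norm_num
    have h3 : A / C ≤ (√D) ^ (1 / 3 : ℝ) := by
      rw [div_le_iff₀ hCpos]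
      refine h2.trans ?_
      rw [mul_comm]
      have : 0 ≤ (√D) ^ (1 / 3 : ℝ) := Real.rpow_nonneg (Real.sqrt_nonneg _) _
      gcongr
      rw [hC]; linarith
    calc (A / C) ^ 3 ≤ ((√D) ^ (1 / 3 : ℝ)) ^ 3 := by gcongr
      _ = √D := by
        rw [← Real.rpow_natCast, ← Real.rpow_mul (Real.sqrt_nonneg _)]
        norm_num
  have hne : {r : ℝ | ∃ γ : Measure (E d × E d), IsCoupling γ μ ν ∧
      r = Real.sqrt (∫ p, ‖p.1 - p.2‖ ^ 2 ∂γ)}.Nonempty := by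
    have := hμ.1
    have := hν.1
    refine ⟨_, μ.prod ν, ⟨?_, ?_⟩, rfl⟩
    · rw [Measure.map_fst_prod, measure_univ, one_smul]
    · rw [Measure.map_snd_prod, measure_univ, one_smul]
  have hW : (A / C) ^ 3 ≤ W2 μ ν := le_csInf hne hkey
  have hW0 : 0 ≤ W2 μ ν := le_trans (by positivity) hW
  have h4 : A / C ≤ W2 μ ν ^ (1 / 3 : ℝ) := by
    have h5 : ((A / C) ^ 3) ^ (1 / 3 : ℝ) ≤ W2 μ ν ^ (1 / 3 : ℝ) :=
      Real.rpow_le_rpow (by positivity) hW (by norm_num)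
    rwa [← Real.rpow_natCast, ← Real.rpow_mul (by positivity),
      show ((3 : ℕ) : ℝ) * (1 / 3) = 1 by norm_num, Real.rpow_one] at h5
  rw [div_le_iff₀ hCpos] at h4
  linarith

end Vale.Agent.P074
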