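import Mathlib
import Vale.Agent.P074.Lag

open MeasureTheory Set
open scoped ENNReal NNReal Pointwise

namespace Vale.Agent.P074

theorem vol_affine_image {c b : ℝ} (hc : 0 ≤ c) (A : Set ℝ) :
    volume ((fun x => c * x + b) '' A) = ENNReal.ofReal c * volume A := by
  have h1 : (fun x => c * x + b) '' A = (fun x => x + b) '' (c • A) := by
    rw [← Set.image_smul, Set.image_image]
    rfl
  rw [h1, Set.image_add_right, measure_preimage_add_right, Measure.addHaar_smul]
  simp [abs_of_nonneg hc]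

/-- One-dimensional Brunn–Minkowski, compact case. -/
theorem bm1_compact {s : ℝ} (hs0 : 0 < s) (hs1 : s < 1) {A B C : Set ℝ} (hA : IsCompact A)
    (hB : IsCompact B) (hAn : A.Nonempty) (hBn : B.Nonempty)
    (H : ∀ x ∈ A, ∀ y ∈ B, (1 - s) * x + s * y ∈ C) :
    ENNReal.ofReal (1 - s) * volume A + ENNReal.ofReal s * volume B ≤ volume C := by
  obtain ⟨a, haA, ha⟩ := hA.exists_isGreatest hAn
  obtain ⟨b, hbB, hb⟩ := hB.exists_isLeast hBn
  have hf : volume ((fun x => (1 - s) * x + s * b) '' A) = ENNReal.ofReal (1 - s) * volume A :=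
    vol_affine_image (by linarith) A
  have hg : volume ((fun x => s * x + (1 - s) * a) '' B) = ENNReal.ofReal s * volume B :=
    vol_affine_image hs0.le B
  have hsub : (fun x => (1 - s) * x + s * b) '' A ∪ (fun x => s * x + (1 - s) * a) '' B ⊆ C := by
    rintro z (⟨x, hx, rfl⟩ | ⟨y, hy, rfl⟩)
    · exact H x hx b hbB
    · have := H a haA y hy
      simpa [add_comm] using this
  have hBm : MeasurableSet ((fun x => s * x + (1 - s) * a) '' B) :=
    (hB.image (by fun_prop)).measurableSet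
  have hint : AEDisjoint volume ((fun x => (1 - s) * x + s * b) '' A)
      ((fun x => s * x + (1 - s) * a) '' B) := by
    refine measure_mono_null (t := {(1 - s) * a + s * b}) ?_ (by simp)
    rintro z ⟨⟨x, hx, rfl⟩, ⟨y, hy, hxy⟩⟩
    have h1 : x ≤ a := ha hx
    have h2 : b ≤ y := hb hy
    simp only [mem_singleton_iff]
    simp only at hxy
    have h3 : (1 - s) * x ≤ (1 - s) * a := mul_le_mul_of_nonneg_left h1 (by linarith)
    have h4 : s * b ≤ s * y := mul_le_mul_of_nonneg_left h2 hs0.le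
    linarith
  calc ENNReal.ofReal (1 - s) * volume A + ENNReal.ofReal s * volume B
      = volume ((fun x => (1 - s) * x + s * b) '' A ∪ (fun x => s * x + (1 - s) * a) '' B) := by
        rw [measure_union₀ hBm.nullMeasurableSet hint, hf, hg]
    _ ≤ volume C := measure_mono hsub

/-- One-dimensional Brunn–Minkowski, measurable sets of finite measure. -/
theorem bm1 {s : ℝ} (hs0 : 0 < s) (hs1 : s < 1) {A B C : Set ℝ} (hA : MeasurableSet A)
    (hB : MeasurableSet B) (hAf : volume A ≠ ∞) (hBf : volume B ≠ ∞)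
    (hAn : A.Nonempty) (hBn : B.Nonempty)
    (H : ∀ x ∈ A, ∀ y ∈ B, (1 - s) * x + s * y ∈ C) :
    ENNReal.ofReal (1 - s) * volume A + ENNReal.ofReal s * volume B ≤ volume C := by
  obtain ⟨a, ha⟩ := hAn
  obtain ⟨b, hb⟩ := hBn
  refine ENNReal.le_of_forall_pos_le_add fun ε hε _ => ?_
  have hε' : (ε : ℝ≥0∞) ≠ 0 := by exact_mod_cast hε.ne'
  obtain ⟨K, hKA, hK, hKv⟩ := hA.exists_isCompact_lt_add hAf hε'
  obtain ⟨L, hLB, hL, hLv⟩ := hB.exists_isCompact_lt_add hBf hε'
  have key := bm1_compact hs0 hs1 (hK.insert a) (hL.insert b) (Set.insert_nonempty _ _)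
    (Set.insert_nonempty _ _) (C := C) (fun x hx y hy => H x ?_ y ?_)
  · have e1 : volume A ≤ volume (insert a K) + ε :=
      hKv.le.trans (add_le_add_left (measure_mono (Set.subset_insert _ _)) _)
    have e2 : volume B ≤ volume (insert b L) + ε :=
      hLv.le.trans (add_le_add_left (measure_mono (Set.subset_insert _ _)) _)
    calc ENNReal.ofReal (1 - s) * volume A + ENNReal.ofReal s * volume B
        ≤ ENNReal.ofReal (1 - s) * (volume (insert a K) + ε)
          + ENNReal.ofReal s * (volume (insert b L) + ε) := by gcongr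
      _ = (ENNReal.ofReal (1 - s) * volume (insert a K) + ENNReal.ofReal s * volume (insert b L))
          + (ENNReal.ofReal (1 - s) + ENNReal.ofReal s) * ε := by ring
      _ ≤ volume C + ε := by
        gcongr
        rw [← ENNReal.ofReal_add (by linarith) hs0.le]
        simp
  · rcases hx with rfl | hx
    · exact ha
    · exact hKA hx
  · rcases hy with rfl | hy
    · exact hb
    · exact hLB hy

/-- Weighted AM-GM in `ℝ≥0∞`. -/
theorem ennreal_amgm {s : ℝ} (hs0 : 0 < s) (hs1 : s < 1) (a b : ℝ≥0∞) :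
    a ^ (1 - s) * b ^ s ≤ ENNReal.ofReal (1 - s) * a + ENNReal.ofReal s * b := by
  have h1 : 0 < 1 - s := by linarith
  rcases eq_or_ne a ∞ with rfl | ha
  · rw [ENNReal.mul_top (by simpa using h1)]
    simp
  rcases eq_or_ne b ∞ with rfl | hb
  · rw [ENNReal.mul_top (by simpa using hs0)]
    simp
  lift a to ℝ≥0 using ha
  lift b to ℝ≥0 using hb
  have := NNReal.geom_mean_le_arith_mean2_weighted ⟨1 - s, h1.le⟩ ⟨s, hs0.le⟩ a b
    (by apply NNReal.eq; change (1 - s) + s = 1; ring)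
  rw [← ENNReal.coe_rpow_of_nonneg _ h1.le, ← ENNReal.coe_rpow_of_nonneg _ hs0.le,
    ENNReal.ofReal, ENNReal.ofReal, Real.toNNReal_of_nonneg h1.le, Real.toNNReal_of_nonneg hs0.le]
  exact_mod_cast this

/-- layer cake for functions bounded by one -/
theorem layer {f : ℝ → ℝ≥0∞} (hf : Measurable f) (hf1 : ∀ x, f x ≤ 1) :
    ∫⁻ x, f x = ∫⁻ t in Ioo (0:ℝ) 1, volume {x | ENNReal.ofReal t < f x} := by
  have hft : ∀ x, f x ≠ ∞ := fun x => ne_top_of_le_ne_top ENNReal.one_ne_top (hf1 x)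
  have h1 : ∫⁻ x, f x = ∫⁻ x, ENNReal.ofReal ((f x).toReal) := by
    refine lintegral_congr fun x => ?_
    rw [ENNReal.ofReal_toReal (hft x)]
  rw [h1, lintegral_eq_lintegral_meas_lt volume (Filter.Eventually.of_forall fun x => ENNReal.toReal_nonneg)
    hf.ennreal_toReal.aemeasurable]
  have h2 : ∀ t ∈ Ioi (0:ℝ), volume {a | t < (f a).toReal} =
      (Ioo (0:ℝ) 1).indicator (fun t => volume {x | ENNReal.ofReal t < f x}) t := by
    intro t ht
    have e : {a | t < (f a).toReal} = {x | ENNReal.ofReal t < f x} := by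
      ext x
      simp only [mem_ofPred_eq]
      exact (ENNReal.ofReal_lt_iff_lt_toReal (le_of_lt ht) (hft x)).symm
    by_cases h : t < 1
    · rw [indicator_of_mem (show t ∈ Ioo (0:ℝ) 1 from ⟨ht, h⟩), e]
    · rw [indicator_of_notMem (fun h' => h h'.2)]
      convert measure_empty (μ := volume)
      ext x
      simp only [mem_ofPred_eq, mem_empty_iff_false, iff_false, not_lt]
      refine le_trans ?_ (not_lt.1 h)
      exact ENNReal.toReal_le_of_le_ofReal zero_le_one (by simpa using hf1 x)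
  rw [setLIntegral_congr_fun measurableSet_Ioi h2, setLIntegral_indicator measurableSet_Ioo]
  congr 2
  ext t; simp; tauto


/-- One-dimensional Prékopa–Leindler. -/
theorem pl1 {s : ℝ} (hs0 : 0 < s) (hs1 : s < 1) {f g h : ℝ → ℝ≥0∞}
    (hf : Measurable f) (hg : Measurable g) (hh : Measurable h)
    {Cf Cg : ℝ≥0} {Rf Rg : ℝ}
    (hfb : ∀ x, f x ≤ (Metric.closedBall (0 : ℝ) Rf).indicator (fun _ => (Cf : ℝ≥0∞)) x)
    (hgb : ∀ x, g x ≤ (Metric.closedBall (0 : ℝ) Rg).indicator (fun _ => (Cg : ℝ≥0∞)) x)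
    (H : ∀ x y, f x ^ (1 - s) * g y ^ s ≤ h ((1 - s) * x + s * y)) :
    (∫⁻ x, f x) ^ (1 - s) * (∫⁻ x, g x) ^ s ≤ ∫⁻ x, h x := by
  have h1s : 0 < 1 - s := by linarith
  set A : ℝ≥0∞ := ⨆ x, f x with hAdef
  set B : ℝ≥0∞ := ⨆ x, g x with hBdef
  have hAt : A ≠ ∞ := by
    refine ne_top_of_le_ne_top (ENNReal.coe_ne_top (r := Cf)) (iSup_le fun x => (hfb x).trans ?_)
    exact indicator_le_self' (fun _ _ => zero_le) x
  have hBt : B ≠ ∞ := by
    refine ne_top_of_le_ne_top (ENNReal.coe_ne_top (r := Cg)) (iSup_le fun x => (hgb x).trans ?_)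
    exact indicator_le_self' (fun _ _ => zero_le) x
  rcases eq_or_ne A 0 with hA0 | hA0
  · have : ∀ x, f x = 0 := fun x => le_antisymm ((le_iSup f x).trans hA0.le) (zero_le)
    simp [this, h1s]
  rcases eq_or_ne B 0 with hB0 | hB0
  · have : ∀ x, g x = 0 := fun x => le_antisymm ((le_iSup g x).trans hB0.le) (zero_le)
    simp [this, hs0]
  set D : ℝ≥0∞ := A ^ (1 - s) * B ^ s with hDdef
  have hD0 : D ≠ 0 := by
    simp only [hDdef, ne_eq, mul_eq_zero, ENNReal.rpow_eq_zero_iff, not_or, not_and, not_lt]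
    exact ⟨⟨fun h => absurd h hA0, fun h => absurd h hAt⟩, ⟨fun h => absurd h hB0, fun h => absurd h hBt⟩⟩
  have hDt : D ≠ ∞ := ENNReal.mul_ne_top (ENNReal.rpow_ne_top_of_nonneg h1s.le hAt)
    (ENNReal.rpow_ne_top_of_nonneg hs0.le hBt)
  set f1 : ℝ → ℝ≥0∞ := fun x => f x / A with hf1
  set g1 : ℝ → ℝ≥0∞ := fun x => g x / B with hg1
  set k1 : ℝ → ℝ≥0∞ := fun x => min 1 (h x / D) with hk1
  have hf1m : Measurable f1 := hf.div_const _
  have hg1m : Measurable g1 := hg.div_const _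
  have hk1m : Measurable k1 := measurable_const.min (hh.div_const _)
  have hf11 : ∀ x, f1 x ≤ 1 := fun x => ENNReal.div_le_of_le_mul (by simpa using le_iSup f x)
  have hg11 : ∀ x, g1 x ≤ 1 := fun x => ENNReal.div_le_of_le_mul (by simpa using le_iSup g x)
  have hk11 : ∀ x, k1 x ≤ 1 := fun x => min_le_left _ _
  have hkey : ∀ x y, f1 x ^ (1 - s) * g1 y ^ s ≤ h ((1 - s) * x + s * y) / D := by
    intro x y
    rw [ENNReal.le_div_iff_mul_le (Or.inl hD0) (Or.inl hDt)]
    calc f1 x ^ (1 - s) * g1 y ^ s * D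
        = (f1 x * A) ^ (1 - s) * (g1 y * B) ^ s := by
          rw [ENNReal.mul_rpow_of_nonneg _ _ h1s.le, ENNReal.mul_rpow_of_nonneg _ _ hs0.le, hDdef]
          ring
      _ = f x ^ (1 - s) * g y ^ s := by
          simp only [hf1, hg1]
          rw [ENNReal.div_mul_cancel hA0 hAt, ENNReal.div_mul_cancel hB0 hBt]
      _ ≤ _ := H x y
  have hlevel : ∀ t ∈ Ioo (0:ℝ) 1,
      ENNReal.ofReal (1 - s) * volume {x | ENNReal.ofReal t < f1 x}
        + ENNReal.ofReal s * volume {x | ENNReal.ofReal t < g1 x}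
        ≤ volume {x | ENNReal.ofReal t < k1 x} := by
    intro t ht
    have ht1 : ENNReal.ofReal t < 1 := by
      rw [← ENNReal.ofReal_one]; exact (ENNReal.ofReal_lt_ofReal_iff one_pos).2 ht.2
    have ht0 : ENNReal.ofReal t ≠ 0 := by simpa using ht.1
    refine bm1 hs0 hs1 (measurableSet_lt measurable_const hf1m)
      (measurableSet_lt measurable_const hg1m) ?_ ?_ ?_ ?_ ?_
    · refine ne_top_of_le_ne_top (measure_closedBall_lt_top (x := (0:ℝ)) (r := Rf)).ne
        (measure_mono fun x hx => ?_)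
      by_contra hx'
      have := hfb x
      rw [indicator_of_notMem hx'] at this
      have h0 : f x = 0 := le_antisymm this (zero_le)
      simp [hf1, h0] at hx
    · refine ne_top_of_le_ne_top (measure_closedBall_lt_top (x := (0:ℝ)) (r := Rg)).ne
        (measure_mono fun x hx => ?_)
      by_contra hx'
      have := hgb x
      rw [indicator_of_notMem hx'] at this
      have h0 : g x = 0 := le_antisymm this (zero_le)
      simp [hg1, h0] at hx
    · have : ENNReal.ofReal t * A < A := by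
        conv_rhs => rw [← one_mul A]
        exact ENNReal.mul_lt_mul_left hA0 hAt ht1
      obtain ⟨x, hx⟩ := lt_iSup_iff.1 this
      exact ⟨x, (ENNReal.lt_div_iff_mul_lt (Or.inl hA0) (Or.inl hAt)).2 hx⟩
    · have : ENNReal.ofReal t * B < B := by
        conv_rhs => rw [← one_mul B]
        exact ENNReal.mul_lt_mul_left hB0 hBt ht1
      obtain ⟨x, hx⟩ := lt_iSup_iff.1 this
      exact ⟨x, (ENNReal.lt_div_iff_mul_lt (Or.inl hB0) (Or.inl hBt)).2 hx⟩
    · intro x hx y hy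
      simp only [mem_ofPred_eq] at hx hy ⊢
      refine lt_min ht1 (lt_of_lt_of_le ?_ (hkey x y))
      calc ENNReal.ofReal t = ENNReal.ofReal t ^ (1 - s) * ENNReal.ofReal t ^ s := by
            rw [← ENNReal.rpow_add _ _ ht0 ENNReal.ofReal_ne_top]; simp
        _ < f1 x ^ (1 - s) * g1 y ^ s :=
            ENNReal.mul_lt_mul (ENNReal.rpow_lt_rpow hx h1s) (ENNReal.rpow_lt_rpow hy hs0)
  have hanti : ∀ u : ℝ → ℝ≥0∞, Measurable fun t : ℝ => volume {x | ENNReal.ofReal t < u x} := by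
    intro u
    refine Antitone.measurable fun a b hab => measure_mono fun x hx => ?_
    exact lt_of_le_of_lt (ENNReal.ofReal_le_ofReal hab) hx
  have hsum : ENNReal.ofReal (1 - s) * (∫⁻ x, f1 x) + ENNReal.ofReal s * (∫⁻ x, g1 x)
      ≤ ∫⁻ x, k1 x := by
    rw [layer hf1m hf11, layer hg1m hg11, layer hk1m hk11]
    rw [← lintegral_const_mul' _ _ ENNReal.ofReal_ne_top,
      ← lintegral_const_mul' _ _ ENNReal.ofReal_ne_top,
      ← lintegral_add_left ((hanti f1).const_mul _)]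
    exact setLIntegral_mono (hanti k1) hlevel
  have hfD : ∫⁻ x, f1 x = (∫⁻ x, f x) / A := by
    simp only [hf1, div_eq_mul_inv]
    rw [lintegral_mul_const _ hf]
  have hgD : ∫⁻ x, g1 x = (∫⁻ x, g x) / B := by
    simp only [hg1, div_eq_mul_inv]
    rw [lintegral_mul_const _ hg]
  have hkD : ∫⁻ x, k1 x ≤ (∫⁻ x, h x) / D := by
    rw [div_eq_mul_inv, ← lintegral_mul_const _ hh]
    exact lintegral_mono fun x => (min_le_right _ _).trans (by rw [div_eq_mul_inv])
  have hfin : ((∫⁻ x, f x) / A) ^ (1 - s) * ((∫⁻ x, g x) / B) ^ s ≤ (∫⁻ x, h x) / D := by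
    rw [← hfD, ← hgD]
    exact (ennreal_amgm hs0 hs1 _ _).trans (hsum.trans hkD)
  rw [ENNReal.le_div_iff_mul_le (Or.inl hD0) (Or.inl hDt)] at hfin
  calc (∫⁻ x, f x) ^ (1 - s) * (∫⁻ x, g x) ^ s
      = ((∫⁻ x, f x) / A * A) ^ (1 - s) * ((∫⁻ x, g x) / B * B) ^ s := by
        rw [ENNReal.div_mul_cancel hA0 hAt, ENNReal.div_mul_cancel hB0 hBt]
    _ = ((∫⁻ x, f x) / A) ^ (1 - s) * ((∫⁻ x, g x) / B) ^ s * D := by
        rw [ENNReal.mul_rpow_of_nonneg _ _ h1s.le, ENNReal.mul_rpow_of_nonneg _ _ hs0.le, hDdef]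
        ring
    _ ≤ _ := hfin

theorem lintegral_fin_zero (f : (Fin 0 → ℝ) → ℝ≥0∞) : ∫⁻ x, f x = f 0 := by
  have h : (volume : Measure (Fin 0 → ℝ)) = Measure.dirac 0 := by
    rw [volume_pi, Measure.pi_of_empty _ 0]
  rw [h, lintegral_dirac]

theorem lintegral_fin_succ {d : ℕ} {f : (Fin (d + 1) → ℝ) → ℝ≥0∞} (hf : Measurable f) :
    ∫⁻ x, f x = ∫⁻ a : ℝ, ∫⁻ v : Fin d → ℝ, f (Fin.cons a v) := by
  have hmp := (volume_preserving_piFinSuccAbove (fun _ : Fin (d + 1) => ℝ) 0).symm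
  have h1 : ∀ p : ℝ × (Fin d → ℝ),
      (MeasurableEquiv.piFinSuccAbove (fun _ : Fin (d + 1) => ℝ) 0).symm p
        = (Fin.cons p.1 p.2 : Fin (d + 1) → ℝ) := by
    intro p
    simp [MeasurableEquiv.piFinSuccAbove, Fin.insertNthEquiv]
  have h2 := hmp.lintegral_comp hf
  rw [← h2, Measure.volume_eq_prod, lintegral_prod _ (by
    exact (hf.comp (MeasurableEquiv.measurable _)).aemeasurable)]
  simp only [h1]

theorem norm_cons_ge {d : ℕ} (a : ℝ) (v : Fin d → ℝ) :
    ‖a‖ ≤ ‖(Fin.cons a v : Fin (d + 1) → ℝ)‖ ∧ ‖v‖ ≤ ‖(Fin.cons a v : Fin (d + 1) → ℝ)‖ := by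
  constructor
  · have := norm_le_pi_norm (Fin.cons a v : Fin (d + 1) → ℝ) 0
    simpa using this
  · refine (pi_norm_le_iff_of_nonneg (norm_nonneg _)).2 fun i => ?_
    have := norm_le_pi_norm (Fin.cons a v : Fin (d + 1) → ℝ) i.succ
    simpa using this

theorem section_bound {d : ℕ} {f : (Fin (d + 1) → ℝ) → ℝ≥0∞} {C : ℝ≥0} {R : ℝ}
    (hfb : ∀ x, f x ≤ (Metric.closedBall (0 : Fin (d + 1) → ℝ) R).indicator
      (fun _ => (C : ℝ≥0∞)) x) (a : ℝ) (v : Fin d → ℝ) :
    f (Fin.cons a v) ≤ (Metric.closedBall (0 : ℝ) R).indicator (fun _ =>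
      (Metric.closedBall (0 : Fin d → ℝ) R).indicator (fun _ => (C : ℝ≥0∞)) v) a := by
  have h := hfb (Fin.cons a v)
  obtain ⟨h1, h2⟩ := norm_cons_ge a v
  by_cases hx : (Fin.cons a v : Fin (d + 1) → ℝ) ∈ Metric.closedBall (0 : Fin (d + 1) → ℝ) R
  · have hx' : ‖(Fin.cons a v : Fin (d + 1) → ℝ)‖ ≤ R := by simpa using hx
    rw [indicator_of_mem hx] at h
    rw [indicator_of_mem (by simpa using h1.trans hx'), indicator_of_mem (by simpa using h2.trans hx')]
    exact h
  · rw [indicator_of_notMem hx] at h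
    exact h.trans zero_le

/-- Prékopa–Leindler on `Fin d → ℝ`. -/
theorem pl_pi {s : ℝ} (hs0 : 0 < s) (hs1 : s < 1) : ∀ (d : ℕ) {f g h : (Fin d → ℝ) → ℝ≥0∞}
    (_ : Measurable f) (_ : Measurable g) (_ : Measurable h)
    (_ : ∃ (C : ℝ≥0) (R : ℝ), ∀ x,
      f x ≤ (Metric.closedBall (0 : Fin d → ℝ) R).indicator (fun _ => (C : ℝ≥0∞)) x)
    (_ : ∃ (C : ℝ≥0) (R : ℝ), ∀ x,
      g x ≤ (Metric.closedBall (0 : Fin d → ℝ) R).indicator (fun _ => (C : ℝ≥0∞)) x)
    (_ : ∀ x y, f x ^ (1 - s) * g y ^ s ≤ h ((1 - s) • x + s • y)),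
    (∫⁻ x, f x) ^ (1 - s) * (∫⁻ x, g x) ^ s ≤ ∫⁻ x, h x := by
  intro d
  induction d with
  | zero =>
    intro f g h _ _ _ _ _ H
    rw [lintegral_fin_zero, lintegral_fin_zero, lintegral_fin_zero]
    simpa using H 0 0
  | succ d ih =>
    intro f g h hf hg hh hfb hgb H
    obtain ⟨Cf, Rf, hfb⟩ := hfb
    obtain ⟨Cg, Rg, hgb⟩ := hgb
    have hcons : Measurable fun p : ℝ × (Fin d → ℝ) => (Fin.cons p.1 p.2 : Fin (d + 1) → ℝ) := by
      refine measurable_pi_lambda _ fun i => ?_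
      refine Fin.cases ?_ (fun j => ?_) i
      · simpa using measurable_fst
      · simp only [Fin.cons_succ]
        exact (measurable_pi_apply j).comp measurable_snd
    have hcons' : ∀ a : ℝ, Measurable fun v : Fin d → ℝ => (Fin.cons a v : Fin (d + 1) → ℝ) :=
      fun a => hcons.comp (measurable_const.prodMk measurable_id)
    rw [lintegral_fin_succ hf, lintegral_fin_succ hg, lintegral_fin_succ hh]
    have hFm : ∀ {u : (Fin (d + 1) → ℝ) → ℝ≥0∞}, Measurable u →
        Measurable fun a : ℝ => ∫⁻ v : Fin d → ℝ, u (Fin.cons a v) := by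
      intro u hu
      exact (hu.comp hcons).lintegral_prod_right'
    have hFb : ∀ {u : (Fin (d + 1) → ℝ) → ℝ≥0∞} {C : ℝ≥0} {R : ℝ},
        (∀ x, u x ≤ (Metric.closedBall (0 : Fin (d + 1) → ℝ) R).indicator
          (fun _ => (C : ℝ≥0∞)) x) → ∀ a : ℝ, ∫⁻ v : Fin d → ℝ, u (Fin.cons a v) ≤
          (Metric.closedBall (0 : ℝ) R).indicator (fun _ =>
            ((C * (volume (Metric.closedBall (0 : Fin d → ℝ) R)).toNNReal : ℝ≥0) : ℝ≥0∞)) a := by
      intro u C R hu a
      refine (lintegral_mono fun v => section_bound hu a v).trans ?_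
      by_cases ha : a ∈ Metric.closedBall (0 : ℝ) R
      · simp only [indicator_of_mem ha]
        rw [lintegral_indicator_const Metric.isClosed_closedBall.measurableSet, ENNReal.coe_mul,
          ENNReal.coe_toNNReal measure_closedBall_lt_top.ne]
      · simp [indicator_of_notMem ha]
    refine pl1 hs0 hs1 (hFm hf) (hFm hg) (hFm hh) (hFb hfb) (hFb hgb) fun a b => ?_
    refine ih (hf.comp (hcons' a)) (hg.comp (hcons' b)) (hh.comp (hcons' _)) ?_ ?_ ?_
    · refine ⟨Cf, Rf, fun v => (section_bound hfb a v).trans ?_⟩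
      exact indicator_le_self' (fun _ _ => zero_le) a
    · refine ⟨Cg, Rg, fun v => (section_bound hgb b v).trans ?_⟩
      exact indicator_le_self' (fun _ _ => zero_le) b
    · intro v w
      refine (H (Fin.cons a v) (Fin.cons b w)).trans (le_of_eq ?_)
      congr 1
      ext i
      refine Fin.cases ?_ (fun j => ?_) i <;> simp

/-- Prékopa–Leindler on Euclidean space. -/
theorem prekopa_leindler {d : ℕ} {s : ℝ} (hs0 : 0 < s) (hs1 : s < 1)
    {f g h : E d → ℝ≥0∞} (hf : Measurable f) (hg : Measurable g) (hh : Measurable h)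
    (hfb : ∃ (C : ℝ≥0) (R : ℝ), ∀ x,
      f x ≤ (Metric.closedBall (0 : E d) R).indicator (fun _ => (C : ℝ≥0∞)) x)
    (hgb : ∃ (C : ℝ≥0) (R : ℝ), ∀ x,
      g x ≤ (Metric.closedBall (0 : E d) R).indicator (fun _ => (C : ℝ≥0∞)) x)
    (H : ∀ x y, f x ^ (1 - s) * g y ^ s ≤ h ((1 - s) • x + s • y)) :
    (∫⁻ x, f x) ^ (1 - s) * (∫⁻ x, g x) ^ s ≤ ∫⁻ x, h x := by
  have hmp := PiLp.volume_preserving_toLp (Fin d)
  rw [← hmp.lintegral_comp hf, ← hmp.lintegral_comp hg, ← hmp.lintegral_comp hh]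
  have hb : ∀ {u : E d → ℝ≥0∞}, (∃ (C : ℝ≥0) (R : ℝ), ∀ x,
      u x ≤ (Metric.closedBall (0 : E d) R).indicator (fun _ => (C : ℝ≥0∞)) x) →
      ∃ (C : ℝ≥0) (R : ℝ), ∀ x : Fin d → ℝ, u (WithLp.toLp 2 x) ≤
        (Metric.closedBall (0 : Fin d → ℝ) R).indicator (fun _ => (C : ℝ≥0∞)) x := by
    rintro u ⟨C, R, hu⟩
    refine ⟨C, R, fun x => ?_⟩
    by_cases hx : (WithLp.toLp 2 x : E d) ∈ Metric.closedBall (0 : E d) R
    · have h1 := hu (WithLp.toLp 2 x)
      rw [indicator_of_mem hx] at h1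
      have hR : ‖(WithLp.toLp 2 x : E d)‖ ≤ R := by simpa using hx
      have hx' : x ∈ Metric.closedBall (0 : Fin d → ℝ) R := by
        rw [mem_closedBall_zero_iff]
        refine (pi_norm_le_iff_of_nonneg ((norm_nonneg _).trans hR)).2 fun i => ?_
        exact (PiLp.norm_apply_le (WithLp.toLp 2 x : E d) i).trans hR
      rw [indicator_of_mem hx']
      exact h1
    · have h1 := hu (WithLp.toLp 2 x)
      rw [indicator_of_notMem hx] at h1
      exact h1.trans zero_le
  refine pl_pi hs0 hs1 d (hf.comp hmp.measurable) (hg.comp hmp.measurable)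
    (hh.comp hmp.measurable) (hb hfb) (hb hgb) fun x y => ?_
  exact H (WithLp.toLp 2 x) (WithLp.toLp 2 y)

end Vale.Agent.P074
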