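import Mathlib
import Vale.Agent.P074.Defs
import Vale.Agent.P074.OptSuff

open MeasureTheory Set
open scoped RealInnerProductSpace ENNReal NNReal

namespace Vale.Agent.P074

/-- closed box -/
def box {d : ℕ} (a b : Fin d → ℝ) : Set (E d) := {x | ∀ i, x i ∈ Icc (a i) (b i)}

lemma box_eq {d : ℕ} (a b : Fin d → ℝ) :
    box a b = (WithLp.ofLp : E d → (Fin d → ℝ)) ⁻¹' (Icc a b) := by
  ext x
  simp only [box, mem_ofPred_eq, mem_preimage, mem_Icc, Pi.le_def]
  constructor
  · intro h; exact ⟨fun i => (h i).1, fun i => (h i).2⟩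
  · intro h i; exact ⟨h.1 i, h.2 i⟩

lemma volume_box {d : ℕ} (a b : Fin d → ℝ) :
    volume (box a b) = ∏ i, ENNReal.ofReal (b i - a i) := by
  rw [box_eq, (PiLp.volume_preserving_ofLp (Fin d)).measure_preimage
    measurableSet_Icc.nullMeasurableSet, Real.volume_Icc_pi]

lemma isClosed_box {d : ℕ} (a b : Fin d → ℝ) : IsClosed (box a b) := by
  rw [box_eq]
  exact isClosed_Icc.preimage (PiLp.continuous_ofLp 2 _)

lemma isCompact_box {d : ℕ} (a b : Fin d → ℝ) : IsCompact (box a b) := by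
  have : box a b = (WithLp.toLp 2 : (Fin d → ℝ) → E d) '' (Icc a b) := by
    rw [box_eq]
    ext x
    simp only [mem_preimage, mem_image]
    constructor
    · intro h; exact ⟨_, h, by simp⟩
    · rintro ⟨y, hy, rfl⟩; simpa using hy
  rw [this]
  exact isCompact_Icc.image (PiLp.continuous_toLp 2 _)

/-- the cube -/
def cube (d : ℕ) : Set (E d) := box (fun _ => -1) (fun _ => 1)

lemma volume_cube (d : ℕ) : volume (cube d) = 2 ^ d := by
  rw [cube, volume_box]
  norm_num

lemma convex_cube (d : ℕ) : Convex ℝ (cube d) := by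
  intro x hx y hy a b ha hb hab i
  have h1 := hx i
  have h2 := hy i
  simp only [mem_Icc, PiLp.add_apply, PiLp.smul_apply, smul_eq_mul] at *
  constructor <;> nlinarith

lemma interior_cube (d : ℕ) : (interior (cube d)).Nonempty := by
  refine ⟨0, ?_⟩
  rw [mem_interior_iff_mem_nhds]
  filter_upwards [Metric.ball_mem_nhds (0 : E d) one_pos] with x hx i
  have h1 : ‖x i‖ ≤ ‖x‖ := PiLp.norm_apply_le x i
  rw [mem_ball_zero_iff] at hx
  rw [Real.norm_eq_abs] at h1
  have := abs_le.1 (h1.trans hx.le)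
  exact ⟨this.1, this.2⟩

lemma unif_apply {d : ℕ} {K A : Set (E d)} (hA : MeasurableSet A) :
    unif K A = (volume K)⁻¹ * volume (A ∩ K) := by
  simp [unif, Measure.smul_apply, Measure.restrict_apply hA]

lemma isProb_unif {d : ℕ} {K : Set (E d)} (h0 : volume K ≠ 0) (h1 : volume K ≠ ∞) :
    IsProbabilityMeasure (unif K) := by
  constructor
  rw [unif_apply MeasurableSet.univ, univ_inter]
  exact ENNReal.inv_mul_cancel h0 h1

instance isProb_unif_cube (d : ℕ) : IsProbabilityMeasure (unif (cube d)) := by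
  apply isProb_unif <;> rw [volume_cube] <;> simp

lemma unif_mem {d : ℕ} {K : Set (E d)} (hK : MeasurableSet K) : ∀ᵐ x ∂(unif K), x ∈ K := by
  unfold unif
  exact Measure.ae_smul_measure (ae_restrict_mem hK) _

section
variable {n : ℕ}

/-- first coordinate vector -/
noncomputable def e1 : E (n + 2) := EuclideanSpace.single 0 1
/-- second coordinate vector -/
noncomputable def e2 : E (n + 2) := EuclideanSpace.single 1 1

/-- three-valued map -/
noncomputable def T3 (f : E (n + 2) → ℝ) (v : E (n + 2)) (x : E (n + 2)) : E (n + 2) :=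
  if x 0 < - f x then - e1 else if x 0 ≤ f x then v else e1

lemma T3_left {f : E (n + 2) → ℝ} {v x : E (n + 2)} (h : x 0 < - f x) : T3 f v x = - e1 := by
  unfold T3; rw [if_pos h]

lemma T3_mid {f : E (n + 2) → ℝ} {v x : E (n + 2)} (h : - f x ≤ x 0) (h' : x 0 ≤ f x) :
    T3 f v x = v := by
  unfold T3; rw [if_neg (not_lt.2 h), if_pos h']

lemma T3_right {f : E (n + 2) → ℝ} {v x : E (n + 2)} (h : - f x ≤ x 0) (h' : f x < x 0) :
    T3 f v x = e1 := by
  unfold T3; rw [if_neg (not_lt.2 h), if_neg (not_le.2 h')]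

lemma measurable_coord {d : ℕ} (i : Fin d) : Measurable fun x : E d => x i := by
  fun_prop

lemma measurable_T3 {f : E (n + 2) → ℝ} (hf : Measurable f) (v : E (n + 2)) :
    Measurable (T3 f v) := by
  unfold T3
  have h0 := measurable_coord (d := n + 2) 0
  refine Measurable.ite (measurableSet_lt h0 hf.neg) measurable_const ?_
  exact Measurable.ite (measurableSet_le h0 hf) measurable_const measurable_const

lemma map_T3 {ρ : Measure (E (n + 2))} {f : E (n + 2) → ℝ} (hf : Measurable f)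
    (v : E (n + 2)) :
    ρ.map (T3 f v) = ρ {x | x 0 < - f x} • Measure.dirac (- e1)
      + ρ {x | - f x ≤ x 0 ∧ x 0 ≤ f x} • Measure.dirac v
      + ρ {x | - f x ≤ x 0 ∧ f x < x 0} • Measure.dirac e1 := by
  have h0 := measurable_coord (d := n + 2) 0
  have mA : MeasurableSet {x : E (n + 2) | x 0 < - f x} := measurableSet_lt h0 hf.neg
  have mB : MeasurableSet {x : E (n + 2) | - f x ≤ x 0 ∧ x 0 ≤ f x} :=
    (measurableSet_le hf.neg h0).inter (measurableSet_le h0 hf)
  have mC : MeasurableSet {x : E (n + 2) | - f x ≤ x 0 ∧ f x < x 0} :=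
    (measurableSet_le hf.neg h0).inter (measurableSet_lt hf h0)
  ext S hS
  rw [Measure.map_apply (measurable_T3 hf v) hS]
  have hT := measurable_T3 hf v hS
  have split : (T3 f v) ⁻¹' S = ((T3 f v) ⁻¹' S ∩ {x | x 0 < - f x}) ∪
      (((T3 f v) ⁻¹' S ∩ {x | - f x ≤ x 0 ∧ x 0 ≤ f x}) ∪
        ((T3 f v) ⁻¹' S ∩ {x | - f x ≤ x 0 ∧ f x < x 0})) := by
    ext x
    simp only [mem_union, mem_inter_iff, mem_ofPred_eq]
    rcases lt_or_ge (x 0) (- f x) with h | h
    · tauto
    · rcases le_or_gt (x 0) (f x) with h' | h' <;> tauto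
  rw [split, measure_union, measure_union]
  · simp only [Measure.add_apply, Measure.smul_apply, smul_eq_mul, Measure.dirac_apply' _ hS]
    rw [add_assoc]
    congr 1
    · by_cases hv : (- e1 : E (n + 2)) ∈ S
      · rw [indicator_of_mem hv]
        simp only [Pi.one_apply, mul_one]
        congr 1
        ext x
        simp only [mem_inter_iff, mem_preimage, mem_ofPred_eq, and_iff_right_iff_imp]
        intro h
        simpa [T3, h] using hv
      · rw [indicator_of_notMem hv, mul_zero]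
        convert measure_empty (μ := ρ)
        ext x
        simp only [mem_inter_iff, mem_preimage, mem_ofPred_eq, mem_empty_iff_false, iff_false]
        rintro ⟨h1, h2⟩
        simp [T3, h2] at h1
        exact hv h1
    · congr 1
      · by_cases hv : v ∈ S
        · rw [indicator_of_mem hv]
          simp only [Pi.one_apply, mul_one]
          congr 1
          ext x
          simp only [mem_inter_iff, mem_preimage, mem_ofPred_eq, and_iff_right_iff_imp]
          rintro ⟨h, h'⟩
          simpa [T3, not_lt.2 h, h'] using hv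
        · rw [indicator_of_notMem hv, mul_zero]
          convert measure_empty (μ := ρ)
          ext x
          simp only [mem_inter_iff, mem_preimage, mem_ofPred_eq, mem_empty_iff_false, iff_false]
          rintro ⟨h1, h2, h3⟩
          simp [T3, not_lt.2 h2, h3] at h1
          exact hv h1
      · by_cases hv : (e1 : E (n + 2)) ∈ S
        · rw [indicator_of_mem hv]
          simp only [Pi.one_apply, mul_one]
          congr 1
          ext x
          simp only [mem_inter_iff, mem_preimage, mem_ofPred_eq, and_iff_right_iff_imp]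
          rintro ⟨h, h'⟩
          simpa [T3, not_lt.2 h, not_le.2 h'] using hv
        · rw [indicator_of_notMem hv, mul_zero]
          convert measure_empty (μ := ρ)
          ext x
          simp only [mem_inter_iff, mem_preimage, mem_ofPred_eq, mem_empty_iff_false, iff_false]
          rintro ⟨h1, h2, h3⟩
          simp [T3, not_lt.2 h2, not_le.2 h3] at h1
          exact hv h1
  · rw [Set.disjoint_left]
    rintro x ⟨_, h1, h2⟩ ⟨_, h3, h4⟩
    exact absurd h4 (not_lt.2 h2)
  · exact hT.inter mC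
  · rw [Set.disjoint_left]
    rintro x ⟨_, h1⟩ (⟨_, h3, h4⟩ | ⟨_, h3, h4⟩) <;> exact absurd h1 (not_lt.2 h3)
  · exact (hT.inter mB).union (hT.inter mC)

/-- reflection in the first coordinate -/
noncomputable def refl0 : E (n + 2) ≃ₗᵢ[ℝ] E (n + 2) :=
  LinearIsometryEquiv.piLpCongrRight 2
    (fun i : Fin (n + 2) => if i = 0 then LinearIsometryEquiv.neg ℝ else LinearIsometryEquiv.refl ℝ ℝ)

lemma refl0_zero (x : E (n + 2)) : (refl0 x) 0 = - x 0 := by
  simp [refl0]

lemma refl0_ne (x : E (n + 2)) {i : Fin (n + 2)} (hi : i ≠ 0) : (refl0 x) i = x i := by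
  simp [refl0, hi]

lemma refl0_cube : (refl0 (n := n)) ⁻¹' cube (n + 2) = cube (n + 2) := by
  ext x
  simp only [mem_preimage, cube, box, mem_ofPred_eq, mem_Icc]
  constructor
  · intro h i
    rcases eq_or_ne i 0 with rfl | hi
    · have := h 0
      rw [refl0_zero] at this
      constructor <;> linarith [this.1, this.2]
    · have := h i
      rwa [refl0_ne x hi] at this
  · intro h i
    rcases eq_or_ne i 0 with rfl | hi
    · have := h 0
      rw [refl0_zero]
      constructor <;> linarith [this.1, this.2]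
    · rw [refl0_ne x hi]; exact h i

lemma unif_refl {A : Set (E (n + 2))} (hA : MeasurableSet A) :
    unif (cube (n + 2)) ((refl0 (n := n)) ⁻¹' A) = unif (cube (n + 2)) A := by
  have hm : Measurable (refl0 (n := n)) := (refl0 (n := n)).continuous.measurable
  have hK : MeasurableSet (cube (n + 2)) := (isClosed_box _ _).measurableSet
  rw [unif_apply (hm hA), unif_apply hA]
  congr 1
  conv_lhs => rw [← refl0_cube, ← preimage_inter]
  exact (LinearIsometryEquiv.measurePreserving refl0).measure_preimage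
    (hA.inter hK).nullMeasurableSet

lemma inner_e1 (x : E (n + 2)) : ⟪x, (e1 : E (n + 2))⟫ = x 0 := by
  simp [e1, EuclideanSpace.inner_single_right]

lemma inner_e2 (x : E (n + 2)) : ⟪x, (e2 : E (n + 2))⟫ = x 1 := by
  simp [e2, EuclideanSpace.inner_single_right]

lemma norm_e1 : ‖(e1 : E (n + 2))‖ = 1 := by
  simp [e1]

lemma norm_e2 : ‖(e2 : E (n + 2))‖ = 1 := by
  simp [e2]

lemma norm_le_of_cube {d : ℕ} {x : E d} (hx : x ∈ cube d) : ‖x‖ ≤ d := by
  have h1 : ‖x‖ ^ 2 ≤ (d : ℝ) ^ 2 := by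
    rw [EuclideanSpace.norm_sq_eq]
    have : ∀ i ∈ Finset.univ, ‖x i‖ ^ 2 ≤ (1 : ℝ) := by
      intro i _
      have := hx i
      simp only [mem_Icc] at this
      rw [Real.norm_eq_abs, sq_abs]
      nlinarith [this.1, this.2]
    have h2 := Finset.sum_le_sum this
    simp only [Finset.sum_const, Finset.card_univ, Fintype.card_fin, nsmul_eq_mul, mul_one] at h2
    rcases Nat.eq_zero_or_pos d with rfl | hd
    · simp
    · have h3 : (1 : ℝ) ≤ d := by exact_mod_cast hd
      nlinarith
  have h0 : (0 : ℝ) ≤ d := Nat.cast_nonneg d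
  nlinarith [norm_nonneg x]

/-- optimality of the three-valued maps -/
lemma opt_T3 {c : ℝ} (hc : 0 ≤ c) {v : E (n + 2)} (hv : ‖v‖ ≤ 1) (hv1 : v ≠ e1) (hv2 : v ≠ -e1)
    (hpos : ∀ x ∈ cube (n + 2), 0 ≤ c + ⟪x, v⟫) :
    IsOptimalMap (unif (cube (n + 2))) ((unif (cube (n + 2))).map (T3 (fun x => c + ⟪x, v⟫) v))
      (T3 (fun x => c + ⟪x, v⟫) v) := by
  classical
  have hK : MeasurableSet (cube (n + 2)) := (isClosed_box _ _).measurableSet
  have hmem := unif_mem hK
  have hf : Measurable fun x : E (n + 2) => c + ⟪x, v⟫ :=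
    measurable_const.add (Measurable.inner measurable_id measurable_const)
  refine isOptimalMap_of_potential (R := ((n + 2 : ℕ) : ℝ)) (L := 1) (B := c)
    (F := {-e1, v, e1}) (ψ := fun y => if y = v then 0 else c) ?_ (measurable_T3 hf v) ?_ ?_ ?_ ?_ ?_ ?_
  · filter_upwards [hmem] with x hx using norm_le_of_cube hx
  · exact (Set.toFinite _).measurableSet
  · intro y hy
    simp only [mem_insert_iff, mem_singleton_iff] at hy
    rcases hy with rfl | rfl | rfl
    · simp [norm_e1]
    · exact hv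
    · simp [norm_e1]
  · refine Filter.Eventually.of_forall fun x => ?_
    simp only [T3]
    split_ifs <;> simp
  · exact Measurable.ite (measurableSet_singleton v) measurable_const measurable_const
  · intro y _
    by_cases h : y = v
    · simp [h, hc]
    · simp [h, abs_of_nonneg hc]
  · filter_upwards [hmem] with x hx y hy
    have hp := hpos x hx
    have e1v : (e1 : E (n + 2)) ≠ v := fun h => hv1 h.symm
    have e1v' : (-e1 : E (n + 2)) ≠ v := fun h => hv2 h.symm
    have i1 : ⟪x, (-e1 : E (n + 2))⟫ = - x 0 := by rw [inner_neg_right, inner_e1]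
    simp only [mem_insert_iff, mem_singleton_iff] at hy
    rcases lt_or_ge (x 0) (-(c + ⟪x, v⟫)) with h1 | h1
    · have hT : T3 (fun x => c + ⟪x, v⟫) v x = -e1 := T3_left h1
      rw [hT, if_neg e1v', i1]
      rcases hy with rfl | rfl | rfl
      · rw [if_neg e1v', i1]
      · rw [if_pos rfl]; linarith
      · rw [if_neg e1v, inner_e1]; linarith
    · rcases le_or_gt (x 0) (c + ⟪x, v⟫) with h2 | h2
      · have hT : T3 (fun x => c + ⟪x, v⟫) v x = v := T3_mid h1 h2
        rw [hT, if_pos rfl]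
        rcases hy with rfl | rfl | rfl
        · rw [if_neg e1v', i1]; linarith
        · rw [if_pos rfl]
        · rw [if_neg e1v, inner_e1]; linarith
      · have hT : T3 (fun x => c + ⟪x, v⟫) v x = e1 := T3_right h1 h2
        rw [hT, if_neg e1v, inner_e1]
        rcases hy with rfl | rfl | rfl
        · rw [if_neg e1v', i1]; linarith
        · rw [if_pos rfl]; linarith
        · rw [if_neg e1v, inner_e1]

/-- measure of a box inside the cube -/
lemma unif_cube_box {d : ℕ} {a b : Fin d → ℝ} (ha : ∀ i, -1 ≤ a i) (hb : ∀ i, b i ≤ 1)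
    (hab : ∀ i, a i ≤ b i) :
    unif (cube d) (box a b) = ENNReal.ofReal (∏ i, (b i - a i) / 2) := by
  have hsub : box a b ∩ cube d = box a b := by
    apply inter_eq_left.2
    intro x hx i
    exact ⟨(ha i).trans (hx i).1, (hx i).2.trans (hb i)⟩
  rw [unif_apply (isClosed_box _ _).measurableSet, hsub, volume_cube, volume_box]
  rw [ENNReal.ofReal_prod_of_nonneg (fun i _ => by have := hab i; linarith)]
  have h2 : ((2 : ℝ≥0∞) ^ d)⁻¹ = ∏ _i : Fin d, (2 : ℝ≥0∞)⁻¹ := by
    rw [Finset.prod_const, Finset.card_univ, Fintype.card_fin, ENNReal.inv_pow]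
  rw [h2, ← Finset.prod_mul_distrib]
  refine Finset.prod_congr rfl fun i _ => ?_
  rw [ENNReal.ofReal_div_of_pos (by norm_num : (0 : ℝ) < 2), ENNReal.div_eq_inv_mul]
  norm_num

lemma prod_two {d : ℕ} (u v : ℝ) :
    ∏ i : Fin (d + 2), (if i = 0 then u else if i = 1 then v else 1) = u * v := by
  rw [Fin.prod_univ_succ, Fin.prod_univ_succ]
  simp only [if_true, Fin.succ_ne_zero, if_false]
  have : ∏ i : Fin d, (if (i.succ.succ : Fin (d + 2)) = 1 then v else (1 : ℝ)) = 1 := by
    apply Finset.prod_eq_one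
    intro i _
    have : (i.succ.succ : Fin (d + 2)) ≠ 1 := by
      intro h
      have := congrArg Fin.val h
      simp at this
    rw [if_neg this]
  rw [this]
  simp

/-- measure of a two-coordinate box -/
lemma unif_cube_box2 {a b a' b' : ℝ} (ha : -1 ≤ a) (hb : b ≤ 1) (hab : a ≤ b)
    (ha' : -1 ≤ a') (hb' : b' ≤ 1) (hab' : a' ≤ b') :
    unif (cube (n + 2)) {x | x 0 ∈ Icc a b ∧ x 1 ∈ Icc a' b'}
      = ENNReal.ofReal ((b - a) / 2 * ((b' - a') / 2)) := by
  have hK : MeasurableSet (cube (n + 2)) := (isClosed_box _ _).measurableSet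
  have h1 : unif (cube (n + 2)) {x | x 0 ∈ Icc a b ∧ x 1 ∈ Icc a' b'}
      = unif (cube (n + 2)) (box (fun i => if i = 0 then a else if i = 1 then a' else -1)
          (fun i => if i = 0 then b else if i = 1 then b' else 1)) := by
    apply measure_congr
    filter_upwards [unif_mem hK] with x hx
    apply propext
    change (x 0 ∈ Icc a b ∧ x 1 ∈ Icc a' b') ↔ _
    constructor
    · rintro ⟨h0, h1⟩ i
      by_cases hi : i = 0
      · subst hi; simpa using h0
      · by_cases hi' : i = 1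
        · subst hi'; simpa using h1
        · simpa [hi, hi'] using hx i
    · intro h
      exact ⟨by simpa using h 0, by simpa using h 1⟩
  rw [h1, unif_cube_box]
  · congr 1
    rw [← prod_two (d := n) ((b - a) / 2) ((b' - a') / 2)]
    refine Finset.prod_congr rfl fun i _ => ?_
    split_ifs <;> norm_num
  · intro i
    split_ifs <;> norm_num <;> assumption
  · intro i
    split_ifs <;> norm_num <;> assumption
  · intro i
    split_ifs <;> norm_num <;> assumption

lemma W2_nonneg {d : ℕ} (μ ν : Measure (E d)) : 0 ≤ W2 μ ν := by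
  apply Real.sInf_nonneg
  rintro r ⟨_, _, rfl⟩
  exact Real.sqrt_nonneg _

lemma W2_le_of_coupling {d : ℕ} {μ ν : Measure (E d)} {γ : Measure (E d × E d)}
    (h : IsCoupling γ μ ν) : W2 μ ν ≤ Real.sqrt (∫ p, ‖p.1 - p.2‖ ^ 2 ∂γ) := by
  apply csInf_le
  · refine ⟨0, ?_⟩
    rintro r ⟨_, _, rfl⟩
    exact Real.sqrt_nonneg _
  · exact ⟨γ, h, rfl⟩

lemma W2_three {d : ℕ} {a b : ℝ≥0∞} (hat : a ≠ ∞) (hbt : b ≠ ∞) (p q v : E d) :
    W2 (a • Measure.dirac p + b • Measure.dirac 0 + a • Measure.dirac q)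
      (a • Measure.dirac p + b • Measure.dirac v + a • Measure.dirac q)
      ≤ Real.sqrt (b.toReal * ‖v‖ ^ 2) := by
  set γ : Measure (E d × E d) := a • Measure.dirac (p, p)
    + b • Measure.dirac (0, v) + a • Measure.dirac (q, q) with hγ
  have hcoup : IsCoupling γ (a • Measure.dirac p + b • Measure.dirac 0 + a • Measure.dirac q)
      (a • Measure.dirac p + b • Measure.dirac v + a • Measure.dirac q) := by
    constructor
    · rw [hγ, Measure.map_add _ _ measurable_fst, Measure.map_add _ _ measurable_fst,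
        Measure.map_smul, Measure.map_smul, Measure.map_smul,
        Measure.map_dirac' measurable_fst, Measure.map_dirac' measurable_fst,
        Measure.map_dirac' measurable_fst]
    · rw [hγ, Measure.map_add _ _ measurable_snd, Measure.map_add _ _ measurable_snd,
        Measure.map_smul, Measure.map_smul, Measure.map_smul,
        Measure.map_dirac' measurable_snd, Measure.map_dirac' measurable_snd,
        Measure.map_dirac' measurable_snd]
  have hcost : ∫ p, ‖p.1 - p.2‖ ^ 2 ∂γ = b.toReal * ‖v‖ ^ 2 := by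
    have hint : ∀ (c : ℝ≥0∞) (q : E d × E d), c ≠ ∞ →
        Integrable (fun p : E d × E d => ‖p.1 - p.2‖ ^ 2)
          (c • Measure.dirac q) := by
      intro c q hc
      apply Integrable.smul_measure _ hc
      apply integrable_dirac
      finiteness
    rw [hγ, integral_add_measure ((hint _ _ hat).add_measure (hint _ _ hbt)) (hint _ _ hat),
      integral_add_measure (hint _ _ hat) (hint _ _ hbt), integral_smul_measure,
      integral_smul_measure, integral_smul_measure, integral_dirac, integral_dirac,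
      integral_dirac]
    simp
  rw [← hcost]
  exact W2_le_of_coupling hcoup

lemma mass_T3 {φ : E (n + 2) → ℝ} (hφ : Measurable φ) (hφ0 : ∀ x ∈ cube (n + 2), 0 ≤ φ x)
    (hφr : ∀ x, φ (refl0 x) = φ x) :
    2 * (unif (cube (n + 2))).real {x | x 0 < - φ x}
      + (unif (cube (n + 2))).real {x | - φ x ≤ x 0 ∧ x 0 ≤ φ x} = 1 ∧
    (unif (cube (n + 2))).real {x | - φ x ≤ x 0 ∧ φ x < x 0}
      = (unif (cube (n + 2))).real {x | x 0 < - φ x} := by
  set K := cube (n + 2) with hKdef
  set ρ := unif K with hρ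
  have hK : MeasurableSet K := (isClosed_box _ _).measurableSet
  have hmem : ∀ᵐ x ∂ρ, x ∈ K := unif_mem hK
  have h0 := measurable_coord (d := n + 2) 0
  have mA : MeasurableSet {x : E (n + 2) | x 0 < - φ x} := measurableSet_lt h0 hφ.neg
  have mB : MeasurableSet {x : E (n + 2) | - φ x ≤ x 0 ∧ x 0 ≤ φ x} :=
    (measurableSet_le hφ.neg h0).inter (measurableSet_le h0 hφ)
  have mC : MeasurableSet {x : E (n + 2) | - φ x ≤ x 0 ∧ φ x < x 0} :=
    (measurableSet_le hφ.neg h0).inter (measurableSet_lt hφ h0)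
  have hsymm : ρ.real {x | - φ x ≤ x 0 ∧ φ x < x 0} = ρ.real {x | x 0 < - φ x} := by
    have e1' : ρ {x | x 0 < - φ x} = ρ ((refl0 (n := n)) ⁻¹' {x | x 0 < - φ x}) :=
      (unif_refl mA).symm
    rw [Measure.real, Measure.real, e1']
    congr 1
    apply measure_congr
    filter_upwards [hmem] with x hx
    apply propext
    change (- φ x ≤ x 0 ∧ φ x < x 0) ↔ (refl0 x) 0 < - φ (refl0 x)
    rw [refl0_zero, hφr]
    have := hφ0 x hx
    constructor
    · rintro ⟨_, h⟩; linarith
    · intro h; constructor <;> linarith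
  refine ⟨?_, hsymm⟩
  have htot : ρ.real univ = 1 := by simp [Measure.real, ρ]
  have hun : (univ : Set (E (n + 2))) = {x | x 0 < - φ x} ∪
      ({x | - φ x ≤ x 0 ∧ x 0 ≤ φ x} ∪ {x | - φ x ≤ x 0 ∧ φ x < x 0}) := by
    ext x
    simp only [mem_univ, mem_union, mem_ofPred_eq, true_iff]
    rcases lt_or_ge (x 0) (- φ x) with h | h
    · tauto
    · rcases le_or_gt (x 0) (φ x) with h' | h' <;> tauto
  rw [hun, measureReal_union, measureReal_union, hsymm] at htot
  · linarith
  · rw [Set.disjoint_left]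
    rintro x ⟨h1, h2⟩ ⟨h3, h4⟩
    exact absurd h4 (not_lt.2 h2)
  · exact mC
  · rw [Set.disjoint_left]
    rintro x h1 (⟨h3, h4⟩ | ⟨h3, h4⟩) <;> exact absurd h1 (not_lt.2 h3)
  · exact mB.union mC

lemma unif_strip {s : ℝ} (hs0 : 0 ≤ s) (hs1 : s ≤ 1) :
    unif (cube (n + 2)) {x | - s ≤ x 0 ∧ x 0 ≤ s} = ENNReal.ofReal s := by
  have hK : MeasurableSet (cube (n + 2)) := (isClosed_box _ _).measurableSet
  have h1 := unif_cube_box2 (n := n) (a := -s) (b := s) (a' := -1) (b' := 1) (by linarith) hs1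
    (by linarith) le_rfl le_rfl (by norm_num)
  have h2 : unif (cube (n + 2)) {x | - s ≤ x 0 ∧ x 0 ≤ s}
      = unif (cube (n + 2)) {x | x 0 ∈ Icc (-s) s ∧ x 1 ∈ Icc (-1 : ℝ) 1} := by
    apply measure_congr
    filter_upwards [unif_mem hK] with x hx
    apply propext
    change (- s ≤ x 0 ∧ x 0 ≤ s) ↔ (x 0 ∈ Icc (-s) s ∧ x 1 ∈ Icc (-1 : ℝ) 1)
    exact ⟨fun h => ⟨h, hx 1⟩, fun h => h.1⟩
  rw [h2, h1]
  congr 1
  ring

lemma lower_of_set {T S : E (n + 2) → E (n + 2)} (hT : Measurable T) (hS : Measurable S)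
    (hT1 : ∀ x, ‖T x‖ ≤ 1) (hS1 : ∀ x, ‖S x‖ ≤ 1) {B : Set (E (n + 2))} (hB : MeasurableSet B)
    (h1 : ∀ x ∈ B, x ∈ cube (n + 2) → 1 ≤ ‖T x - S x‖ ^ 2) :
    (unif (cube (n + 2))).real B ≤ ∫ x, ‖T x - S x‖ ^ 2 ∂(unif (cube (n + 2))) := by
  have hK : MeasurableSet (cube (n + 2)) := (isClosed_box _ _).measurableSet
  have hDint : Integrable (fun x => ‖T x - S x‖ ^ 2) (unif (cube (n + 2))) := by
    refine integrable_of_ae_bound (C := 4) ?_ ?_
    · exact ((hT.sub hS).norm.pow_const 2).aestronglyMeasurable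
    · refine Filter.Eventually.of_forall fun x => ?_
      rw [abs_of_nonneg (by positivity)]
      have := norm_sub_le (T x) (S x)
      nlinarith [norm_nonneg (T x - S x), hT1 x, hS1 x]
  calc (unif (cube (n + 2))).real B
      = ∫ x, B.indicator (fun _ => (1 : ℝ)) x ∂(unif (cube (n + 2))) := by
        rw [integral_indicator_const _ hB]; simp
    _ ≤ _ := by
        apply integral_mono_ae ((integrable_const (1 : ℝ)).indicator hB) hDint
        filter_upwards [unif_mem hK] with x hx
        by_cases hxB : x ∈ B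
        · rw [indicator_of_mem hxB]; exact h1 x hxB hx
        · rw [indicator_of_notMem hxB]; positivity

lemma norm_T3_le {f : E (n + 2) → ℝ} {v : E (n + 2)} (hv : ‖v‖ ≤ 1) (x : E (n + 2)) :
    ‖T3 f v x‖ ≤ 1 := by
  unfold T3; split_ifs
  · simp [norm_e1]
  · exact hv
  · simp [norm_e1]

lemma probOn_map_T3 {f : E (n + 2) → ℝ} {v : E (n + 2)} (hf : Measurable f) (hv : ‖v‖ ≤ 1) :
    ProbOn (Metric.closedBall 0 1) ((unif (cube (n + 2))).map (T3 f v)) := by
  refine ⟨Measure.isProbabilityMeasure_map (measurable_T3 hf v).aemeasurable, ?_⟩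
  rw [Measure.map_apply (measurable_T3 hf v) Metric.isClosed_closedBall.measurableSet.compl]
  convert measure_empty (μ := unif (cube (n + 2)))
  ext x
  simpa using norm_T3_le (f := f) hv x

/-- lower bound for the distance of the two maps -/
lemma lower_T3 {t m : ℝ} (ht0 : 0 < t) (ht : t ≤ 1 / 2) (hm0 : 0 ≤ m)
    {f g : E (n + 2) → ℝ} (hfm : Measurable f) (hgm : Measurable g) {v : E (n + 2)}
    (hnv : ‖v‖ = t) (hv : v = t • e2) (hf : ∀ x, f x = m) (hg : ∀ x, g x = t + t * x 1) :
    t / 32 ≤ ∫ x, ‖T3 f 0 x - T3 g v x‖ ^ 2 ∂(unif (cube (n + 2))) := by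
  have h0 := measurable_coord (d := n + 2) 0
  have mbox : ∀ a b a' b' : ℝ, MeasurableSet {x : E (n + 2) | x 0 ∈ Icc a b ∧ x 1 ∈ Icc a' b'} := by
    intro a b a' b'
    exact (h0 measurableSet_Icc).inter ((measurable_coord (d := n + 2) 1) measurableSet_Icc)
  have hT := measurable_T3 hfm 0
  have hS := measurable_T3 hgm v
  have hT1 : ∀ x, ‖T3 f 0 x‖ ≤ 1 := norm_T3_le (by simp)
  have hS1 : ∀ x, ‖T3 g v x‖ ≤ 1 := norm_T3_le (by rw [hnv]; linarith)
  have hie : ⟪(e1 : E (n + 2)), v⟫ = 0 := by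
    rw [hv, inner_smul_right, inner_e2]; simp [e1]
  rcases le_or_gt m t with hmt | hmt
  · have hB := lower_of_set hT hS hT1 hS1
      (mbox (5 / 4 * t) (3 / 2 * t) (1 / 2 : ℝ) 1) (by
        rintro x ⟨⟨h1, h2⟩, ⟨h3, h4⟩⟩ hx
        have a1 : T3 f 0 x = e1 := T3_right (by rw [hf]; linarith) (by rw [hf]; linarith)
        have a2 : T3 g v x = v := T3_mid (by rw [hg]; nlinarith) (by rw [hg]; nlinarith)
        rw [a1, a2, norm_sub_sq_real, norm_e1, hnv, hie]
        nlinarith [sq_nonneg t])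
    rw [Measure.real, unif_cube_box2 (by linarith) (by linarith) (by linarith) (by norm_num)
      le_rfl (by norm_num), ENNReal.toReal_ofReal (by nlinarith)] at hB
    refine le_trans (le_of_eq ?_) hB
    ring
  · have hB := lower_of_set hT hS hT1 hS1
      (mbox (3 / 4 * t) t (-1 : ℝ) (-1 / 2)) (by
        rintro x ⟨⟨h1, h2⟩, ⟨h3, h4⟩⟩ hx
        have a1 : T3 f 0 x = 0 := T3_mid (by rw [hf]; linarith) (by rw [hf]; linarith)
        have a2 : T3 g v x = e1 := T3_right (by rw [hg]; nlinarith) (by rw [hg]; nlinarith)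
        rw [a1, a2]
        simp [norm_e1])
    rw [Measure.real, unif_cube_box2 (by linarith) (by linarith) (by linarith) le_rfl
      (by norm_num) (by norm_num), ENNReal.toReal_ofReal (by nlinarith)] at hB
    refine le_trans (le_of_eq ?_) hB
    ring

/-- the cubic-cost family of examples -/
theorem example_bound {t : ℝ} (ht0 : 0 < t) (ht : t ≤ 1 / 2) :
    ∃ μ ν : Measure (E (n + 2)), ProbOn (Metric.closedBall 0 1) μ ∧
      ProbOn (Metric.closedBall 0 1) ν ∧
      ∃ T S : E (n + 2) → E (n + 2), IsOptimalMap (unif (cube (n + 2))) μ T ∧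
        IsOptimalMap (unif (cube (n + 2))) ν S ∧
        t / 32 ≤ ∫ x, ‖T x - S x‖ ^ 2 ∂(unif (cube (n + 2))) ∧
        0 ≤ W2 μ ν ∧ W2 μ ν ^ 2 ≤ 2 * t ^ 3 := by
  set K := cube (n + 2) with hKdef
  set ρ := unif K with hρ
  have hK : MeasurableSet K := (isClosed_box _ _).measurableSet
  have hmem : ∀ᵐ x ∂ρ, x ∈ K := unif_mem hK
  have h0 := measurable_coord (d := n + 2) 0
  set v : E (n + 2) := t • e2 with hv
  have hnv : ‖v‖ = t := by rw [hv, norm_smul, norm_e2, mul_one, Real.norm_of_nonneg ht0.le]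
  have hiv : ∀ x : E (n + 2), ⟪x, v⟫ = t * x 1 := by
    intro x; rw [hv, inner_smul_right, inner_e2]
  set g : E (n + 2) → ℝ := fun x => t + ⟪x, v⟫ with hg
  have hgm : Measurable g := measurable_const.add (Measurable.inner measurable_id measurable_const)
  have hgx : ∀ x, g x = t + t * x 1 := by intro x; simp only [hg, hiv]
  have hgpos : ∀ x ∈ K, 0 ≤ g x := by
    intro x hx
    have := (hx 1).1
    rw [hgx]
    nlinarith
  have hgle : ∀ x ∈ K, g x ≤ 2 * t := by
    intro x hx
    have := (hx 1).2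
    rw [hgx]
    nlinarith
  set m : ℝ := ρ.real {x | - g x ≤ x 0 ∧ x 0 ≤ g x} with hm
  have hm0 : 0 ≤ m := measureReal_nonneg
  have hm2 : m ≤ 2 * t := by
    have h1 : ρ {x | - g x ≤ x 0 ∧ x 0 ≤ g x} ≤ ρ {x | - (2 * t) ≤ x 0 ∧ x 0 ≤ 2 * t} := by
      apply measure_mono_ae
      filter_upwards [hmem] with x hx h
      change - (2 * t) ≤ x 0 ∧ x 0 ≤ 2 * t
      have h2 : - g x ≤ x 0 ∧ x 0 ≤ g x := h
      have h3 := hgle x hx
      exact ⟨by linarith [h2.1], by linarith [h2.2]⟩
    rw [unif_strip (by linarith) (by linarith)] at h1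
    have h2 := ENNReal.toReal_mono ENNReal.ofReal_ne_top h1
    rwa [ENNReal.toReal_ofReal (by linarith)] at h2
  have hm1 : m ≤ 1 := by linarith
  set f : E (n + 2) → ℝ := fun x => m + ⟪x, (0 : E (n + 2))⟫ with hf
  have hfm : Measurable f := measurable_const.add (Measurable.inner measurable_id measurable_const)
  have hfx : ∀ x, f x = m := by intro x; simp [hf]
  have he1 : (e1 : E (n + 2)) ≠ 0 := by
    intro h; have := norm_e1 (n := n); rw [h, norm_zero] at this; exact zero_ne_one this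
  have he1v : v ≠ e1 := by
    intro h; have h1 := norm_e1 (n := n); rw [← h, hnv] at h1; linarith
  have he1v' : v ≠ -e1 := by
    intro h; have h1 := norm_e1 (n := n); rw [← norm_neg, ← h, hnv] at h1; linarith
  -- optimal maps
  have optT : IsOptimalMap ρ (ρ.map (T3 f 0)) (T3 f 0) :=
    opt_T3 hm0 (by simp) (Ne.symm he1) (by simpa using he1)
      (fun x _ => by simpa using hm0)
  have optS : IsOptimalMap ρ (ρ.map (T3 g v)) (T3 g v) :=
    opt_T3 ht0.le (by rw [hnv]; linarith) he1v he1v' hgpos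
  have massf := mass_T3 hfm (fun x _ => by rw [hfx]; exact hm0) (fun x => by rw [hfx, hfx])
  have massg := mass_T3 hgm hgpos (fun x => by
    rw [hgx, hgx, refl0_ne x (by simp : (1 : Fin (n + 2)) ≠ 0)])
  have hmidf : ρ.real {x | - f x ≤ x 0 ∧ x 0 ≤ f x} = m := by
    simp only [hfx]
    rw [Measure.real, unif_strip hm0 hm1, ENNReal.toReal_ofReal hm0]
  set a : ℝ≥0∞ := ρ {x | x 0 < - f x} with ha
  set b : ℝ≥0∞ := ρ {x | - f x ≤ x 0 ∧ x 0 ≤ f x} with hb
  have toE : ∀ A B : Set (E (n + 2)), ρ.real A = ρ.real B → ρ A = ρ B := by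
    intro A B h
    exact (ENNReal.toReal_eq_toReal_iff' (measure_ne_top _ _) (measure_ne_top _ _)).1 h
  have hlg : ρ {x | x 0 < - g x} = a := toE _ _ (by linarith [massf.1, massg.1])
  have hbg : ρ {x | - g x ≤ x 0 ∧ x 0 ≤ g x} = b := toE _ _ (by linarith)
  have hrf : ρ {x | - f x ≤ x 0 ∧ f x < x 0} = a := toE _ _ massf.2
  have hrg : ρ {x | - g x ≤ x 0 ∧ g x < x 0} = a := by rw [← hlg]; exact toE _ _ massg.2
  have hμ : ρ.map (T3 f 0) = a • Measure.dirac (-e1) + b • Measure.dirac 0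
      + a • Measure.dirac e1 := by
    rw [map_T3 hfm, hrf]
  have hν : ρ.map (T3 g v) = a • Measure.dirac (-e1) + b • Measure.dirac v
      + a • Measure.dirac e1 := by
    rw [map_T3 hgm, hrg, hlg, hbg]
  have hW : W2 (ρ.map (T3 f 0)) (ρ.map (T3 g v)) ≤ Real.sqrt (m * t ^ 2) := by
    rw [hμ, hν, ← hnv, ← hmidf]
    exact W2_three (measure_ne_top _ _) (measure_ne_top _ _) _ _ _
  have hW2 : W2 (ρ.map (T3 f 0)) (ρ.map (T3 g v)) ^ 2 ≤ 2 * t ^ 3 := by
    have h1 : W2 (ρ.map (T3 f 0)) (ρ.map (T3 g v)) ^ 2 ≤ Real.sqrt (m * t ^ 2) ^ 2 :=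
      pow_le_pow_left₀ (W2_nonneg _ _) hW 2
    rw [Real.sq_sqrt (by positivity)] at h1
    nlinarith [sq_nonneg t]
  exact ⟨_, _, probOn_map_T3 hfm (by simp), probOn_map_T3 hgm (by rw [hnv]; linarith),
    _, _, optT, optS, lower_T3 ht0 ht hm0 hfm hgm hnv hv hfx hgx, W2_nonneg _ _, hW2⟩

/-- **No exponent above `1/3` is admissible**, in any dimension `d ≥ 2`. -/
theorem not_admissible {d : ℕ} (hd : 2 ≤ d) {α : ℝ} (hα : 1 / 3 < α) : ¬ Admissible d α := by
  obtain ⟨n, rfl⟩ := Nat.exists_eq_add_of_le' hd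
  intro h
  obtain ⟨C, hC⟩ := h (cube (n + 2)) (Metric.closedBall 0 1) (isCompact_box _ _) (convex_cube _)
    (interior_cube _) (isCompact_closedBall _ _) ⟨0, by simp⟩
  have key : ∀ t : ℝ, 0 < t → t ≤ 1 / 2 → 1 / 32 ≤ C ^ 2 * 2 ^ α * t ^ (3 * α - 1) := by
    intro t ht0 ht
    obtain ⟨μ, ν, hμ, hν, T, S, hT, hS, hD, hW0, hW⟩ := example_bound (n := n) ht0 ht
    have h1 := hC μ ν hμ hν T S hT hS
    have h2 : ∫ x, ‖T x - S x‖ ^ 2 ∂(unif (cube (n + 2))) ≤ (C * W2 μ ν ^ α) ^ 2 := by
      have h3 : (0 : ℝ) ≤ ∫ x, ‖T x - S x‖ ^ 2 ∂(unif (cube (n + 2))) :=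
        integral_nonneg fun x => by positivity
      rw [← Real.sq_sqrt h3]
      exact pow_le_pow_left₀ (Real.sqrt_nonneg _) h1 2
    have h4 : (C * W2 μ ν ^ α) ^ 2 = C ^ 2 * (W2 μ ν ^ 2) ^ α := by
      rw [mul_pow]
      congr 1
      rw [← Real.rpow_natCast, ← Real.rpow_natCast, ← Real.rpow_mul hW0, ← Real.rpow_mul hW0,
        mul_comm]
    have h5 : (W2 μ ν ^ 2) ^ α ≤ (2 * t ^ 3) ^ α :=
      Real.rpow_le_rpow (by positivity) hW (by linarith)
    have h6 : (2 * t ^ 3) ^ α = 2 ^ α * t ^ (3 * α) := by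
      rw [Real.mul_rpow (by norm_num) (by positivity), ← Real.rpow_natCast,
        ← Real.rpow_mul ht0.le]
      norm_num
    have h7 : t ^ (3 * α) = t ^ (3 * α - 1) * t := by
      rw [← Real.rpow_add_one ht0.ne']
      congr 1
      ring
    have h8 : t / 32 ≤ C ^ 2 * (2 ^ α * (t ^ (3 * α - 1) * t)) := by
      calc t / 32 ≤ _ := hD
        _ ≤ _ := h2
        _ = _ := h4
        _ ≤ C ^ 2 * (2 * t ^ 3) ^ α := by gcongr
        _ = _ := by rw [h6, h7]
    have h9 : t * (1 / 32) ≤ t * (C ^ 2 * 2 ^ α * t ^ (3 * α - 1)) := by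
      linarith
    exact le_of_mul_le_mul_left h9 ht0
  have hlim : Filter.Tendsto (fun t : ℝ => C ^ 2 * 2 ^ α * t ^ (3 * α - 1)) (nhdsWithin 0 (Ioi 0))
      (nhds 0) := by
    have h1 : Filter.Tendsto (fun t : ℝ => t ^ (3 * α - 1)) (nhdsWithin 0 (Ioi 0)) (nhds 0) := by
      have := (Real.continuousAt_rpow_const 0 (3 * α - 1) (Or.inr (by linarith))).tendsto
      rw [Real.zero_rpow (by linarith)] at this
      exact this.mono_left nhdsWithin_le_nhds
    simpa using h1.const_mul (C ^ 2 * 2 ^ α)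
  have hev : ∀ᶠ t in nhdsWithin (0 : ℝ) (Ioi 0), (1 / 32 : ℝ) ≤ C ^ 2 * 2 ^ α * t ^ (3 * α - 1) := by
    filter_upwards [Ioo_mem_nhdsGT (show (0 : ℝ) < 1 / 2 by norm_num)] with t ht
    exact key t ht.1 ht.2.le
  have := ge_of_tendsto hlim hev
  norm_num at this

end

end Vale.Agent.P074
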