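import Mathlib
import Vale.Agent.P074.LagBasic
import Vale.Agent.P074.OptSuff
import Vale.Agent.P074.PL
import Vale.Agent.P074.Upper

open MeasureTheory Set Filter Topology
open scoped RealInnerProductSpace ENNReal NNReal

namespace Vale.Agent.P074

variable {d : ℕ}

/-- strongly concave weight -/
noncomputable def om (R : ℝ) (x : E d) : ℝ := 9 * R ^ 2 - ‖x‖ ^ 2

lemma om_combo (R : ℝ) (x y : E d) (s : ℝ) :
    om R ((1 - s) • x + s • y) = (1 - s) * om R x + s * om R y + s * (1 - s) * ‖x - y‖ ^ 2 := by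
  unfold om
  have h1 : ‖(1 - s) • x + s • y‖ ^ 2 = (1 - s) ^ 2 * ‖x‖ ^ 2 + 2 * ((1 - s) * s * ⟪x, y⟫)
      + s ^ 2 * ‖y‖ ^ 2 := by
    rw [norm_add_sq_real, norm_smul, norm_smul, inner_smul_left, inner_smul_right]
    simp only [Real.norm_eq_abs, mul_pow, sq_abs, RCLike.conj_to_real]
    ring
  rw [h1, norm_sub_sq_real]
  ring

lemma om_le (R : ℝ) (x : E d) : om R x ≤ 9 * R ^ 2 := by
  unfold om; nlinarith [sq_nonneg ‖x‖]

lemma om_ge {R : ℝ} {x : E d} (hx : ‖x‖ ≤ R) : 8 * R ^ 2 ≤ om R x := by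
  unfold om
  have := norm_nonneg x
  nlinarith [mul_self_le_mul_self this hx]

lemma continuous_om (R : ℝ) : Continuous (om R : E d → ℝ) := by
  unfold om; fun_prop

lemma om_sub_le {R : ℝ} {x y : E d} (hx : ‖x‖ ≤ R) (hy : ‖y‖ ≤ R) :
    om R x - om R y ≤ 2 * R * ‖x - y‖ := by
  unfold om
  have h1 : ‖y‖ - ‖x‖ ≤ ‖x - y‖ := by
    rw [norm_sub_rev]; exact norm_sub_norm_le y x
  have h2 : 0 ≤ ‖x - y‖ := norm_nonneg _
  have h3 := norm_nonneg x
  have h4 := norm_nonneg y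
  by_cases h : ‖y‖ ≤ ‖x‖
  · have h5 : ‖y‖ ^ 2 ≤ ‖x‖ ^ 2 := by gcongr
    have h6 : 0 ≤ R := h3.trans hx
    have : 0 ≤ 2 * R * ‖x - y‖ := by positivity
    linarith
  · push Not at h
    have h5 : (‖y‖ - ‖x‖) * (‖y‖ + ‖x‖) ≤ ‖x - y‖ * (2 * R) :=
      mul_le_mul h1 (by linarith) (by positivity) h2
    nlinarith

/-- modified weight on the target side -/
noncomputable def gt (R η s : ℝ) (q y : E d) : ℝ :=
  om R y + (1 - s) * (‖q - y‖ ^ 2 - 4 * R * η)

lemma continuous_gt (R η s : ℝ) (q : E d) : Continuous (gt R η s q) := by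
  unfold gt
  have := continuous_om (d := d) R
  fun_prop

lemma gt_ge {R η s : ℝ} (hR : 1 ≤ R) (hη0 : 0 ≤ η) (hη : η ≤ 1 / 8) (hs0 : 0 ≤ s) (hs1 : s ≤ 1)
    {q y : E d} (hy : ‖y‖ ≤ R) : 7 * R ^ 2 ≤ gt R η s q y := by
  unfold gt
  have h1 := om_ge hy
  have h2 : (1 - s) * (4 * R * η) ≤ R ^ 2 := by
    have : (1 - s) * (4 * R * η) ≤ 1 * (4 * R * η) := by gcongr; linarith
    nlinarith
  have h3 : 0 ≤ (1 - s) * ‖q - y‖ ^ 2 := by
    apply mul_nonneg (by linarith) (sq_nonneg _)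
  nlinarith

lemma gt_le {R η s : ℝ} (hR : 1 ≤ R) (hη0 : 0 ≤ η) (hs0 : 0 ≤ s) (hs1 : s ≤ 1)
    {q y : E d} (hq : ‖q‖ ≤ R) (hy : ‖y‖ ≤ R) : gt R η s q y ≤ 13 * R ^ 2 := by
  unfold gt
  have h1 := om_le R y
  have h2 : 0 ≤ (1 - s) * (4 * R * η) := by
    apply mul_nonneg (by linarith); positivity
  have h0 : ‖q - y‖ ≤ 2 * R := (norm_sub_le _ _).trans (by linarith)
  have h3 : ‖q - y‖ ^ 2 ≤ 4 * R ^ 2 := by
    calc ‖q - y‖ ^ 2 ≤ (2 * R) ^ 2 := by gcongr
      _ = _ := by ring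
  have h4 : (1 - s) * ‖q - y‖ ^ 2 ≤ 1 * (4 * R ^ 2) := by
    apply mul_le_mul (by linarith) h3 (sq_nonneg _) zero_le_one
  nlinarith

/-- pointwise inequality behind Prékopa–Leindler -/
lemma pl_pointwise {R η s : ℝ} (hR : 1 ≤ R) (hη0 : 0 ≤ η) (hη : η ≤ 1 / 8) (hs0 : 0 < s)
    (hs1 : s < 1) {q x y : E d} (hq : ‖q‖ ≤ R) (hx : ‖x‖ ≤ R) (hy : ‖y‖ ≤ R)
    (hxq : ‖x - q‖ ≤ η) :
    om R x ^ (1 - s) * gt R η s q y ^ s ≤ om R ((1 - s) • x + s • y) := by
  have hg := gt_ge (q := q) hR hη0 hη hs0.le hs1.le hy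
  have ho := om_ge hx
  have hR2 : 0 < R ^ 2 := by positivity
  have h1 := Real.geom_mean_le_arith_mean2_weighted (w₁ := 1 - s) (w₂ := s) (p₁ := om R x)
    (p₂ := gt R η s q y) (by linarith) hs0.le (by linarith) (by linarith) (by linarith)
  refine h1.trans ?_
  rw [om_combo]
  unfold gt
  have h2 : ‖q - y‖ ≤ ‖x - q‖ + ‖x - y‖ := by
    calc ‖q - y‖ = ‖(q - x) + (x - y)‖ := by congr 1; abel
      _ ≤ ‖q - x‖ + ‖x - y‖ := norm_add_le _ _
      _ = _ := by rw [norm_sub_rev q x]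
  have h0 : ‖q - y‖ ≤ 2 * R := (norm_sub_le _ _).trans (by linarith)
  have h3 : ‖q - y‖ ^ 2 - 4 * R * η ≤ ‖x - y‖ ^ 2 := by
    by_cases h : ‖q - y‖ ≤ η
    · have : ‖q - y‖ ^ 2 ≤ 2 * R * η := by
        rw [sq]; exact mul_le_mul h0 h (norm_nonneg _) (by linarith)
      nlinarith [sq_nonneg ‖x - y‖, mul_nonneg (by linarith : 0 ≤ R) hη0]
    · push Not at h
      have h4 : ‖q - y‖ - η ≤ ‖x - y‖ := by linarith
      have h5 : (‖q - y‖ - η) ^ 2 ≤ ‖x - y‖ ^ 2 := by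
        apply pow_le_pow_left₀ (by linarith) h4
      nlinarith
  have h4 : s * (1 - s) * (‖q - y‖ ^ 2 - 4 * R * η) ≤ s * (1 - s) * ‖x - y‖ ^ 2 := by
    apply mul_le_mul_of_nonneg_left h3
    apply mul_nonneg hs0.le (by linarith)
  nlinarith

/-- integrals against `unif K` in terms of Lebesgue integrals of indicators -/
lemma unif_setIntegral {K S : Set (E d)} (hS : MeasurableSet S) (F : E d → ℝ) :
    ∫ x in S, F x ∂(unif K) = (volume.real K)⁻¹ * ∫ x in S ∩ K, F x := by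
  unfold unif
  rw [Measure.restrict_smul, integral_smul_measure, Measure.restrict_restrict hS, smul_eq_mul,
    ENNReal.toReal_inv]
  rfl

lemma lintegral_ind {A : Set (E d)} (hA : MeasurableSet A) {F : E d → ℝ}
    (hF : IntegrableOn F A) (hF0 : ∀ x ∈ A, 0 ≤ F x) :
    ∫⁻ x, A.indicator (fun x => ENNReal.ofReal (F x)) x = ENNReal.ofReal (∫ x in A, F x) := by
  rw [lintegral_indicator hA, ofReal_integral_eq_lintegral_ofReal hF]
  filter_upwards [ae_restrict_mem hA] with x hx using hF0 x hx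

/-- Prékopa–Leindler for one pair of cells. -/
lemma pl_cell {K : Set (E d)} (hK : IsCompact K) (hKc : Convex ℝ K) {R η s : ℝ}
    (hR : 1 ≤ R) (hKR : ∀ x ∈ K, ‖x‖ ≤ R) (hη0 : 0 ≤ η) (hη : η ≤ 1 / 8) (hs0 : 0 < s)
    (hs1 : s < 1) {q : E d} (hq : ‖q‖ ≤ R) {P Q S : Set (E d)} (hP : MeasurableSet P)
    (hQ : MeasurableSet Q) (hS : MeasurableSet S) (hPq : ∀ x ∈ P, x ∈ K → ‖x - q‖ ≤ η)
    (hPQ : ∀ x ∈ P, ∀ y ∈ Q, (1 - s) • x + s • y ∈ S) :
    (∫ x in P ∩ K, om R x) ^ (1 - s) * (∫ y in Q ∩ K, gt R η s q y) ^ s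
      ≤ ∫ x in S ∩ K, om R x := by
  have hKm : MeasurableSet K := hK.measurableSet
  have hbd : ∀ {F : E d → ℝ}, Continuous F → ∀ A : Set (E d), IntegrableOn F (A ∩ K) :=
    fun {F} hF A => (hF.continuousOn.integrableOn_compact hK).mono_set inter_subset_right
  have ho : ∀ x ∈ K, 0 ≤ om R x := fun x hx => by
    have := om_ge (hKR x hx); nlinarith
  have hg : ∀ x ∈ K, 0 ≤ gt R η s q x := fun x hx => by
    have := gt_ge (q := q) hR hη0 hη hs0.le hs1.le (hKR x hx); nlinarith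
  have hI1 := lintegral_ind (hP.inter hKm) (hbd (continuous_om R) P) fun x hx => ho x hx.2
  have hI2 := lintegral_ind (hQ.inter hKm) (hbd (continuous_gt R η s q) Q) fun x hx => hg x hx.2
  have hI3 := lintegral_ind (hS.inter hKm) (hbd (continuous_om R) S) fun x hx => ho x hx.2
  have key := prekopa_leindler hs0 hs1
    (f := (P ∩ K).indicator (fun x => ENNReal.ofReal (om R x)))
    (g := (Q ∩ K).indicator (fun x => ENNReal.ofReal (gt R η s q x)))
    (h := (S ∩ K).indicator (fun x => ENNReal.ofReal (om R x)))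
    ((continuous_om R).measurable.ennreal_ofReal.indicator (hP.inter hKm))
    ((continuous_gt R η s q).measurable.ennreal_ofReal.indicator (hQ.inter hKm))
    ((continuous_om R).measurable.ennreal_ofReal.indicator (hS.inter hKm))
    ⟨(9 * R ^ 2).toNNReal, R, fun x => ?_⟩ ⟨(13 * R ^ 2).toNNReal, R, fun x => ?_⟩ ?_
  · rw [hI1, hI2, hI3] at key
    have p1 : 0 ≤ ∫ x in P ∩ K, om R x :=
      setIntegral_nonneg (hP.inter hKm) fun x hx => ho x hx.2
    have p2 : 0 ≤ ∫ x in Q ∩ K, gt R η s q x :=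
      setIntegral_nonneg (hQ.inter hKm) fun x hx => hg x hx.2
    have p3 : 0 ≤ ∫ x in S ∩ K, om R x :=
      setIntegral_nonneg (hS.inter hKm) fun x hx => ho x hx.2
    rw [ENNReal.ofReal_rpow_of_nonneg p1 (by linarith), ENNReal.ofReal_rpow_of_nonneg p2 hs0.le,
      ← ENNReal.ofReal_mul (by positivity), ENNReal.ofReal_le_ofReal_iff p3] at key
    exact key
  · by_cases hx : x ∈ P ∩ K
    · rw [indicator_of_mem hx, indicator_of_mem (by simpa using hKR x hx.2)]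
      exact ENNReal.ofReal_le_ofReal (om_le R x)
    · rw [indicator_of_notMem hx]; exact zero_le
  · by_cases hx : x ∈ Q ∩ K
    · rw [indicator_of_mem hx, indicator_of_mem (by simpa using hKR x hx.2)]
      exact ENNReal.ofReal_le_ofReal (gt_le hR hη0 hs0.le hs1.le hq (hKR x hx.2))
    · rw [indicator_of_notMem hx]; exact zero_le
  · intro x y
    by_cases hx : x ∈ P ∩ K
    · by_cases hy : y ∈ Q ∩ K
      · have hz : (1 - s) • x + s • y ∈ S ∩ K :=
          ⟨hPQ x hx.1 y hy.1, hKc hx.2 hy.2 (by linarith) hs0.le (by linarith)⟩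
        rw [indicator_of_mem hx, indicator_of_mem hy, indicator_of_mem hz,
          ENNReal.ofReal_rpow_of_nonneg (ho x hx.2) (by linarith),
          ENNReal.ofReal_rpow_of_nonneg (hg y hy.2) hs0.le,
          ← ENNReal.ofReal_mul (Real.rpow_nonneg (ho x hx.2) _)]
        exact ENNReal.ofReal_le_ofReal (pl_pointwise hR hη0 hη hs0 hs1 hq (hKR x hx.2)
          (hKR y hy.2) (hPq x hx.1 hx.2))
      · rw [indicator_of_notMem hy, ENNReal.zero_rpow_of_pos hs0, mul_zero]; exact zero_le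
    · rw [indicator_of_notMem hx, ENNReal.zero_rpow_of_pos (by linarith), zero_mul]
      exact zero_le

end Vale.Agent.P074
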