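import Mathlib
import Vale.Agent.P074.MLa

open MeasureTheory Set Filter Topology
open scoped RealInnerProductSpace ENNReal NNReal

namespace Vale.Agent.P074

variable {d : ℕ}

lemma integrable_unif {K : Set (E d)} (hK : IsCompact K) (hK0 : volume K ≠ 0) {F : E d → ℝ}
    (hF : Measurable F) {B : ℝ} (hB : ∀ x ∈ K, |F x| ≤ B) : Integrable F (unif K) := by
  have := isProb_unif hK0 hK.measure_lt_top.ne
  refine integrable_of_ae_bound (C := B) hF.aestronglyMeasurable ?_
  filter_upwards [unif_mem hK.measurableSet] with x hx using hB x hx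

lemma pl_cell_unif {K : Set (E d)} (hK : IsCompact K) (hKc : Convex ℝ K) (hK0 : volume K ≠ 0)
    {R η s : ℝ}
    (hR : 1 ≤ R) (hKR : ∀ x ∈ K, ‖x‖ ≤ R) (hη0 : 0 ≤ η) (hη : η ≤ 1 / 8) (hs0 : 0 < s)
    (hs1 : s < 1) {q : E d} (hq : ‖q‖ ≤ R) {P Q S : Set (E d)} (hP : MeasurableSet P)
    (hQ : MeasurableSet Q) (hS : MeasurableSet S) (hPq : ∀ x ∈ P, x ∈ K → ‖x - q‖ ≤ η)
    (hPQ : ∀ x ∈ P, ∀ y ∈ Q, (1 - s) • x + s • y ∈ S) :
    (∫ x in P, om R x ∂(unif K)) ^ (1 - s) * (∫ y in Q, gt R η s q y ∂(unif K)) ^ s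
      ≤ ∫ x in S, om R x ∂(unif K) := by
  have key := pl_cell hK hKc hR hKR hη0 hη hs0 hs1 hq hP hQ hS hPq hPQ
  have hKm : MeasurableSet K := hK.measurableSet
  have p1 : 0 ≤ ∫ x in P ∩ K, om R x :=
    setIntegral_nonneg (hP.inter hKm) fun x hx => by
      have := om_ge (hKR x hx.2); nlinarith
  have p2 : 0 ≤ ∫ x in Q ∩ K, gt R η s q x :=
    setIntegral_nonneg (hQ.inter hKm) fun x hx => by
      have := gt_ge (q := q) hR hη0 hη hs0.le hs1.le (hKR x hx.2); nlinarith
  rw [unif_setIntegral hP, unif_setIntegral hQ, unif_setIntegral hS]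
  have hc : 0 < (volume.real K)⁻¹ :=
    inv_pos.2 (ENNReal.toReal_pos hK0 hK.measure_lt_top.ne)
  set c := (volume.real K)⁻¹ with hcdef
  rw [Real.mul_rpow hc.le p1, Real.mul_rpow hc.le p2]
  have h1 : c ^ (1 - s) * c ^ s = c := by
    rw [← Real.rpow_add hc]; simp
  calc c ^ (1 - s) * (∫ x in P ∩ K, om R x) ^ (1 - s) * (c ^ s * (∫ x in Q ∩ K, gt R η s q x) ^ s)
      = (c ^ (1 - s) * c ^ s) *
        ((∫ x in P ∩ K, om R x) ^ (1 - s) * (∫ x in Q ∩ K, gt R η s q x) ^ s) := by ring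
    _ = c * ((∫ x in P ∩ K, om R x) ^ (1 - s) * (∫ x in Q ∩ K, gt R η s q x) ^ s) := by rw [h1]
    _ ≤ _ := mul_le_mul_of_nonneg_left key hc.le

/-- `A^{1-s} B^s ≥ A + s (A - A²/B)` -/
lemma geom_lower {A B s : ℝ} (hA : 0 < A) (hB : 0 < B) (hs : 0 ≤ s) :
    A + s * (A - A ^ 2 / B) ≤ A ^ (1 - s) * B ^ s := by
  have h1 : A ^ (1 - s) * B ^ s = A * (B / A) ^ s := by
    rw [Real.rpow_sub hA, Real.rpow_one, Real.div_rpow hB.le hA.le]
    field_simp
  have hBA : 0 < B / A := div_pos hB hA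
  have h2 : 1 + s * (1 - A / B) ≤ (B / A) ^ s := by
    rw [Real.rpow_def_of_pos hBA]
    have h3 := Real.add_one_le_exp (Real.log (B / A) * s)
    have h4 := Real.one_sub_inv_le_log_of_pos hBA
    rw [inv_div] at h4
    nlinarith
  rw [h1]
  calc A + s * (A - A ^ 2 / B) = A * (1 + s * (1 - A / B)) := by field_simp
    _ ≤ A * (B / A) ^ s := mul_le_mul_of_nonneg_left h2 hA.le

/-- Cauchy–Schwarz in the form we need -/
lemma cs_cell {ρ : Measure (E d)} {θ g : E d → ℝ} (hg : ∀ᵐ x ∂ρ, 0 < g x)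
    (i1 : Integrable θ ρ) (i2 : Integrable g ρ) (i3 : Integrable (fun x => θ x ^ 2 / g x) ρ) :
    (∫ x, θ x ∂ρ) ^ 2 ≤ (∫ x, g x ∂ρ) * ∫ x, θ x ^ 2 / g x ∂ρ := by
  have key : ∀ t : ℝ, 0 ≤ (∫ x, g x ∂ρ) * (t * t) + (- (2 * ∫ x, θ x ∂ρ)) * t
      + ∫ x, θ x ^ 2 / g x ∂ρ := by
    intro t
    have j1 : Integrable (fun x => (t * t) * g x) ρ := i2.const_mul _
    have j2 : Integrable (fun x => (2 * t) * θ x) ρ := i1.const_mul _
    have j3 : Integrable (fun x => (t * t) * g x - (2 * t) * θ x) ρ := j1.sub j2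
    have h1 : 0 ≤ ∫ x, ((t * t) * g x - (2 * t) * θ x + θ x ^ 2 / g x) ∂ρ := by
      apply integral_nonneg_of_ae
      filter_upwards [hg] with x hx
      have : (t * t) * g x - (2 * t) * θ x + θ x ^ 2 / g x = (t * g x - θ x) ^ 2 / g x := by
        field_simp
        ring
      simp only [Pi.zero_apply]
      rw [this]
      positivity
    rw [integral_add j3 i3, integral_sub j1 j2, integral_const_mul, integral_const_mul] at h1
    linarith
  have := discrim_le_zero key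
  unfold discrim at this
  nlinarith

/-- The inequality for one pair of cells. -/
lemma cell_ineq {K : Set (E d)} (hK : IsCompact K) (hKc : Convex ℝ K) (hK0 : volume K ≠ 0)
    {R η s : ℝ}
    (hR : 1 ≤ R) (hKR : ∀ x ∈ K, ‖x‖ ≤ R) (hη0 : 0 ≤ η) (hη : η ≤ 1 / 8) (hs0 : 0 < s)
    (hs1 : s < 1) {q : E d} (hq : ‖q‖ ≤ R) {P Q S : Set (E d)} (hP : MeasurableSet P)
    (hQ : MeasurableSet Q) (hS : MeasurableSet S) (hPq : ∀ x ∈ P, x ∈ K → ‖x - q‖ ≤ η)
    (hPQ : ∀ x ∈ P, ∀ y ∈ Q, (1 - s) • x + s • y ∈ S) {θ : E d → ℝ} (hθ : Measurable θ)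
    (hθb : ∀ x ∈ K, |θ x| ≤ 2)
    (hm : ∫ y in Q, θ y ∂(unif K) = (unif K).real P) :
    (∫ x in P, om R x ∂(unif K)) + s * ((∫ x in P, om R x ∂(unif K))
        - (om R q + 2 * R * η) ^ 2 * ∫ y in Q, θ y ^ 2 / gt R η s q y ∂(unif K))
      ≤ ∫ x in S, om R x ∂(unif K) := by
  have := isProb_unif hK0 hK.measure_lt_top.ne
  have hKm : MeasurableSet K := hK.measurableSet
  have hR2 : 0 < R ^ 2 := by positivity
  have hgp : ∀ x ∈ K, 0 < gt R η s q x := fun x hx => by
    have := gt_ge (q := q) hR hη0 hη hs0.le hs1.le (hKR x hx); nlinarith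
  have hgp' : ∀ᵐ x ∂(unif K), 0 < gt R η s q x := by
    filter_upwards [unif_mem hKm] with x hx using hgp x hx
  have iθ : Integrable θ (unif K) := integrable_unif hK hK0 hθ hθb
  have ig : Integrable (gt R η s q) (unif K) := by
    refine integrable_unif hK hK0 (continuous_gt R η s q).measurable (B := 13 * R ^ 2) ?_
    intro x hx
    rw [abs_of_pos (hgp x hx)]
    exact gt_le hR hη0 hs0.le hs1.le hq (hKR x hx)
  have io : Integrable (om R) (unif K) := by
    refine integrable_unif hK hK0 (continuous_om R).measurable (B := 9 * R ^ 2) ?_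
    intro x hx
    rw [abs_of_nonneg (by have := om_ge (hKR x hx); nlinarith)]
    exact om_le R x
  have iq : Integrable (fun x => θ x ^ 2 / gt R η s q x) (unif K) := by
    refine integrable_unif hK hK0 ((hθ.pow_const 2).div (continuous_gt R η s q).measurable)
      (B := 4) ?_
    intro x hx
    have h1 := gt_ge (q := q) hR hη0 hη hs0.le hs1.le (hKR x hx)
    have h2 := hθb x hx
    rw [abs_of_nonneg (div_nonneg (sq_nonneg _) (hgp x hx).le), div_le_iff₀ (hgp x hx),
      ← sq_abs]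
    have h3 : 1 ≤ gt R η s q x := by nlinarith
    have h4 : |θ x| ^ 2 ≤ 2 ^ 2 := by gcongr
    nlinarith
  have hcs := cs_cell (ρ := (unif K).restrict Q) (θ := θ) (g := gt R η s q)
    (ae_restrict_of_ae hgp') iθ.restrict ig.restrict iq.restrict
  have hpl := pl_cell_unif hK hKc hK0 hR hKR hη0 hη hs0 hs1 hq hP hQ hS hPq hPQ
  have hA0 : 0 ≤ ∫ x in P, om R x ∂(unif K) := by
    apply integral_nonneg_of_ae
    apply ae_restrict_of_ae
    filter_upwards [unif_mem hKm] with x hx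
    have := om_ge (hKR x hx)
    simp only [Pi.zero_apply]
    nlinarith
  have hB0 : 0 ≤ ∫ x in Q, gt R η s q x ∂(unif K) := by
    apply integral_nonneg_of_ae
    apply ae_restrict_of_ae
    filter_upwards [hgp'] with x hx
    exact hx.le
  have hJ0 : 0 ≤ ∫ x in Q, θ x ^ 2 / gt R η s q x ∂(unif K) := by
    apply integral_nonneg_of_ae
    apply ae_restrict_of_ae
    filter_upwards [hgp'] with x hx
    exact div_nonneg (sq_nonneg _) hx.le
  have hAW : ∫ x in P, om R x ∂(unif K) ≤ (om R q + 2 * R * η) * (unif K).real P := by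
    have h1 : ∫ x in P, om R x ∂(unif K) ≤ ∫ x in P, (om R q + 2 * R * η) ∂(unif K) := by
      apply integral_mono_ae io.restrict (integrable_const _)
      filter_upwards [ae_restrict_of_ae (unif_mem hKm), ae_restrict_mem hP] with x hx hxP
      have h2 := om_sub_le (hKR x hx) hq
      have h3 := hPq x hxP hx
      have h4 : 2 * R * ‖x - q‖ ≤ 2 * R * η := by gcongr
      linarith
    rw [setIntegral_const, smul_eq_mul] at h1
    linarith
  set A := ∫ x in P, om R x ∂(unif K) with hA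
  set B := ∫ x in Q, gt R η s q x ∂(unif K) with hB
  set J := ∫ x in Q, θ x ^ 2 / gt R η s q x ∂(unif K) with hJ
  set W := om R q + 2 * R * η with hW
  rw [hm] at hcs
  set m := (unif K).real P with hmdef
  have hm0 : 0 ≤ m := measureReal_nonneg
  have hWJ : 0 ≤ W ^ 2 * J := mul_nonneg (sq_nonneg _) hJ0
  rcases hA0.eq_or_lt with hA1 | hA1
  · rw [← hA1]
    have hS0 : 0 ≤ ∫ x in S, om R x ∂(unif K) := by
      apply integral_nonneg_of_ae
      apply ae_restrict_of_ae
      filter_upwards [unif_mem hKm] with x hx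
      have := om_ge (hKR x hx)
      simp only [Pi.zero_apply]
      nlinarith
    nlinarith
  · have hm1 : 0 < m := by
      rcases hm0.eq_or_lt with h | h
      · rw [← h] at hAW; linarith
      · exact h
    have hB1 : 0 < B := by
      rcases hB0.eq_or_lt with h | h
      · rw [← h] at hcs
        nlinarith
      · exact h
    have h5 : A ^ 2 / B ≤ W ^ 2 * J := by
      rw [div_le_iff₀ hB1]
      have h6 : A ^ 2 ≤ (W * m) ^ 2 := by gcongr
      calc A ^ 2 ≤ (W * m) ^ 2 := h6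
        _ = W ^ 2 * m ^ 2 := by ring
        _ ≤ W ^ 2 * (B * J) := by gcongr
        _ = _ := by ring
    calc A + s * (A - W ^ 2 * J) ≤ A + s * (A - A ^ 2 / B) := by gcongr
      _ ≤ A ^ (1 - s) * B ^ s := geom_lower hA1 hB1 hs0.le
      _ ≤ _ := hpl

end Vale.Agent.P074
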