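import Mathlib
import Vale.Agent.P074.MLb
import Vale.Agent.P074.Semi
import Vale.Agent.P074.MLDef

open MeasureTheory Set Filter Topology
open scoped RealInnerProductSpace ENNReal NNReal

namespace Vale.Agent.P074

variable {d : ℕ}

/-- algebraic core of the pointwise inequality -/
lemma pw_core {R η s a w e : ℝ} (hR : 1 ≤ R) (hη0 : 0 ≤ η) (hη : η ≤ 1 / 8) (hs0 : 0 ≤ s)
    (hs : s ≤ η) (ha : a ≤ 9 * R ^ 2) (hw : 8 * R ^ 2 ≤ w) (he0 : 0 ≤ e)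
    (he : e ≤ 4 * R ^ 2) (hde : (a - w - e) ^ 2 ≤ 4 * R ^ 2 * e) (ha8 : 8 * R ^ 2 ≤ a) :
    (a + 2 * R * η) ^ 2 / (w + (1 - s) * (e - 4 * R * η))
      ≤ w + 2 * (a - w) - e / 2 + 30 * R ^ 2 * η := by
  set g := w + (1 - s) * (e - 4 * R * η) with hg
  set ε := s * e + (1 - s) * (4 * R * η) with hε
  have hgε : g = w + e - ε := by rw [hg, hε]; ring
  have hR2 : 0 < R ^ 2 := by positivity
  have hRR : R ≤ R ^ 2 := by nlinarith
  have hRη : 0 ≤ R * η := by positivity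
  have hR2η : 0 ≤ R ^ 2 * η := by positivity
  have hε0 : 0 ≤ ε := by
    rw [hε]
    apply add_nonneg (mul_nonneg hs0 he0)
    apply mul_nonneg (by linarith) (by linarith)
  have hε1 : ε ≤ 8 * R ^ 2 * η := by
    rw [hε]
    have h1 : s * e ≤ η * (4 * R ^ 2) := mul_le_mul hs he he0 hη0
    have h2 : (1 - s) * (4 * R * η) ≤ 1 * (4 * R * η) := by
      apply mul_le_mul_of_nonneg_right (by linarith) (by linarith)
    have h3 : R * η ≤ R ^ 2 * η := mul_le_mul_of_nonneg_right hRR hη0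
    nlinarith
  have hg7 : 7 * R ^ 2 ≤ g := by
    rw [hgε]
    nlinarith
  have hgpos : 0 < g := by nlinarith
  rw [div_le_iff₀ hgpos]
  -- main part
  have h1 : a ^ 2 ≤ (w + 2 * (a - w) - e / 2) * (w + e) := by nlinarith
  have hu : w + 2 * (a - w) - e / 2 ≤ 10 * R ^ 2 := by nlinarith
  have h2 : (w + 2 * (a - w) - e / 2) * ε ≤ 10 * R ^ 2 * (8 * R ^ 2 * η) := by
    calc (w + 2 * (a - w) - e / 2) * ε ≤ 10 * R ^ 2 * ε := mul_le_mul_of_nonneg_right hu hε0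
      _ ≤ _ := mul_le_mul_of_nonneg_left hε1 (by positivity)
  have h3 : 30 * R ^ 2 * η * (7 * R ^ 2) ≤ 30 * R ^ 2 * η * g :=
    mul_le_mul_of_nonneg_left hg7 (by positivity)
  have h4 : 4 * a * (R * η) ≤ 36 * R ^ 2 * (R ^ 2 * η) := by
    have : a * (R * η) ≤ 9 * R ^ 2 * (R ^ 2 * η) := by
      apply mul_le_mul ha _ hRη (by positivity)
      exact mul_le_mul_of_nonneg_right hRR hη0
    linarith
  have h5 : 4 * (R * η) ^ 2 ≤ R ^ 2 * (R ^ 2 * η) := by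
    have h6 : (R * η) ^ 2 = R ^ 2 * η * η := by ring
    have h7 : R ^ 2 * η * η ≤ R ^ 2 * η * (1 / 8) := mul_le_mul_of_nonneg_left hη hR2η
    have h8 : R ^ 2 * η * 1 ≤ R ^ 2 * η * R ^ 2 := by
      apply mul_le_mul_of_nonneg_left _ hR2η
      nlinarith
    nlinarith
  have h9 : 0 ≤ R ^ 2 * (R ^ 2 * η) := by positivity
  calc (a + 2 * R * η) ^ 2 = a ^ 2 + 4 * a * (R * η) + 4 * (R * η) ^ 2 := by ring
    _ ≤ (w + 2 * (a - w) - e / 2) * (w + e) + 37 * R ^ 2 * (R ^ 2 * η) := by linarith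
    _ ≤ (w + 2 * (a - w) - e / 2) * (w + e) - (w + 2 * (a - w) - e / 2) * ε
        + 30 * R ^ 2 * η * g := by nlinarith
    _ = (w + 2 * (a - w) - e / 2 + 30 * R ^ 2 * η) * g := by rw [hgε]; ring

/-- second algebraic step -/
lemma pw_core2 {R η a w e g : ℝ} (hR : 1 ≤ R) (hη0 : 0 ≤ η) (hw : w ≤ 9 * R ^ 2)
    (he0 : 0 ≤ e) (hd : (a - w) ^ 2 ≤ 4 * R ^ 2 * e) (hg : |g| ≤ 1 / 2) :
    (1 + g) ^ 2 * (w + 2 * (a - w) - e / 2 + 30 * R ^ 2 * η)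
      ≤ - w + 57 * R ^ 2 * g ^ 2 + 2 * a * (1 + g) - e * (1 + g) / 8 + 68 * R ^ 2 * η := by
  obtain ⟨g1, g2⟩ := abs_le.1 hg
  have hR2 : 0 < R ^ 2 := by positivity
  have hR2η : 0 ≤ R ^ 2 * η := by positivity
  set D := a - w with hD
  have ha : a = w + D := by rw [hD]; ring
  rw [ha]
  -- `2 D g ≤ e/8 + 32 R² g²`
  have h1 : 2 * D * g ≤ e / 8 + 32 * R ^ 2 * g ^ 2 := by
    have h2 : 0 ≤ (D - 32 * R ^ 2 * g) ^ 2 := sq_nonneg _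
    have h3 : 64 * R ^ 2 * (D * g) ≤ D ^ 2 + (32 * R ^ 2 * g) ^ 2 := by nlinarith
    have h4 : 64 * R ^ 2 * (D * g) ≤ 32 * R ^ 2 * (e / 8 + 32 * R ^ 2 * g ^ 2) := by nlinarith
    have h5 : 32 * R ^ 2 * (2 * D * g) ≤ 32 * R ^ 2 * (e / 8 + 32 * R ^ 2 * g ^ 2) := by
      nlinarith
    exact le_of_mul_le_mul_left h5 (by positivity)
  have hθ : 0 ≤ 1 + g := by linarith
  have h6 : (1 + g) * (2 * D * g) ≤ (1 + g) * (e / 8 + 32 * R ^ 2 * g ^ 2) :=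
    mul_le_mul_of_nonneg_left h1 hθ
  have h7 : (1 + g) * (32 * R ^ 2 * g ^ 2) ≤ 48 * R ^ 2 * g ^ 2 := by
    have : 0 ≤ R ^ 2 * g ^ 2 := by positivity
    nlinarith
  have h8 : w * g ^ 2 ≤ 9 * R ^ 2 * g ^ 2 := mul_le_mul_of_nonneg_right hw (sq_nonneg _)
  have h9 : (1 + g) ^ 2 * (30 * R ^ 2 * η) ≤ 68 * R ^ 2 * η := by
    have : (1 + g) ^ 2 ≤ 9 / 4 := by nlinarith
    nlinarith
  have h10 : 0 ≤ e * (1 + g) * ((1 + g) / 2 - 1 / 4) := by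
    apply mul_nonneg (mul_nonneg he0 hθ); linarith
  nlinarith

/-- pointwise inequality -/
lemma pw {R η s : ℝ} (hR : 1 ≤ R) (hη0 : 0 ≤ η) (hη : η ≤ 1 / 8) (hs0 : 0 ≤ s)
    (hs : s ≤ η) {q y : E d} (hq : ‖q‖ ≤ R) (hy : ‖y‖ ≤ R) {g : ℝ} (hg : |g| ≤ 1 / 2) :
    (om R q + 2 * R * η) ^ 2 * ((1 + g) ^ 2 / gt R η s q y)
      ≤ - om R y + 57 * R ^ 2 * g ^ 2 + 2 * om R q * (1 + g) - ‖y - q‖ ^ 2 * (1 + g) / 8
        + 68 * R ^ 2 * η := by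
  have hqy : ‖q - y‖ ≤ 2 * R := (norm_sub_le _ _).trans (by linarith)
  have he : ‖q - y‖ ^ 2 ≤ 4 * R ^ 2 := by
    calc ‖q - y‖ ^ 2 ≤ (2 * R) ^ 2 := by gcongr
      _ = _ := by ring
  have hd1 : (om R q - om R y) ^ 2 ≤ 4 * R ^ 2 * ‖q - y‖ ^ 2 := by
    have h1 := om_sub_le hq hy
    have h2 := om_sub_le hy hq
    rw [norm_sub_rev y q] at h2
    have h3 : |om R q - om R y| ≤ 2 * R * ‖q - y‖ := by
      rw [abs_le]; constructor <;> linarith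
    calc (om R q - om R y) ^ 2 = |om R q - om R y| ^ 2 := (sq_abs _).symm
      _ ≤ (2 * R * ‖q - y‖) ^ 2 := by gcongr
      _ = _ := by ring
  have hd2 : (om R q - om R y - ‖q - y‖ ^ 2) ^ 2 ≤ 4 * R ^ 2 * ‖q - y‖ ^ 2 := by
    have h1 : om R q - om R y - ‖q - y‖ ^ 2 = - (2 * ⟪q, q - y⟫) := by
      unfold om
      rw [norm_sub_sq_real, inner_sub_right, real_inner_self_eq_norm_sq]
      ring
    rw [h1]
    have h2 : |⟪q, q - y⟫| ≤ R * ‖q - y‖ :=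
      (abs_real_inner_le_norm _ _).trans (by gcongr)
    calc (-(2 * ⟪q, q - y⟫)) ^ 2 = 4 * |⟪q, q - y⟫| ^ 2 := by rw [sq_abs]; ring
      _ ≤ 4 * (R * ‖q - y‖) ^ 2 := by gcongr
      _ = _ := by ring
  have h1 := pw_core (a := om R q) (w := om R y) (e := ‖q - y‖ ^ 2) hR hη0 hη hs0 hs
    (om_le R q) (om_ge hy) (sq_nonneg _) he hd2 (om_ge hq)
  have h2 := pw_core2 (a := om R q) (w := om R y) (e := ‖q - y‖ ^ 2) (η := η) hR hη0
    (om_le R y) (sq_nonneg _) hd1 hg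
  calc (om R q + 2 * R * η) ^ 2 * ((1 + g) ^ 2 / gt R η s q y)
      = (1 + g) ^ 2 * ((om R q + 2 * R * η) ^ 2 / gt R η s q y) := by ring
    _ ≤ (1 + g) ^ 2 * (om R y + 2 * (om R q - om R y) - ‖q - y‖ ^ 2 / 2 + 30 * R ^ 2 * η) :=
        mul_le_mul_of_nonneg_left h1 (sq_nonneg _)
    _ ≤ _ := by rw [norm_sub_rev y q]; exact h2

end Vale.Agent.P074
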