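import Mathlib
import Vale.Agent.P074.MLc

open MeasureTheory Set Filter Topology
open scoped RealInnerProductSpace ENNReal NNReal

namespace Vale.Agent.P074

variable {d : ℕ} {ι κ : Type*} [Fintype ι] [Nonempty ι] [Fintype κ] [Nonempty κ]

lemma sum2 {ρ : Measure (E d)} (hρ : ρ ≪ volume) {z : ι → E d} (hz : Function.Injective z)
    (ψ : ι → ℝ) {q : κ → E d} (hq : Function.Injective q) (c : ι → κ → ℝ) {F : E d → ℝ}
    (hF : Integrable F ρ) :
    ∑ i, ∑ k, ∫ x in Lag z ψ i ∩ Lag q (c i) k, F x ∂ρ = ∫ x, F x ∂ρ := by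
  rw [← sum_setIntegral_Lag hρ hz ψ hF]
  refine Finset.sum_congr rfl fun i _ => ?_
  have hρi : ρ.restrict (Lag z ψ i) ≪ volume :=
    Measure.restrict_le_self.absolutelyContinuous.trans hρ
  rw [← sum_setIntegral_Lag hρi hq (c i) hF.restrict]
  refine Finset.sum_congr rfl fun k _ => ?_
  rw [Measure.restrict_restrict (measurableSet_Lag q (c i) k), inter_comm]

lemma exists_net {K : Set (E d)} (hK : IsCompact K) (hne : K.Nonempty) {η : ℝ} (hη : 0 < η) :
    ∃ (κ : Type) (_ : Fintype κ) (_ : Nonempty κ) (q : κ → E d), Function.Injective q ∧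
      (∀ k, q k ∈ K) ∧
      ∀ k, ∀ x ∈ Lag q (fun k => ‖q k‖ ^ 2 / 2) k, x ∈ K → ‖x - q k‖ ≤ η := by
  obtain ⟨t, htK, htf, hcov⟩ := hK.finite_cover_balls hη
  have : Fintype t := htf.fintype
  obtain ⟨x₀, hx₀⟩ := hne
  have hne : Nonempty t := by
    obtain ⟨y, hy⟩ := mem_iUnion.1 (hcov hx₀)
    obtain ⟨hy1, _⟩ := mem_iUnion.1 hy
    exact ⟨⟨y, hy1⟩⟩
  refine ⟨t, inferInstance, hne, Subtype.val, Subtype.val_injective, fun k => htK k.2, ?_⟩
  intro k x hx hxK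
  obtain ⟨y, hy⟩ := mem_iUnion.1 (hcov hxK)
  obtain ⟨hy1, hy2⟩ := mem_iUnion.1 hy
  have h1 := hx ⟨y, hy1⟩
  simp only at h1
  have h2 : ‖x - (k : E d)‖ ^ 2 ≤ ‖x - y‖ ^ 2 := by
    rw [norm_sub_sq_real, norm_sub_sq_real]
    linarith
  have h3 : ‖x - (k : E d)‖ ≤ ‖x - y‖ := by
    exact (sq_le_sq₀ (norm_nonneg _) (norm_nonneg _)).1 h2
  have h4 : ‖x - y‖ < η := by
    rw [← dist_eq_norm]; exact hy2
  linarith

lemma unif_ac (K : Set (E d)) : unif K ≪ (volume : Measure (E d)) :=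
  Measure.smul_absolutelyContinuous.trans Measure.restrict_le_self.absolutelyContinuous

/-- integrated form of the pointwise bound on one cell -/
lemma ptw_cell {K : Set (E d)} (hK : IsCompact K) (hK0 : volume K ≠ 0)
    {R η : ℝ} (hR : 1 ≤ R) (hKR : ∀ x ∈ K, ‖x‖ ≤ R) (hη0 : 0 < η) (hη : η ≤ 1 / 8)
    {γ : E d → ℝ} (hγb : ∀ x ∈ K, |γ x| ≤ 1 / 2)
    {q : E d} (hqR : ‖q‖ ≤ R) {Q : Set (E d)}
    (io : Integrable (om R) (unif K)) (iγ2 : Integrable (fun x => γ x ^ 2) (unif K))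
    (iθ : Integrable (fun x => 1 + γ x) (unif K))
    (ie : Integrable (fun x => ‖x - q‖ ^ 2 * (1 + γ x)) (unif K))
    (iJ : Integrable (fun x => (1 + γ x) ^ 2 / gt R η η q x) (unif K))
    {m : ℝ} (hm : ∫ y in Q, (1 + γ y) ∂(unif K) = m) :
    (om R q + 2 * R * η) ^ 2 * ∫ y in Q, (1 + γ y) ^ 2 / gt R η η q y ∂(unif K)
      ≤ - (∫ y in Q, om R y ∂(unif K)) + 57 * R ^ 2 * (∫ y in Q, γ y ^ 2 ∂(unif K))
        + 2 * om R q * m
        - (∫ y in Q, ‖y - q‖ ^ 2 * (1 + γ y) ∂(unif K)) / 8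
        + 68 * R ^ 2 * η * ∫ y in Q, (1 : ℝ) ∂(unif K) := by
  have := isProb_unif hK0 hK.measure_lt_top.ne
  have hKm : MeasurableSet K := hK.measurableSet
  have i1 : Integrable (fun _ : E d => (1 : ℝ)) ((unif K).restrict Q) := integrable_const _
  have j1 : Integrable (fun x => - om R x) ((unif K).restrict Q) := io.restrict.neg
  have j2 : Integrable (fun x => 57 * R ^ 2 * γ x ^ 2) ((unif K).restrict Q) :=
    iγ2.restrict.const_mul _
  have j3 : Integrable (fun x => 2 * om R q * (1 + γ x)) ((unif K).restrict Q) :=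
    iθ.restrict.const_mul _
  have j4 : Integrable (fun x => ‖x - q‖ ^ 2 * (1 + γ x) / 8) ((unif K).restrict Q) :=
    ie.restrict.div_const _
  have j5 : Integrable (fun x : E d => 68 * R ^ 2 * η * (1 : ℝ)) ((unif K).restrict Q) :=
    i1.const_mul _
  have k1 : Integrable (fun x => - om R x + 57 * R ^ 2 * γ x ^ 2) ((unif K).restrict Q) :=
    j1.add j2
  have k2 : Integrable (fun x => - om R x + 57 * R ^ 2 * γ x ^ 2 + 2 * om R q * (1 + γ x))
    ((unif K).restrict Q) := k1.add j3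
  have k3 : Integrable (fun x => - om R x + 57 * R ^ 2 * γ x ^ 2 + 2 * om R q * (1 + γ x)
    - ‖x - q‖ ^ 2 * (1 + γ x) / 8) ((unif K).restrict Q) := k2.sub j4
  have k4 : Integrable (fun x => - om R x + 57 * R ^ 2 * γ x ^ 2 + 2 * om R q * (1 + γ x)
    - ‖x - q‖ ^ 2 * (1 + γ x) / 8 + 68 * R ^ 2 * η * (1 : ℝ)) ((unif K).restrict Q) := k3.add j5
  have h1 : (om R q + 2 * R * η) ^ 2 * ∫ y in Q, (1 + γ y) ^ 2 / gt R η η q y ∂(unif K)
      ≤ ∫ x in Q, (- om R x + 57 * R ^ 2 * γ x ^ 2 + 2 * om R q * (1 + γ x)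
        - ‖x - q‖ ^ 2 * (1 + γ x) / 8 + 68 * R ^ 2 * η * (1 : ℝ)) ∂(unif K) := by
    rw [← integral_const_mul]
    apply integral_mono_ae (iJ.restrict.const_mul _) k4
    filter_upwards [ae_restrict_of_ae (unif_mem hKm)] with x hx
    have := pw hR hη0.le hη hη0.le le_rfl hqR (hKR x hx) (hγb x hx)
    simp only [mul_one]
    exact this
  rw [integral_add k3 j5, integral_sub k2 j4, integral_add k1 j3, integral_add j1 j2,
    integral_neg, integral_const_mul, integral_const_mul, integral_const_mul, integral_div, hm]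
    at h1
  exact h1

/-- bound on the total semidiscrete cost between the cells -/
lemma dt_bound {K : Set (E d)} (hK : IsCompact K) (hKc : Convex ℝ K) (hK0 : volume K ≠ 0)
    {R η : ℝ} (hR : 1 ≤ R) (hKR : ∀ x ∈ K, ‖x‖ ≤ R) (hη0 : 0 < η) (hη : η ≤ 1 / 8)
    {z : ι → E d} (hz : Function.Injective z) {ψ₀ ψ₁ : ι → ℝ} {γ : E d → ℝ}
    (hγ : Measurable γ) (hγb : ∀ x ∈ K, |γ x| ≤ 1 / 2)
    {q : κ → E d} (hq : Function.Injective q) (hqR : ∀ k, ‖q k‖ ≤ R)
    (hnet : ∀ k, ∀ x ∈ Lag q (fun k => ‖q k‖ ^ 2 / 2) k, x ∈ K → ‖x - q k‖ ≤ η)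
    {c : ι → κ → ℝ}
    (hc : ∀ i k, ∫ x in Lag z ψ₁ i ∩ Lag q (c i) k, (1 + γ x) ∂(unif K)
      = (unif K).real (Lag z ψ₀ i ∩ Lag q (fun k => ‖q k‖ ^ 2 / 2) k)) :
    ∑ i, ∑ k, ∫ x in Lag z ψ₁ i ∩ Lag q (c i) k, ‖x - q k‖ ^ 2 * (1 + γ x) ∂(unif K)
      ≤ 456 * R ^ 2 * ∫ x, γ x ^ 2 ∂(unif K) + 576 * R ^ 2 * η := by
  have := isProb_unif hK0 hK.measure_lt_top.ne
  have hKm : MeasurableSet K := hK.measurableSet
  have hR2 : 0 < R ^ 2 := by positivity
  have hac := unif_ac K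
  set P : ι → κ → Set (E d) := fun i k => Lag z ψ₀ i ∩ Lag q (fun k => ‖q k‖ ^ 2 / 2) k with hP
  set Q : ι → κ → Set (E d) := fun i k => Lag z ψ₁ i ∩ Lag q (c i) k with hQ
  set S : ι → κ → Set (E d) := fun i k => Lag z (fun j => (1 - η) * ψ₀ j + η * ψ₁ j) i ∩
    Lag q (fun k => (1 - η) * (‖q k‖ ^ 2 / 2) + η * c i k) k with hS
  have hPm : ∀ i k, MeasurableSet (P i k) := fun i k =>
    (measurableSet_Lag _ _ _).inter (measurableSet_Lag _ _ _)
  have hQm : ∀ i k, MeasurableSet (Q i k) := fun i k =>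
    (measurableSet_Lag _ _ _).inter (measurableSet_Lag _ _ _)
  have hSm : ∀ i k, MeasurableSet (S i k) := fun i k =>
    (measurableSet_Lag _ _ _).inter (measurableSet_Lag _ _ _)
  have io : Integrable (om R) (unif K) := by
    refine integrable_unif hK hK0 (continuous_om R).measurable (B := 9 * R ^ 2) ?_
    intro x hx
    rw [abs_of_nonneg (by have := om_ge (hKR x hx); nlinarith)]
    exact om_le R x
  have i1 : Integrable (fun _ : E d => (1 : ℝ)) (unif K) := integrable_const _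
  have iγ2 : Integrable (fun x => γ x ^ 2) (unif K) := by
    refine integrable_unif hK hK0 (hγ.pow_const 2) (B := 1) ?_
    intro x hx
    have := hγb x hx
    rw [abs_of_nonneg (sq_nonneg _), ← sq_abs]
    nlinarith [abs_nonneg (γ x)]
  have iθ : Integrable (fun x => 1 + γ x) (unif K) := by
    refine integrable_unif hK hK0 (hγ.const_add 1) (B := 2) ?_
    intro x hx
    have := abs_le.1 (hγb x hx)
    rw [abs_le]; constructor <;> linarith
  have ie : ∀ k, Integrable (fun x => ‖x - q k‖ ^ 2 * (1 + γ x)) (unif K) := by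
    intro k
    refine integrable_unif hK hK0 (Measurable.mul (by fun_prop) (hγ.const_add 1))
      (B := (2 * R) ^ 2 * 2) ?_
    intro x hx
    have h0 := abs_le.1 (hγb x hx)
    have h1 : ‖x - q k‖ ≤ 2 * R := (norm_sub_le _ _).trans (by linarith [hKR x hx, hqR k])
    rw [abs_mul, abs_of_nonneg (sq_nonneg _)]
    apply mul_le_mul (by gcongr) _ (abs_nonneg _) (by positivity)
    rw [abs_le]; constructor <;> linarith
  have iJ : ∀ k, Integrable (fun x => (1 + γ x) ^ 2 / gt R η η (q k) x) (unif K) := by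
    intro k
    refine integrable_unif hK hK0 (((hγ.const_add 1).pow_const 2).div
      (continuous_gt R η η (q k)).measurable) (B := 4) ?_
    intro x hx
    have h1 := gt_ge (q := q k) hR hη0.le hη hη0.le (by linarith) (hKR x hx)
    have h0 := abs_le.1 (hγb x hx)
    have hgp : 0 < gt R η η (q k) x := by nlinarith
    rw [abs_of_nonneg (div_nonneg (sq_nonneg _) hgp.le), div_le_iff₀ hgp]
    nlinarith
  -- cell inequalities
  have hcell : ∀ i k, (∫ x in P i k, om R x ∂(unif K)) + η * ((∫ x in P i k, om R x ∂(unif K))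
        - (om R (q k) + 2 * R * η) ^ 2 * ∫ y in Q i k, (1 + γ y) ^ 2 / gt R η η (q k) y ∂(unif K))
      ≤ ∫ x in S i k, om R x ∂(unif K) := by
    intro i k
    refine cell_ineq hK hKc hK0 hR hKR hη0.le hη hη0 (by linarith) (hqR k) (hPm i k) (hQm i k)
      (hSm i k) (fun x hx hxK => hnet k x hx.2 hxK) ?_ (hγ.const_add 1) ?_ (hc i k)
    · intro x hx y hy
      exact ⟨combo_mem_Lag hη0.le (by linarith) hx.1 hy.1,
        combo_mem_Lag hη0.le (by linarith) hx.2 hy.2⟩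
    · intro x hx
      have := abs_le.1 (hγb x hx)
      rw [abs_le]; constructor <;> linarith
  have hsumP : ∑ i, ∑ k, ∫ x in P i k, om R x ∂(unif K) = ∫ x, om R x ∂(unif K) :=
    sum2 hac hz ψ₀ hq (fun _ k => ‖q k‖ ^ 2 / 2) io
  have hsumS : ∑ i, ∑ k, ∫ x in S i k, om R x ∂(unif K) = ∫ x, om R x ∂(unif K) :=
    sum2 hac hz _ hq (fun i k => (1 - η) * (‖q k‖ ^ 2 / 2) + η * c i k) io
  have hsum1 : ∑ i, ∑ k, (∫ x in P i k, om R x ∂(unif K)) + η * (∑ i, ∑ k, (∫ x in P i k, om R x ∂(unif K))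
        - ∑ i, ∑ k, (om R (q k) + 2 * R * η) ^ 2 * ∫ y in Q i k, (1 + γ y) ^ 2 / gt R η η (q k) y ∂(unif K))
      ≤ ∑ i, ∑ k, ∫ x in S i k, om R x ∂(unif K) := by
    have := Finset.sum_le_sum fun i (_ : i ∈ Finset.univ) =>
      Finset.sum_le_sum fun k (_ : k ∈ Finset.univ) => hcell i k
    simp only [Finset.sum_add_distrib, ← Finset.mul_sum, Finset.sum_sub_distrib] at this
    simpa only [Finset.mul_sum] using this
  rw [hsumP, hsumS] at hsum1
  have hkey : ∫ x, om R x ∂(unif K) ≤ ∑ i, ∑ k, (om R (q k) + 2 * R * η) ^ 2 *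
      ∫ y in Q i k, (1 + γ y) ^ 2 / gt R η η (q k) y ∂(unif K) := by
    by_contra hcon
    push Not at hcon
    have : 0 < η * (∫ x, om R x ∂(unif K) - ∑ i, ∑ k, (om R (q k) + 2 * R * η) ^ 2 *
      ∫ y in Q i k, (1 + γ y) ^ 2 / gt R η η (q k) y ∂(unif K)) :=
      mul_pos hη0 (by linarith)
    linarith
  -- pointwise bound
  have hptw : ∀ i k, (om R (q k) + 2 * R * η) ^ 2 *
      ∫ y in Q i k, (1 + γ y) ^ 2 / gt R η η (q k) y ∂(unif K)
      ≤ - (∫ y in Q i k, om R y ∂(unif K)) + 57 * R ^ 2 * (∫ y in Q i k, γ y ^ 2 ∂(unif K))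
        + 2 * om R (q k) * (unif K).real (P i k)
        - (∫ y in Q i k, ‖y - q k‖ ^ 2 * (1 + γ y) ∂(unif K)) / 8
        + 68 * R ^ 2 * η * ∫ y in Q i k, (1 : ℝ) ∂(unif K) := by
    intro i k
    exact ptw_cell hK hK0 hR hKR hη0 hη hγb (hqR k) io iγ2 iθ (ie k) (iJ k) (hc i k)
  have hm : ∀ i k, om R (q k) * (unif K).real (P i k)
      ≤ ∫ x in P i k, om R x ∂(unif K) + 2 * R * η * ∫ x in P i k, (1 : ℝ) ∂(unif K) := by
    intro i k
    have h1 : ∫ x in P i k, om R (q k) ∂(unif K)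
        ≤ ∫ x in P i k, (om R x + 2 * R * η * (1 : ℝ)) ∂(unif K) := by
      apply integral_mono_ae (integrable_const _) (io.restrict.add (i1.restrict.const_mul _))
      filter_upwards [ae_restrict_of_ae (unif_mem hKm), ae_restrict_mem (hPm i k)] with x hx hxP
      have h2 := om_sub_le (hqR k) (hKR x hx)
      have h3 := hnet k x hxP.2 hx
      rw [norm_sub_rev] at h3
      have h4 : 2 * R * ‖q k - x‖ ≤ 2 * R * η := by gcongr
      change om R (q k) ≤ om R x + 2 * R * η * 1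
      linarith
    rw [integral_add io.restrict (i1.restrict.const_mul _), integral_const_mul,
      setIntegral_const, smul_eq_mul] at h1
    linarith
  have hs1 : ∑ i, ∑ k, ∫ x in P i k, (1 : ℝ) ∂(unif K) = 1 := by
    rw [sum2 hac hz ψ₀ hq (fun _ k => ‖q k‖ ^ 2 / 2) i1]; simp
  have hs2 : ∑ i, ∑ k, ∫ x in Q i k, (1 : ℝ) ∂(unif K) = 1 := by
    rw [sum2 hac hz ψ₁ hq c i1]; simp
  have hs3 : ∑ i, ∑ k, ∫ x in Q i k, om R x ∂(unif K) = ∫ x, om R x ∂(unif K) :=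
    sum2 hac hz ψ₁ hq c io
  have hs4 : ∑ i, ∑ k, ∫ x in Q i k, γ x ^ 2 ∂(unif K) = ∫ x, γ x ^ 2 ∂(unif K) :=
    sum2 hac hz ψ₁ hq c iγ2
  have hsm : ∑ i, ∑ k, om R (q k) * (unif K).real (P i k)
      ≤ ∫ x, om R x ∂(unif K) + 2 * R * η := by
    calc ∑ i, ∑ k, om R (q k) * (unif K).real (P i k)
        ≤ ∑ i, ∑ k, (∫ x in P i k, om R x ∂(unif K)
          + 2 * R * η * ∫ x in P i k, (1 : ℝ) ∂(unif K)) :=
          Finset.sum_le_sum fun i _ => Finset.sum_le_sum fun k _ => hm i k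
      _ = ∫ x, om R x ∂(unif K) + 2 * R * η := by
          simp only [Finset.sum_add_distrib, ← Finset.mul_sum]
          rw [hsumP, hs1, mul_one]
  have hfin : ∑ i, ∑ k, (om R (q k) + 2 * R * η) ^ 2 *
      ∫ y in Q i k, (1 + γ y) ^ 2 / gt R η η (q k) y ∂(unif K)
      ≤ - (∫ x, om R x ∂(unif K)) + 57 * R ^ 2 * (∫ x, γ x ^ 2 ∂(unif K))
        + 2 * (∑ i, ∑ k, om R (q k) * (unif K).real (P i k))
        - (∑ i, ∑ k, ∫ y in Q i k, ‖y - q k‖ ^ 2 * (1 + γ y) ∂(unif K)) / 8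
        + 68 * R ^ 2 * η := by
    calc _ ≤ ∑ i, ∑ k, (- (∫ y in Q i k, om R y ∂(unif K))
        + 57 * R ^ 2 * (∫ y in Q i k, γ y ^ 2 ∂(unif K))
        + 2 * om R (q k) * (unif K).real (P i k)
        - (∫ y in Q i k, ‖y - q k‖ ^ 2 * (1 + γ y) ∂(unif K)) / 8
        + 68 * R ^ 2 * η * ∫ y in Q i k, (1 : ℝ) ∂(unif K)) :=
          Finset.sum_le_sum fun i _ => Finset.sum_le_sum fun k _ => hptw i k
      _ = _ := by
          simp only [Finset.sum_add_distrib, Finset.sum_sub_distrib, Finset.sum_neg_distrib,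
            ← Finset.mul_sum, ← Finset.sum_div, mul_assoc]
          rw [hs2, hs3, hs4, mul_one]
  change ∑ i, ∑ k, ∫ y in Q i k, ‖y - q k‖ ^ 2 * (1 + γ y) ∂(unif K) ≤ _
  have hRη : R * η ≤ R ^ 2 * η := by
    apply mul_le_mul_of_nonneg_right _ hη0.le
    nlinarith
  linarith

end Vale.Agent.P074
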