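import Mathlib
import Vale.Agent.P074.MLd

open MeasureTheory Set Filter Topology
open scoped RealInnerProductSpace ENNReal NNReal

namespace Vale.Agent.P074

variable {d : ℕ}

lemma sum1 {κ : Type*} [Fintype κ] [Nonempty κ] {ρ : Measure (E d)} (hρ : ρ ≪ volume)
    (A : Set (E d)) {q : κ → E d} (hq : Function.Injective q) (c : κ → ℝ) {F : E d → ℝ}
    (hF : Integrable F ρ) :
    ∑ k, ∫ x in A ∩ Lag q c k, F x ∂ρ = ∫ x in A, F x ∂ρ := by
  have hρi : ρ.restrict A ≪ volume :=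
    Measure.restrict_le_self.absolutelyContinuous.trans hρ
  rw [← sum_setIntegral_Lag hρi hq c hF.restrict]
  refine Finset.sum_congr rfl fun k _ => ?_
  rw [Measure.restrict_restrict (measurableSet_Lag q c k), inter_comm]

/-- estimate on one pair of cells -/
lemma cell_diff {K : Set (E d)} (hK : IsCompact K) (hK0 : volume K ≠ 0)
    {R η l : ℝ} (hKR : ∀ x ∈ K, ‖x‖ ≤ R) (hl : 0 < l)
    {γ : E d → ℝ} (hγ : Measurable γ) (hγb : ∀ x ∈ K, |γ x| ≤ 1 / 2)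
    {q : E d} (hqR : ‖q‖ ≤ R) (v : E d) {P Q : Set (E d)} (hP : MeasurableSet P)
    (hPq : ∀ x ∈ P, x ∈ K → ‖x - q‖ ≤ η)
    (hm : ∫ x in Q, (1 + γ x) ∂(unif K) = (unif K).real P) :
    ∫ x in Q, ⟪x, v⟫ * (1 + γ x) ∂(unif K) - ∫ x in P, ⟪x, v⟫ ∂(unif K)
      ≤ l / 2 * ∫ x in Q, ‖x - q‖ ^ 2 * (1 + γ x) ∂(unif K)
        + 1 / (2 * l) * ((unif K).real P * ‖v‖ ^ 2) + η * ((unif K).real P * ‖v‖) := by
  have := isProb_unif hK0 hK.measure_lt_top.ne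
  have hKm : MeasurableSet K := hK.measurableSet
  have iθ : Integrable (fun x => 1 + γ x) (unif K) := by
    refine integrable_unif hK hK0 (hγ.const_add 1) (B := 2) ?_
    intro x hx
    have := abs_le.1 (hγb x hx)
    rw [abs_le]; constructor <;> linarith
  have ie : Integrable (fun x => ‖x - q‖ ^ 2 * (1 + γ x)) (unif K) := by
    refine integrable_unif hK hK0 (Measurable.mul (by fun_prop) (hγ.const_add 1))
      (B := (2 * R) ^ 2 * 2) ?_
    intro x hx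
    have h0 := abs_le.1 (hγb x hx)
    have h1 : ‖x - q‖ ≤ 2 * R := (norm_sub_le _ _).trans (by linarith [hKR x hx])
    rw [abs_mul, abs_of_nonneg (sq_nonneg _)]
    apply mul_le_mul (by gcongr) _ (abs_nonneg _) (by positivity)
    rw [abs_le]; constructor <;> linarith
  have iv : Integrable (fun x => ⟪x, v⟫) (unif K) := by
    refine integrable_unif hK hK0 (by fun_prop) (B := R * ‖v‖) ?_
    intro x hx
    exact (abs_real_inner_le_norm _ _).trans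
      (mul_le_mul_of_nonneg_right (hKR x hx) (norm_nonneg _))
  have ivθ : Integrable (fun x => ⟪x, v⟫ * (1 + γ x)) (unif K) := by
    refine integrable_unif hK hK0 (Measurable.mul (by fun_prop) (hγ.const_add 1))
      (B := R * ‖v‖ * 2) ?_
    intro x hx
    have h0 := abs_le.1 (hγb x hx)
    have hR0 : 0 ≤ R := (norm_nonneg _).trans (hKR x hx)
    rw [abs_mul]
    apply mul_le_mul _ _ (abs_nonneg _) (by positivity)
    · exact (abs_real_inner_le_norm _ _).trans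
        (mul_le_mul_of_nonneg_right (hKR x hx) (norm_nonneg _))
    · rw [abs_le]; constructor <;> linarith
  -- upper bound of the first integral
  have j1 : Integrable (fun x => l / 2 * (‖x - q‖ ^ 2 * (1 + γ x))
      + 1 / (2 * l) * ‖v‖ ^ 2 * (1 + γ x)) ((unif K).restrict Q) :=
    (ie.restrict.const_mul _).add (iθ.restrict.const_mul _)
  have h1 : ∫ x in Q, ⟪x, v⟫ * (1 + γ x) ∂(unif K)
      ≤ ∫ x in Q, (⟪q, v⟫ * (1 + γ x) + (l / 2 * (‖x - q‖ ^ 2 * (1 + γ x))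
        + 1 / (2 * l) * ‖v‖ ^ 2 * (1 + γ x))) ∂(unif K) := by
    apply integral_mono_ae ivθ.restrict ((iθ.restrict.const_mul _).add j1)
    filter_upwards [ae_restrict_of_ae (unif_mem hKm)] with x hx
    have h0 := abs_le.1 (hγb x hx)
    change ⟪x, v⟫ * (1 + γ x) ≤ ⟪q, v⟫ * (1 + γ x) + (l / 2 * (‖x - q‖ ^ 2 * (1 + γ x))
        + 1 / (2 * l) * ‖v‖ ^ 2 * (1 + γ x))
    have h2 : ⟪x, v⟫ = ⟪q, v⟫ + ⟪x - q, v⟫ := by rw [inner_sub_left]; ring
    have h3 : ⟪x - q, v⟫ ≤ ‖x - q‖ * ‖v‖ := real_inner_le_norm _ _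
    have h4 : ‖x - q‖ * ‖v‖ ≤ l / 2 * ‖x - q‖ ^ 2 + 1 / (2 * l) * ‖v‖ ^ 2 := by
      have h5 : 0 ≤ (l * ‖x - q‖ - ‖v‖) ^ 2 / (2 * l) := by positivity
      have h6 : (l * ‖x - q‖ - ‖v‖) ^ 2 / (2 * l)
          = l / 2 * ‖x - q‖ ^ 2 + 1 / (2 * l) * ‖v‖ ^ 2 - ‖x - q‖ * ‖v‖ := by
        field_simp
        ring
      linarith
    rw [h2]
    have h7 : 0 ≤ 1 + γ x := by linarith
    nlinarith
  have h2 : ∫ x in P, ⟪q, v⟫ ∂(unif K) - ∫ x in P, η * ‖v‖ ∂(unif K)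
      ≤ ∫ x in P, ⟪x, v⟫ ∂(unif K) := by
    rw [← integral_sub (integrable_const _) (integrable_const _)]
    apply integral_mono_ae (integrable_const _) iv.restrict
    filter_upwards [ae_restrict_of_ae (unif_mem hKm), ae_restrict_mem hP] with x hx hxP
    have h3 : -⟪x - q, v⟫ ≤ ‖x - q‖ * ‖v‖ := by
      rw [← inner_neg_left, ← norm_neg (x - q)]
      exact real_inner_le_norm _ _
    have h4 : ⟪x, v⟫ = ⟪q, v⟫ + ⟪x - q, v⟫ := by rw [inner_sub_left]; ring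
    have h5 : ‖x - q‖ * ‖v‖ ≤ η * ‖v‖ :=
      mul_le_mul_of_nonneg_right (hPq x hxP hx) (norm_nonneg _)
    linarith
  rw [integral_add (iθ.restrict.const_mul _) j1,
    integral_add (ie.restrict.const_mul _) (iθ.restrict.const_mul _), integral_const_mul,
    integral_const_mul, integral_const_mul, hm] at h1
  rw [setIntegral_const, setIntegral_const, smul_eq_mul, smul_eq_mul] at h2
  nlinarith

/-- the main lemma at scale `η` -/
lemma main_step {K : Set (E d)} (hK : IsCompact K) (hKc : Convex ℝ K) (hK0 : volume K ≠ 0)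
    (hKne : K.Nonempty)
    {R η : ℝ} (hR : 1 ≤ R) (hKR : ∀ x ∈ K, ‖x‖ ≤ R) (hη0 : 0 < η) (hη : η ≤ 1 / 8)
    {ι : Type*} [Fintype ι] [Nonempty ι] {z : ι → E d} {p ψ₀ ψ₁ : ι → ℝ} {γ : E d → ℝ}
    (hz : Function.Injective z) (hγ : Measurable γ)
    (hγb : ∀ x ∈ K, |γ x| ≤ 1 / 2)
    (h0 : ∀ i, (unif K).real (Lag z ψ₀ i) = p i)
    (h1 : ∀ i, ∫ x in Lag z ψ₁ i, (1 + γ x) ∂(unif K) = p i)
    (v : ι → E d) {l : ℝ} (hl : 0 < l) :
    ∑ i, ∫ x in Lag z ψ₁ i, ⟪x, v i⟫ * (1 + γ x) ∂(unif K)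
        - ∑ i, ∫ x in Lag z ψ₀ i, ⟪x, v i⟫ ∂(unif K)
      ≤ l / 2 * (456 * R ^ 2 * ∫ x, γ x ^ 2 ∂(unif K) + 576 * R ^ 2 * η)
        + 1 / (2 * l) * ∑ i, p i * ‖v i‖ ^ 2 + η * ∑ i, p i * ‖v i‖ := by
  have := isProb_unif hK0 hK.measure_lt_top.ne
  have hKm : MeasurableSet K := hK.measurableSet
  have hac := unif_ac K
  obtain ⟨κ, _, _, q, hq, hqK, hnet⟩ := exists_net hK hKne hη0
  have hKR' : ∀ᵐ x ∂(unif K), ‖x‖ ≤ R := by
    filter_upwards [unif_mem hKm] with x hx using hKR x hx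
  have hθ : ∀ᵐ x ∂(unif K), 0 ≤ 1 + γ x ∧ 1 + γ x ≤ 2 := by
    filter_upwards [unif_mem hKm] with x hx
    have := abs_le.1 (hγb x hx)
    constructor <;> linarith
  have i1 : Integrable (fun _ : E d => (1 : ℝ)) (unif K) := integrable_const _
  have hmass : ∀ i, ∑ k, (unif K).real (Lag z ψ₀ i ∩ Lag q (fun k => ‖q k‖ ^ 2 / 2) k) = p i := by
    intro i
    rw [← h0 i]
    have := sum1 hac (Lag z ψ₀ i) hq (fun k => ‖q k‖ ^ 2 / 2) i1
    simpa using this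
  have hsd : ∀ i, ∃ c : κ → ℝ, ∀ k, ∫ x in Lag z ψ₁ i ∩ Lag q c k, (1 + γ x) ∂(unif K)
      = (unif K).real (Lag z ψ₀ i ∩ Lag q (fun k => ‖q k‖ ^ 2 / 2) k) := fun i =>
    semi_density hac hKR' (hγ.const_add 1) hθ (measurableSet_Lag z ψ₁ i) hq
      (fun k => measureReal_nonneg) (by rw [hmass i, h1 i])
  choose c hc using hsd
  have hdt := dt_bound hK hKc hK0 hR hKR hη0 hη hz hγ hγb hq (fun k => hKR _ (hqK k)) hnet hc
  have iv : ∀ i, Integrable (fun x => ⟪x, v i⟫) (unif K) := by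
    intro i
    refine integrable_unif hK hK0 (by fun_prop) (B := R * ‖v i‖) ?_
    intro x hx
    exact (abs_real_inner_le_norm _ _).trans
      (mul_le_mul_of_nonneg_right (hKR x hx) (norm_nonneg _))
  have ivθ : ∀ i, Integrable (fun x => ⟪x, v i⟫ * (1 + γ x)) (unif K) := by
    intro i
    refine integrable_unif hK hK0 (Measurable.mul (by fun_prop) (hγ.const_add 1))
      (B := R * ‖v i‖ * 2) ?_
    intro x hx
    have h0 := abs_le.1 (hγb x hx)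
    have hR0 : 0 ≤ R := (norm_nonneg _).trans (hKR x hx)
    rw [abs_mul]
    apply mul_le_mul _ _ (abs_nonneg _) (by positivity)
    · exact (abs_real_inner_le_norm _ _).trans
        (mul_le_mul_of_nonneg_right (hKR x hx) (norm_nonneg _))
    · rw [abs_le]; constructor <;> linarith
  calc ∑ i, ∫ x in Lag z ψ₁ i, ⟪x, v i⟫ * (1 + γ x) ∂(unif K)
        - ∑ i, ∫ x in Lag z ψ₀ i, ⟪x, v i⟫ ∂(unif K)
      = ∑ i, ∑ k, (∫ x in Lag z ψ₁ i ∩ Lag q (c i) k, ⟪x, v i⟫ * (1 + γ x) ∂(unif K)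
          - ∫ x in Lag z ψ₀ i ∩ Lag q (fun k => ‖q k‖ ^ 2 / 2) k, ⟪x, v i⟫ ∂(unif K)) := by
        rw [← Finset.sum_sub_distrib]
        refine Finset.sum_congr rfl fun i _ => ?_
        rw [Finset.sum_sub_distrib, sum1 hac _ hq _ (ivθ i), sum1 hac _ hq _ (iv i)]
    _ ≤ ∑ i, ∑ k, (l / 2 * ∫ x in Lag z ψ₁ i ∩ Lag q (c i) k,
            ‖x - q k‖ ^ 2 * (1 + γ x) ∂(unif K)
          + 1 / (2 * l) * ((unif K).real (Lag z ψ₀ i ∩ Lag q (fun k => ‖q k‖ ^ 2 / 2) k)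
              * ‖v i‖ ^ 2)
          + η * ((unif K).real (Lag z ψ₀ i ∩ Lag q (fun k => ‖q k‖ ^ 2 / 2) k) * ‖v i‖)) := by
        refine Finset.sum_le_sum fun i _ => Finset.sum_le_sum fun k _ => ?_
        exact cell_diff hK hK0 hKR hl hγ hγb (hKR _ (hqK k)) (v i)
          ((measurableSet_Lag _ _ _).inter (measurableSet_Lag _ _ _))
          (fun x hx hxK => hnet k x hx.2 hxK) (hc i k)
    _ = l / 2 * (∑ i, ∑ k, ∫ x in Lag z ψ₁ i ∩ Lag q (c i) k,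
            ‖x - q k‖ ^ 2 * (1 + γ x) ∂(unif K))
        + 1 / (2 * l) * ∑ i, p i * ‖v i‖ ^ 2 + η * ∑ i, p i * ‖v i‖ := by
        simp only [Finset.sum_add_distrib, ← Finset.mul_sum, ← Finset.sum_mul, hmass]
    _ ≤ _ := by
        have hl2 : 0 < l / 2 := by positivity
        gcongr

/-- **Main lemma.** -/
theorem main_lemma {K : Set (E d)} (hK : IsCompact K) (hKc : Convex ℝ K)
    (hKi : (interior K).Nonempty) : ∃ C : ℝ, 0 ≤ C ∧ MLProp K C := by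
  have hK0 : volume K ≠ 0 := by
    have h1 : 0 < volume (interior K) := isOpen_interior.measure_pos _ hKi
    exact (h1.trans_le (measure_mono interior_subset)).ne'
  have hKne : K.Nonempty := hKi.mono interior_subset
  obtain ⟨R₀, hR₀⟩ := hK.isBounded.exists_norm_le
  set R := max R₀ 1 with hRdef
  have hR : 1 ≤ R := le_max_right _ _
  have hKR : ∀ x ∈ K, ‖x‖ ≤ R := fun x hx => (hR₀ x hx).trans (le_max_left _ _)
  refine ⟨456 * R ^ 2, by positivity, ?_⟩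
  intro ι _ _ z p ψ₀ ψ₁ γ hz hp hγ hγb h0 h1 v l hl
  have hstep : ∀ᶠ η in 𝓝[>] (0 : ℝ),
      ∑ i, ∫ x in Lag z ψ₁ i, ⟪x, v i⟫ * (1 + γ x) ∂(unif K)
        - ∑ i, ∫ x in Lag z ψ₀ i, ⟪x, v i⟫ ∂(unif K)
      ≤ l / 2 * (456 * R ^ 2 * ∫ x, γ x ^ 2 ∂(unif K) + 576 * R ^ 2 * η)
        + 1 / (2 * l) * ∑ i, p i * ‖v i‖ ^ 2 + η * ∑ i, p i * ‖v i‖ := by
    filter_upwards [Ioc_mem_nhdsGT (by norm_num : (0 : ℝ) < 1 / 8)] with η hη
    exact main_step hK hKc hK0 hKne hR hKR hη.1 hη.2 hz hγ hγb h0 h1 v hl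
  have hlim : Tendsto (fun η : ℝ => l / 2 * (456 * R ^ 2 * ∫ x, γ x ^ 2 ∂(unif K)
      + 576 * R ^ 2 * η) + 1 / (2 * l) * ∑ i, p i * ‖v i‖ ^ 2 + η * ∑ i, p i * ‖v i‖)
      (𝓝[>] 0) (𝓝 (l / 2 * (456 * R ^ 2 * ∫ x, γ x ^ 2 ∂(unif K)
      + 576 * R ^ 2 * 0) + 1 / (2 * l) * ∑ i, p i * ‖v i‖ ^ 2 + 0 * ∑ i, p i * ‖v i‖)) := by
    refine Tendsto.mono_left ?_ nhdsWithin_le_nhds
    apply Continuous.tendsto
    fun_prop
  have := ge_of_tendsto hlim hstep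
  simpa using this

end Vale.Agent.P074
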