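import Mathlib
import Vale.Agent.P074.MLd

open MeasureTheory Set Filter Topology
open scoped RealInnerProductSpace ENNReal NNReal

namespace Vale.Agent.P074

variable {d : ℕ} {ι : Type*} [Fintype ι] [Nonempty ι]

/-- `∑ ∫_{Lag i} ⟪x, v i⟫ θ` -/
noncomputable def Bf (K : Set (E d)) (θ : E d → ℝ) (z : ι → E d) (ψ : ι → ℝ) (v : ι → E d) : ℝ :=
  ∑ i, ∫ x in Lag z ψ i, ⟪x, v i⟫ * θ x ∂(unif K)

/-- dual functional -/
noncomputable def Af (K : Set (E d)) (θ : E d → ℝ) (z : ι → E d) (ψ p : ι → ℝ) : ℝ :=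
  ∫ x, pot z ψ x * θ x ∂(unif K) + ∑ i, ψ i * p i

section
variable {K : Set (E d)} (hK : IsCompact K) (hK0 : volume K ≠ 0) {R : ℝ}
  (hKR : ∀ x ∈ K, ‖x‖ ≤ R) {θ : E d → ℝ} (hθ : Measurable θ)
  (hθb : ∀ x ∈ K, 0 ≤ θ x ∧ θ x ≤ 2)
include hK hK0 hθ hθb

lemma int_theta : Integrable θ (unif K) := by
  refine integrable_unif hK hK0 hθ (B := 2) ?_
  intro x hx
  rw [abs_of_nonneg (hθb x hx).1]; exact (hθb x hx).2

include hKR

lemma int_inner_theta (v : E d) : Integrable (fun x => ⟪x, v⟫ * θ x) (unif K) := by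
  refine integrable_unif hK hK0 (Measurable.mul (by fun_prop) hθ) (B := R * ‖v‖ * 2) ?_
  intro x hx
  have hR0 : 0 ≤ R := (norm_nonneg _).trans (hKR x hx)
  rw [abs_mul, abs_of_nonneg (hθb x hx).1]
  exact mul_le_mul ((abs_real_inner_le_norm _ _).trans
    (mul_le_mul_of_nonneg_right (hKR x hx) (norm_nonneg _))) (hθb x hx).2 (hθb x hx).1
    (by positivity)

lemma int_pot_theta (z : ι → E d) (ψ : ι → ℝ) :
    Integrable (fun x => pot z ψ x * θ x) (unif K) := by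
  have := isProb_unif hK0 hK.measure_lt_top.ne
  have hR' : ∀ᵐ x ∂(unif K), ‖x‖ ≤ R := by
    filter_upwards [unif_mem hK.measurableSet] with x hx using hKR x hx
  refine (integrable_pot hR' z ψ).mul_bdd hθ.aestronglyMeasurable (c := 2) ?_
  filter_upwards [unif_mem hK.measurableSet] with x hx
  rw [Real.norm_eq_abs, abs_of_nonneg (hθb x hx).1]; exact (hθb x hx).2

lemma Bf_le_Af {z : ι → E d} (hz : Function.Injective z) {ψ p : ι → ℝ}
    (hsol : ∀ i, ∫ x in Lag z ψ i, θ x ∂(unif K) = p i) (z' : ι → E d) (ψ' : ι → ℝ) :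
    Bf K θ z ψ z' ≤ Af K θ z' ψ' p := by
  have iθ := int_theta hK hK0 hθ hθb
  have ip := int_pot_theta hK hK0 hKR hθ hθb z' ψ'
  unfold Bf Af
  rw [← sum_setIntegral_Lag (unif_ac K) hz ψ ip, ← Finset.sum_add_distrib]
  refine Finset.sum_le_sum fun i _ => ?_
  have iz := int_inner_theta hK hK0 hKR hθ hθb (z' i)
  rw [← hsol i, ← integral_const_mul, ← integral_add ip.restrict (iθ.restrict.const_mul _)]
  apply integral_mono_ae iz.restrict (ip.restrict.add (iθ.restrict.const_mul _))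
  filter_upwards [ae_restrict_of_ae (unif_mem hK.measurableSet)] with x hx
  have h1 := le_pot z' ψ' x i
  have h2 := (hθb x hx).1
  change ⟪x, z' i⟫ * θ x ≤ pot z' ψ' x * θ x + ψ' i * θ x
  nlinarith

lemma Af_eq_Bf {z : ι → E d} (hz : Function.Injective z) {ψ p : ι → ℝ}
    (hsol : ∀ i, ∫ x in Lag z ψ i, θ x ∂(unif K) = p i) :
    Af K θ z ψ p = Bf K θ z ψ z := by
  have iθ := int_theta hK hK0 hθ hθb
  have ip := int_pot_theta hK hK0 hKR hθ hθb z ψ
  unfold Bf Af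
  rw [← sum_setIntegral_Lag (unif_ac K) hz ψ ip, ← Finset.sum_add_distrib]
  refine Finset.sum_congr rfl fun i _ => ?_
  rw [← hsol i, ← integral_const_mul, ← integral_add ip.restrict (iθ.restrict.const_mul _)]
  apply setIntegral_congr_fun (measurableSet_Lag z ψ i)
  intro x hx
  have h1 := pot_eq_of_mem hx
  simp only
  rw [h1]; ring

omit [Nonempty ι] in
lemma Bf_sub {z : ι → E d} {ψ : ι → ℝ} (v w : ι → E d) :
    Bf K θ z ψ (fun i => v i - w i) = Bf K θ z ψ v - Bf K θ z ψ w := by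
  unfold Bf
  rw [← Finset.sum_sub_distrib]
  refine Finset.sum_congr rfl fun i _ => ?_
  rw [← integral_sub (int_inner_theta hK hK0 hKR hθ hθb (v i)).restrict
    (int_inner_theta hK hK0 hKR hθ hθb (w i)).restrict]
  apply integral_congr_ae
  filter_upwards with x
  rw [inner_sub_right]; ring

omit [Nonempty ι] in
lemma abs_Bf_le {z : ι → E d} {ψ p : ι → ℝ}
    (hsol : ∀ i, ∫ x in Lag z ψ i, θ x ∂(unif K) = p i) (v : ι → E d) :
    |Bf K θ z ψ v| ≤ R * ∑ i, p i * ‖v i‖ := by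
  have iθ := int_theta hK hK0 hθ hθb
  unfold Bf
  refine (Finset.abs_sum_le_sum_abs _ _).trans ?_
  rw [Finset.mul_sum]
  refine Finset.sum_le_sum fun i _ => ?_
  have iz := int_inner_theta hK hK0 hKR hθ hθb (v i)
  calc |∫ x in Lag z ψ i, ⟪x, v i⟫ * θ x ∂(unif K)|
      ≤ ∫ x in Lag z ψ i, |⟪x, v i⟫ * θ x| ∂(unif K) := abs_integral_le_integral_abs
    _ ≤ ∫ x in Lag z ψ i, (R * ‖v i‖) * θ x ∂(unif K) := by
        apply integral_mono_ae iz.restrict.abs (iθ.restrict.const_mul _)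
        filter_upwards [ae_restrict_of_ae (unif_mem hK.measurableSet)] with x hx
        change |⟪x, v i⟫ * θ x| ≤ (R * ‖v i‖) * θ x
        rw [abs_mul, abs_of_nonneg (hθb x hx).1]
        exact mul_le_mul_of_nonneg_right ((abs_real_inner_le_norm _ _).trans
          (mul_le_mul_of_nonneg_right (hKR x hx) (norm_nonneg _))) (hθb x hx).1
    _ = R * (p i * ‖v i‖) := by rw [integral_const_mul, hsol i]; ring

/-- one step of the path -/
lemma path_step {z z' : ι → E d} (hz : Function.Injective z) (hz' : Function.Injective z')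
    {ψ ψ' p : ι → ℝ} (h : ∀ i, ∫ x in Lag z ψ i, θ x ∂(unif K) = p i)
    (h' : ∀ i, ∫ x in Lag z' ψ' i, θ x ∂(unif K) = p i) :
    Bf K θ z ψ (fun i => z' i - z i) ≤ Af K θ z' ψ' p - Af K θ z ψ p ∧
    Af K θ z' ψ' p - Af K θ z ψ p ≤ Bf K θ z' ψ' (fun i => z' i - z i) := by
  rw [Bf_sub hK hK0 hKR hθ hθb, Bf_sub hK hK0 hKR hθ hθb]
  have e1 := Af_eq_Bf hK hK0 hKR hθ hθb hz h
  have e2 := Af_eq_Bf hK hK0 hKR hθ hθb hz' h'
  have i1 := Bf_le_Af hK hK0 hKR hθ hθb hz h z' ψ'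
  have i2 := Bf_le_Af hK hK0 hKR hθ hθb hz' h' z ψ
  constructor <;> linarith

end

/-- telescoping at a fixed number of steps -/
lemma tel_step {K : Set (E d)} (hK : IsCompact K) (hK0 : volume K ≠ 0) {R : ℝ}
    (hKR : ∀ x ∈ K, ‖x‖ ≤ R) {C : ℝ} (hML : MLProp K C)
    {ι : Type} [Fintype ι] [Nonempty ι] {a b : ι → E d} {p ψa ψb : ι → ℝ} {γ : E d → ℝ}
    (hinj : ∀ t : ℚ, Function.Injective fun i => a i + (t : ℝ) • (b i - a i))
    (hp : ∀ i, 0 ≤ p i) (hγ : Measurable γ) (hγb : ∀ x ∈ K, |γ x| ≤ 1 / 2)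
    (ha : ∀ i, (unif K).real (Lag a ψa i) = p i)
    (hb : ∀ i, ∫ x in Lag b ψb i, (1 + γ x) ∂(unif K) = p i) {l : ℝ} (hl : 0 < l)
    {N : ℕ} (hN : 0 < N) :
    ∫ x, (pot b ψb x - pot a ψa x) * γ x ∂(unif K)
      ≤ l / 2 * (C * ∫ x, γ x ^ 2 ∂(unif K)) + 1 / (2 * l) * ∑ i, p i * ‖b i - a i‖ ^ 2
        + 2 * R * (∑ i, p i * ‖b i - a i‖) / N := by
  have := isProb_unif hK0 hK.measure_lt_top.ne
  have hac := unif_ac K
  have hN' : (0 : ℝ) < N := by exact_mod_cast hN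
  have hR' : ∀ᵐ x ∂(unif K), ‖x‖ ≤ R := by
    filter_upwards [unif_mem hK.measurableSet] with x hx using hKR x hx
  have m0 : Measurable fun _ : E d => (1 : ℝ) := measurable_const
  have m1 : Measurable fun x : E d => 1 + γ x := hγ.const_add 1
  have b0 : ∀ x ∈ K, (0 : ℝ) ≤ (fun _ : E d => (1 : ℝ)) x ∧ (fun _ : E d => (1 : ℝ)) x ≤ 2 :=
    fun x _ => by constructor <;> norm_num
  have b1 : ∀ x ∈ K, 0 ≤ 1 + γ x ∧ 1 + γ x ≤ 2 := fun x hx => by
    have := abs_le.1 (hγb x hx)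
    constructor <;> linarith
  -- the path
  set z : ℕ → ι → E d := fun j i => a i + ((j : ℝ) / N) • (b i - a i) with hzdef
  have hz : ∀ j, Function.Injective (z j) := by
    intro j
    have := hinj ((j : ℚ) / N)
    simpa [hzdef] using this
  have hz0 : z 0 = a := by
    funext i; simp [hzdef]
  have hzN : z N = b := by
    funext i
    simp only [hzdef]
    rw [div_self hN'.ne', one_smul]; abel
  have hzs : ∀ j i, z (j + 1) i - z j i = (1 / (N : ℝ)) • (b i - a i) := by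
    intro j i
    simp only [hzdef]
    rw [add_sub_add_left_eq_sub, ← sub_smul]
    congr 1
    push_cast
    field_simp
    ring
  -- masses
  have ha' : ∀ i, ∫ x in Lag a ψa i, (fun _ : E d => (1 : ℝ)) x ∂(unif K) = p i := by
    intro i; rw [← ha i]; simp
  have i0 : Integrable (fun _ : E d => (1 : ℝ)) (unif K) := integrable_const _
  have i1 : Integrable (fun x : E d => 1 + γ x) (unif K) := int_theta hK hK0 m1 b1
  have s0 : ∑ i, p i = ∫ x in univ, (fun _ : E d => (1 : ℝ)) x ∂(unif K) := by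
    rw [Measure.restrict_univ, ← sum_setIntegral_Lag hac (by simpa [hz0] using hz 0) ψa i0]
    exact Finset.sum_congr rfl fun i _ => (ha' i).symm
  have s1 : ∑ i, p i = ∫ x in univ, (1 + γ x) ∂(unif K) := by
    rw [Measure.restrict_univ, ← sum_setIntegral_Lag hac (by simpa [hzN] using hz N) ψb i1]
    exact Finset.sum_congr rfl fun i _ => (hb i).symm
  have e0 : ∀ j, ∃ ψ : ι → ℝ, ∀ i, ∫ x in Lag (z j) ψ i, (fun _ : E d => (1 : ℝ)) x ∂(unif K)
      = p i := by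
    intro j
    obtain ⟨ψ, hψ⟩ := semi_density hac hR' m0 (B := 2)
      (by filter_upwards [unif_mem hK.measurableSet] with x hx using b0 x hx)
      MeasurableSet.univ (hz j) hp s0
    exact ⟨ψ, fun i => by simpa using hψ i⟩
  have e1 : ∀ j, ∃ ψ : ι → ℝ, ∀ i, ∫ x in Lag (z j) ψ i, (1 + γ x) ∂(unif K) = p i := by
    intro j
    obtain ⟨ψ, hψ⟩ := semi_density hac hR' m1 (B := 2)
      (by filter_upwards [unif_mem hK.measurableSet] with x hx using b1 x hx)
      MeasurableSet.univ (hz j) hp s1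
    exact ⟨ψ, fun i => by simpa using hψ i⟩
  choose φ0 hφ0 using e0
  choose φ1 hφ1 using e1
  set v : ι → E d := fun i => (1 / (N : ℝ)) • (b i - a i) with hv
  have hzv : ∀ j, (fun i => z (j + 1) i - z j i) = v := fun j => funext fun i => hzs j i
  -- notation for values
  set V0 : ℕ → ℝ := fun j => Af K (fun _ => (1 : ℝ)) (z j) (φ0 j) p with hV0
  set V1 : ℕ → ℝ := fun j => Af K (fun x => 1 + γ x) (z j) (φ1 j) p with hV1
  set B0 : ℕ → ℝ := fun j => Bf K (fun _ => (1 : ℝ)) (z j) (φ0 j) v with hB0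
  set B1 : ℕ → ℝ := fun j => Bf K (fun x => 1 + γ x) (z j) (φ1 j) v with hB1
  have st0 : ∀ j, B0 j ≤ V0 (j + 1) - V0 j := by
    intro j
    have := (path_step hK hK0 hKR m0 b0 (hz j) (hz (j + 1)) (hφ0 j) (hφ0 (j + 1))).1
    rw [hzv j] at this
    exact this
  have st1 : ∀ j, V1 (j + 1) - V1 j ≤ B1 (j + 1) := by
    intro j
    have := (path_step hK hK0 hKR m1 b1 (hz j) (hz (j + 1)) (hφ1 j) (hφ1 (j + 1))).2
    rw [hzv j] at this
    exact this
  set D : ℝ := l / N / 2 * (C * ∫ x, γ x ^ 2 ∂(unif K)) + 1 / (2 * (l / N)) * ∑ i, p i * ‖v i‖ ^ 2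
    with hD
  have hBB : ∀ j, B1 j - B0 j ≤ D := by
    intro j
    have h := hML ι (z j) p (φ0 j) (φ1 j) γ (hz j) hp hγ hγb
      (fun i => by have := hφ0 j i; simpa using this) (hφ1 j) v (l / N) (div_pos hl hN')
    have e : B0 j = ∑ i, ∫ x in Lag (z j) (φ0 j) i, ⟪x, v i⟫ ∂(unif K) := by
      simp only [hB0, Bf, mul_one]
    rw [e]
    exact h
  have htel : ∀ M : ℕ, (V1 M - V1 0) - (V0 M - V0 0) ≤ (B1 M - B1 0) + M * D := by
    intro M
    induction M with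
    | zero => simp
    | succ M ih =>
      have h1 := st0 M
      have h2 := st1 M
      have h3 := hBB M
      push_cast
      linarith
  have hNtel := htel N
  have hB1N := abs_Bf_le hK hK0 hKR m1 b1 (hφ1 N) v
  have hB10 := abs_Bf_le hK hK0 hKR m1 b1 (hφ1 0) v
  have hvn : ∑ i, p i * ‖v i‖ = (∑ i, p i * ‖b i - a i‖) / N := by
    rw [Finset.sum_div]
    refine Finset.sum_congr rfl fun i _ => ?_
    simp only [hv]
    rw [norm_smul, Real.norm_of_nonneg (by positivity)]; ring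
  have hvn2 : ∑ i, p i * ‖v i‖ ^ 2 = (∑ i, p i * ‖b i - a i‖ ^ 2) / N ^ 2 := by
    rw [Finset.sum_div]
    refine Finset.sum_congr rfl fun i _ => ?_
    simp only [hv]
    rw [norm_smul, Real.norm_of_nonneg (by positivity)]
    ring
  have hND : N * D = l / 2 * (C * ∫ x, γ x ^ 2 ∂(unif K))
      + 1 / (2 * l) * ∑ i, p i * ‖b i - a i‖ ^ 2 := by
    rw [hD, hvn2]
    field_simp
  rw [hvn] at hB1N hB10
  -- comparison with the given potentials
  have c1 : Af K (fun x => 1 + γ x) b ψb p ≤ V1 N := by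
    have hbinj : Function.Injective b := by simpa [hzN] using hz N
    have h1 := Af_eq_Bf hK hK0 hKR m1 b1 hbinj hb
    have h2 := Bf_le_Af hK hK0 hKR m1 b1 hbinj hb (z N) (φ1 N)
    rw [hzN] at h2
    simp only [hV1]
    rw [hzN, h1]
    exact h2
  have c2 : V1 0 ≤ Af K (fun x => 1 + γ x) a ψa p := by
    have h1 := Af_eq_Bf hK hK0 hKR m1 b1 (hz 0) (hφ1 0)
    have h2 := Bf_le_Af hK hK0 hKR m1 b1 (hz 0) (hφ1 0) a ψa
    simp only [hV1]
    rw [h1, hz0]
    rw [hz0] at h2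
    exact h2
  have c3 : V0 N ≤ Af K (fun _ => (1 : ℝ)) b ψb p := by
    have h1 := Af_eq_Bf hK hK0 hKR m0 b0 (hz N) (hφ0 N)
    have h2 := Bf_le_Af hK hK0 hKR m0 b0 (hz N) (hφ0 N) b ψb
    simp only [hV0]
    rw [h1, hzN]
    rw [hzN] at h2
    exact h2
  have c4 : Af K (fun _ => (1 : ℝ)) a ψa p ≤ V0 0 := by
    have hainj : Function.Injective a := by simpa [hz0] using hz 0
    have h1 := Af_eq_Bf hK hK0 hKR m0 b0 hainj ha'
    have h2 := Bf_le_Af hK hK0 hKR m0 b0 hainj ha' (z 0) (φ0 0)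
    rw [hz0] at h2
    simp only [hV0]
    rw [hz0, h1]
    exact h2
  have key : ∫ x, (pot b ψb x - pot a ψa x) * γ x ∂(unif K)
      = (Af K (fun x => 1 + γ x) b ψb p - Af K (fun x => 1 + γ x) a ψa p)
        - (Af K (fun _ => (1 : ℝ)) b ψb p - Af K (fun _ => (1 : ℝ)) a ψa p) := by
    have k1 := int_pot_theta hK hK0 hKR m1 b1 b ψb
    have k2 := int_pot_theta hK hK0 hKR m1 b1 a ψa
    have k3 := int_pot_theta hK hK0 hKR m0 b0 b ψb
    have k4 := int_pot_theta hK hK0 hKR m0 b0 a ψa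
    have k12 : Integrable (fun x => pot b ψb x * (1 + γ x) - pot a ψa x * (1 + γ x)) (unif K) :=
      k1.sub k2
    have k34 : Integrable (fun x => pot b ψb x * 1 - pot a ψa x * 1) (unif K) := k3.sub k4
    unfold Af
    have : ∫ x, (pot b ψb x - pot a ψa x) * γ x ∂(unif K)
        = ∫ x, ((pot b ψb x * (1 + γ x) - pot a ψa x * (1 + γ x))
          - (pot b ψb x * 1 - pot a ψa x * 1)) ∂(unif K) := by
      congr 1
      funext x
      ring
    rw [this, integral_sub k12 k34, integral_sub k1 k2, integral_sub k3 k4]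
    ring
  have hfin : (B1 N - B1 0) ≤ 2 * R * (∑ i, p i * ‖b i - a i‖) / N := by
    have h1 := (abs_le.1 hB1N).2
    have h2 := (abs_le.1 hB10).1
    have h3 : 2 * R * (∑ i, p i * ‖b i - a i‖) / N
      = R * ((∑ i, p i * ‖b i - a i‖) / N) + R * ((∑ i, p i * ‖b i - a i‖) / N) := by ring
    rw [h3]
    simp only [hB1]
    linarith
  rw [hND] at hNtel
  rw [key]
  linarith

/-- **Duality and telescoping.** -/
theorem tel_lemma' {K : Set (E d)} (hK : IsCompact K)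
    (hKi : (interior K).Nonempty) {C : ℝ} (hML : MLProp K C)
    {ι : Type} [Fintype ι] [Nonempty ι] {a b : ι → E d} {p ψa ψb : ι → ℝ} {γ : E d → ℝ}
    (hinj : ∀ t : ℚ, Function.Injective fun i => a i + (t : ℝ) • (b i - a i))
    (hp : ∀ i, 0 ≤ p i) (hγ : Measurable γ) (hγb : ∀ x ∈ K, |γ x| ≤ 1 / 2)
    (ha : ∀ i, (unif K).real (Lag a ψa i) = p i)
    (hb : ∀ i, ∫ x in Lag b ψb i, (1 + γ x) ∂(unif K) = p i) {l : ℝ} (hl : 0 < l) :
    ∫ x, (pot b ψb x - pot a ψa x) * γ x ∂(unif K)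
      ≤ l / 2 * (C * ∫ x, γ x ^ 2 ∂(unif K)) + 1 / (2 * l) * ∑ i, p i * ‖b i - a i‖ ^ 2 := by
  have hK0 : volume K ≠ 0 := by
    have h1 : 0 < volume (interior K) := isOpen_interior.measure_pos _ hKi
    exact (h1.trans_le (measure_mono interior_subset)).ne'
  obtain ⟨R, hR⟩ := hK.isBounded.exists_norm_le
  have hstep : ∀ᶠ N : ℕ in atTop, ∫ x, (pot b ψb x - pot a ψa x) * γ x ∂(unif K)
      ≤ l / 2 * (C * ∫ x, γ x ^ 2 ∂(unif K)) + 1 / (2 * l) * ∑ i, p i * ‖b i - a i‖ ^ 2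
        + 2 * R * (∑ i, p i * ‖b i - a i‖) / N := by
    filter_upwards [eventually_gt_atTop 0] with N hN
    exact tel_step hK hK0 hR hML hinj hp hγ hγb ha hb hl hN
  have hlim : Tendsto (fun N : ℕ => l / 2 * (C * ∫ x, γ x ^ 2 ∂(unif K))
      + 1 / (2 * l) * ∑ i, p i * ‖b i - a i‖ ^ 2 + 2 * R * (∑ i, p i * ‖b i - a i‖) / N) atTop
      (𝓝 (l / 2 * (C * ∫ x, γ x ^ 2 ∂(unif K))
      + 1 / (2 * l) * ∑ i, p i * ‖b i - a i‖ ^ 2 + 0)) :=
    tendsto_const_nhds.add (tendsto_const_div_atTop_nhds_zero_nat _)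
  have := ge_of_tendsto hlim hstep
  simpa using this

end Vale.Agent.P074
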